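import Vale.Agent.P074.Tilt

/-! Lipschitz dependence of the first moments of soft cells on their masses. -/

namespace Vale.Agent.P074

open MeasureTheory
open scoped RealInnerProductSpace

variable {d : ℕ} {K : Set (EuclideanSpace ℝ (Fin d))} {ι : Type*} [Fintype ι]

/-- two partitions of unity with a midpoint partition of unity -/
structure MidFamily (p p' q : ι → EuclideanSpace ℝ (Fin d) → ℝ) : Prop where
  cp : ∀ i, Continuous (p i)
  cp' : ∀ i, Continuous (p' i)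
  cq : ∀ i, Continuous (q i)
  pp : ∀ i x, 0 < p i x
  pp' : ∀ i x, 0 < p' i x
  pq : ∀ i x, 0 < q i x
  sp : ∀ x, ∑ i, p i x = 1
  sp' : ∀ x, ∑ i, p' i x = 1
  sq : ∀ x, ∑ i, q i x = 1
  mid : ∀ i x x', p i x * p' i x' ≤ q i ((1 / 2 : ℝ) • (x + x')) ^ 2

theorem sum_integral_mul (hK : IsCompact K) (hKi : (interior K).Nonempty)
    {p : ι → EuclideanSpace ℝ (Fin d) → ℝ} (cp : ∀ i, Continuous (p i))
    (sp : ∀ x, ∑ i, p i x = 1) {g : EuclideanSpace ℝ (Fin d) → ℝ} (hg : Continuous g) :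
    ∑ i, ∫ x, p i x * g x ∂(unif K) = ∫ x, g x ∂(unif K) := by
  rw [← integral_finsetSum _ fun i _ =>
    integrable_unif_of_continuous hK hKi (f := fun x => p i x * g x) (by have := cp i; fun_prop)]
  congr 1
  funext x
  rw [← Finset.sum_mul, sp, one_mul]

theorem tilt_sum (hK : IsCompact K) (hKc : Convex ℝ K) (hKi : (interior K).Nonempty)
    {κ : ℝ} (hκ : 0 < κ) {p p' q : ι → EuclideanSpace ℝ (Fin d) → ℝ} (F : MidFamily p p' q)
    {h : ι → EuclideanSpace ℝ (Fin d) → ℝ} (hh : ∀ i, Continuous (h i))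
    {ℓ : ι → ℝ} (hℓ : ∀ i, ∀ x ∈ K, ∀ x' ∈ K, h i x - h i x' ≤ ℓ i * ‖x - x'‖)
    {a a' : ι → ℝ} (ha : ∀ i, 0 < a i) (ha' : ∀ i, 0 < a' i)
    (haG : ∀ i, a i ^ 2 = ∫ x, p i x * gw κ x ∂(unif K))
    (haG' : ∀ i, a' i ^ 2 = ∫ x, p' i x * gw κ x ∂(unif K)) :
    ∑ i, a i * a' i * ((∫ x, p i x * gw κ x * h i x ∂(unif K)) / a i ^ 2 -
      (∫ x, p' i x * gw κ x * h i x ∂(unif K)) / a' i ^ 2 - ℓ i ^ 2 / κ) ≤
      ∑ i, (a i - a' i) ^ 2 := by
  have hg := continuous_gw (d := d) κ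
  have h1 := Finset.sum_le_sum (s := Finset.univ) fun i _ =>
    tilt_one hK hKc hKi hκ (F.cp i) (F.cp' i) (F.cq i) (hh i) (F.pp i) (F.pp' i) (F.pq i)
      (F.mid i) (hℓ i) (ha i) (ha' i) (haG i) (haG' i)
  rw [← Finset.mul_sum, sum_integral_mul hK hKi F.cq F.sq hg] at h1
  have h2 : ∑ i, a i ^ 2 = ∫ x, gw κ x ∂(unif K) := by
    simp only [haG]; exact sum_integral_mul hK hKi F.cp F.sp hg
  have h3 : ∑ i, a' i ^ 2 = ∫ x, gw κ x ∂(unif K) := by
    simp only [haG']; exact sum_integral_mul hK hKi F.cp' F.sp' hg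
  have h4 : ∑ i, (a i - a' i) ^ 2 = ∑ i, a i ^ 2 + ∑ i, a' i ^ 2 - ∑ i, a i * a' i * 2 := by
    rw [← Finset.sum_add_distrib, ← Finset.sum_sub_distrib]
    exact Finset.sum_congr rfl fun i _ => by ring
  have h5 : ∑ i, a i * a' i * (2 + (∫ x, p i x * gw κ x * h i x ∂(unif K)) / a i ^ 2 -
      (∫ x, p' i x * gw κ x * h i x ∂(unif K)) / a' i ^ 2 - ℓ i ^ 2 / κ) =
      ∑ i, a i * a' i * 2 + ∑ i, a i * a' i * ((∫ x, p i x * gw κ x * h i x ∂(unif K)) / a i ^ 2 -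
      (∫ x, p' i x * gw κ x * h i x ∂(unif K)) / a' i ^ 2 - ℓ i ^ 2 / κ) := by
    rw [← Finset.sum_add_distrib]
    exact Finset.sum_congr rfl fun i _ => by ring
  linarith

/-- the inverse Gaussian weight -/
noncomputable def igw (κ : ℝ) (x : EuclideanSpace ℝ (Fin d)) : ℝ := Real.exp (κ * ‖x‖ ^ 2 / 2)

theorem continuous_igw (κ : ℝ) : Continuous (igw (d := d) κ) := by
  unfold igw; fun_prop

theorem gw_mul_igw (κ : ℝ) (x : EuclideanSpace ℝ (Fin d)) : gw κ x * igw κ x = 1 := by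
  unfold gw igw; rw [← Real.exp_add]; simp

theorem one_le_igw {κ : ℝ} (hκ : 0 < κ) (x : EuclideanSpace ℝ (Fin d)) : 1 ≤ igw κ x :=
  Real.one_le_exp (by positivity)

theorem igw_le_two {κ R : ℝ} (hκ : 0 < κ) (hκR : κ * R ^ 2 = 1 / 64)
    {x : EuclideanSpace ℝ (Fin d)} (hx : ‖x‖ ≤ R) : igw κ x ≤ 2 := by
  have h1 : κ * ‖x‖ ^ 2 ≤ κ * R ^ 2 := by gcongr
  have h2 := Real.add_one_le_exp (-(κ * ‖x‖ ^ 2 / 2))
  have h3 := gw_mul_igw κ x
  have h4 : 1 / 2 ≤ gw κ x := by unfold gw; linarith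
  have h5 := one_le_igw hκ x
  nlinarith

theorem gw_le_one {κ : ℝ} (hκ : 0 < κ) (x : EuclideanSpace ℝ (Fin d)) : gw κ x ≤ 1 := by
  have h3 := gw_mul_igw κ x
  have h5 := one_le_igw hκ x
  have := gw_pos κ x
  nlinarith

theorem half_le_gw {κ R : ℝ} (hκ : 0 < κ) (hκR : κ * R ^ 2 = 1 / 64)
    {x : EuclideanSpace ℝ (Fin d)} (hx : ‖x‖ ≤ R) : 1 / 2 ≤ gw κ x := by
  have h3 := gw_mul_igw κ x
  have h5 := igw_le_two hκ hκR hx
  have := gw_pos κ x
  nlinarith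

theorem abs_igw_sub_le {κ R : ℝ} (hκ : 0 < κ) (hκR : κ * R ^ 2 = 1 / 64)
    {x x' : EuclideanSpace ℝ (Fin d)} (hx : ‖x‖ ≤ R) (hx' : ‖x'‖ ≤ R) :
    |igw κ x - igw κ x'| ≤ 2 * κ * R * ‖x - x'‖ := by
  have key : ∀ z z' : EuclideanSpace ℝ (Fin d), ‖z‖ ≤ R → ‖z'‖ ≤ R →
      igw κ z - igw κ z' ≤ 2 * κ * R * ‖z - z'‖ := by
    intro z z' hz hz'
    have h1 := Real.add_one_le_exp (κ * ‖z'‖ ^ 2 / 2 - κ * ‖z‖ ^ 2 / 2)
    have h2 : igw κ z' = igw κ z * Real.exp (κ * ‖z'‖ ^ 2 / 2 - κ * ‖z‖ ^ 2 / 2) := by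
      unfold igw; rw [← Real.exp_add]; congr 1; ring
    have h3 := igw_le_two hκ hκR hz
    have h4 := one_le_igw hκ z
    have h5 : ‖z‖ - ‖z'‖ ≤ ‖z - z'‖ := norm_sub_norm_le z z'
    have h6 : ‖z‖ ^ 2 - ‖z'‖ ^ 2 ≤ 2 * R * ‖z - z'‖ := by
      have := norm_nonneg z
      have := norm_nonneg z'
      have := norm_nonneg (z - z')
      nlinarith
    have h7 : κ * ‖z‖ ^ 2 / 2 - κ * ‖z'‖ ^ 2 / 2 ≤ κ * R * ‖z - z'‖ := by nlinarith
    have h8 : 0 ≤ κ * R * ‖z - z'‖ := by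
      have : 0 ≤ R := (norm_nonneg z).trans hz
      positivity
    have h9 : igw κ z * (1 - κ * R * ‖z - z'‖) ≤ igw κ z' := by
      rw [h2]; exact mul_le_mul_of_nonneg_left (by linarith) (by linarith)
    nlinarith
  have h1 := key x x' hx hx'
  have h2 := key x' x hx' hx
  rw [norm_sub_rev] at h2
  rw [abs_le]; constructor <;> linarith

theorem hellinger_algebra {a a' u u' m m' : ℝ} (ha : 0 < a) (ha' : 0 < a') (hu1 : 1 ≤ u)
    (hu2 : u ≤ 2) (hu1' : 1 ≤ u') (hm : m = u * a ^ 2) (hm' : m' = u' * a' ^ 2)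
    (hmm : m' ≤ 2 * m) :
    (a - a') ^ 2 ≤ 2 * ((m - m') ^ 2 / m) + 2 * (a * a' * (u - u') ^ 2) := by
  have hm0 : 0 < m := by rw [hm]; positivity
  have h1 : a' ≤ 2 * a := by
    have : a' ^ 2 ≤ (2 * a) ^ 2 := by nlinarith [sq_nonneg a', sq_nonneg a]
    exact (pow_le_pow_iff_left₀ ha'.le (by positivity) two_ne_zero).mp this
  have hD : 0 < u ^ 2 * (a + a') ^ 2 := by positivity
  have h2 : u * (a + a') * (a - a') = (m - m') - (u - u') * a' ^ 2 := by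
    rw [hm, hm']; ring
  have h3 : u ^ 2 * (a + a') ^ 2 * (a - a') ^ 2 ≤ 2 * (m - m') ^ 2 + 2 * ((u - u') ^ 2 * a' ^ 4) := by
    have : u ^ 2 * (a + a') ^ 2 * (a - a') ^ 2 = ((m - m') - (u - u') * a' ^ 2) ^ 2 := by
      rw [← h2]; ring
    rw [this]
    nlinarith [sq_nonneg ((m - m') + (u - u') * a' ^ 2)]
  have h4 : m ≤ u ^ 2 * (a + a') ^ 2 := by
    rw [hm]
    have : a ^ 2 ≤ (a + a') ^ 2 := by nlinarith
    have : u ≤ u ^ 2 := by nlinarith
    exact mul_le_mul (by assumption) (by assumption) (by positivity) (by positivity)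
  have h5 : a' ^ 4 ≤ u ^ 2 * (a + a') ^ 2 * (a * a') := by
    have e1 : a' ^ 3 ≤ (a + a') ^ 2 * a := by
      have e2 : a' ^ 3 ≤ 2 * a * a' ^ 2 := by nlinarith [sq_nonneg a']
      have e3 : 2 * a' ^ 2 ≤ (a + a') ^ 2 := by nlinarith
      nlinarith
    have e4 : 1 ≤ u ^ 2 := by nlinarith
    calc a' ^ 4 = 1 * (a' ^ 3 * a') := by ring
      _ ≤ u ^ 2 * ((a + a') ^ 2 * a * a') := by gcongr
      _ = _ := by ring
  have h6 : (m - m') ^ 2 ≤ u ^ 2 * (a + a') ^ 2 * ((m - m') ^ 2 / m) := by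
    calc (m - m') ^ 2 = m * ((m - m') ^ 2 / m) := by field_simp
      _ ≤ _ := by gcongr
  have h7 : (u - u') ^ 2 * a' ^ 4 ≤ u ^ 2 * (a + a') ^ 2 * (a * a' * (u - u') ^ 2) := by
    calc (u - u') ^ 2 * a' ^ 4 ≤ (u - u') ^ 2 * (u ^ 2 * (a + a') ^ 2 * (a * a')) := by gcongr
      _ = _ := by ring
  refine le_of_mul_le_mul_left ?_ hD
  linarith

theorem bary_estimate (hK : IsCompact K) (hKc : Convex ℝ K) (hKi : (interior K).Nonempty)
    {R : ℝ} (hR0 : 0 < R) (hR : ∀ x ∈ K, ‖x‖ ≤ R)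
    {p p' q : ι → EuclideanSpace ℝ (Fin d) → ℝ} (F : MidFamily p p' q)
    {m m' : ι → ℝ} (hm : ∀ i, ∫ x, p i x ∂(unif K) = m i) (hm' : ∀ i, ∫ x, p' i x ∂(unif K) = m' i)
    (h1 : ∀ i, m' i ≤ 2 * m i) (h2 : ∀ i, m i ≤ 2 * m' i)
    (Δ : ι → EuclideanSpace ℝ (Fin d)) {t : ℝ} (ht : 0 < t) :
    ∑ i, ((∫ x, p i x * ⟪x, Δ i⟫ ∂(unif K)) - ∫ x, p' i x * ⟪x, Δ i⟫ ∂(unif K)) ≤
      t * (1153 * R ^ 2 * ∑ i, m i * ‖Δ i‖ ^ 2) + 5 * (∑ i, (m i - m' i) ^ 2 / m i) / t := by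
  have hi := fun {f : EuclideanSpace ℝ (Fin d) → ℝ} (hf : Continuous f) =>
    integrable_unif_of_continuous hK hKi hf
  obtain ⟨κ, hκ, hκR⟩ : ∃ κ : ℝ, 0 < κ ∧ κ * R ^ 2 = 1 / 64 :=
    ⟨1 / (64 * R ^ 2), by positivity, by field_simp⟩
  have hg := continuous_gw (d := d) κ
  have hθ := continuous_igw (d := d) κ
  have cp := F.cp
  have cp' := F.cp'
  have hG : ∀ i, 0 < ∫ x, p i x * gw κ x ∂(unif K) := fun i =>
    integral_unif_pos hK hKi (by fun_prop) fun x => mul_pos (F.pp i x) (gw_pos κ x)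
  have hG' : ∀ i, 0 < ∫ x, p' i x * gw κ x ∂(unif K) := fun i =>
    integral_unif_pos hK hKi (by fun_prop) fun x => mul_pos (F.pp' i x) (gw_pos κ x)
  have hm0 : ∀ i, 0 < m i := fun i => hm i ▸ integral_unif_pos hK hKi (cp i) (F.pp i)
  have hm0' : ∀ i, 0 < m' i := fun i => hm' i ▸ integral_unif_pos hK hKi (cp' i) (F.pp' i)
  set a : ι → ℝ := fun i => Real.sqrt (∫ x, p i x * gw κ x ∂(unif K)) with ha_def
  set a' : ι → ℝ := fun i => Real.sqrt (∫ x, p' i x * gw κ x ∂(unif K)) with ha'_def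
  have ha : ∀ i, 0 < a i := fun i => Real.sqrt_pos.mpr (hG i)
  have ha' : ∀ i, 0 < a' i := fun i => Real.sqrt_pos.mpr (hG' i)
  have haG : ∀ i, a i ^ 2 = ∫ x, p i x * gw κ x ∂(unif K) := fun i => Real.sq_sqrt (hG i).le
  have haG' : ∀ i, a' i ^ 2 = ∫ x, p' i x * gw κ x ∂(unif K) := fun i => Real.sq_sqrt (hG' i).le
  clear_value a a'
  have hb1 : ∀ {w : EuclideanSpace ℝ (Fin d) → ℝ}, Continuous w → (∀ x, 0 < w x) →
      ∫ x, w x * gw κ x ∂(unif K) ≤ ∫ x, w x ∂(unif K) := fun hw hw0 =>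
    integral_unif_mono hK hKi (by fun_prop) hw fun x _ =>
      mul_le_of_le_one_right (hw0 x).le (gw_le_one hκ x)
  have hb2 : ∀ {w : EuclideanSpace ℝ (Fin d) → ℝ}, Continuous w → (∀ x, 0 < w x) →
      ∫ x, w x ∂(unif K) ≤ 2 * ∫ x, w x * gw κ x ∂(unif K) := fun {w} hw hw0 => by
    rw [← integral_const_mul]
    refine integral_unif_mono hK hKi hw (by fun_prop) fun x hx => ?_
    have := half_le_gw hκ hκR (hR x hx)
    have := hw0 x
    nlinarith
  have ham : ∀ i, a i ^ 2 ≤ m i := fun i => by rw [haG, ← hm]; exact hb1 (cp i) (F.pp i)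
  have ham' : ∀ i, a' i ^ 2 ≤ m' i := fun i => by rw [haG', ← hm']; exact hb1 (cp' i) (F.pp' i)
  have hma : ∀ i, m i ≤ 2 * a i ^ 2 := fun i => by rw [haG, ← hm]; exact hb2 (cp i) (F.pp i)
  have hma' : ∀ i, m' i ≤ 2 * a' i ^ 2 := fun i => by rw [haG', ← hm']; exact hb2 (cp' i) (F.pp' i)
  set χ := ∑ i, (m i - m' i) ^ 2 / m i with hχ
  set H := ∑ i, (a i - a' i) ^ 2 with hH
  -- Step 1: the Hellinger distance of the weighted masses
  have step1 : H ≤ 4 * χ := by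
    set u : ι → ℝ := fun i => m i / a i ^ 2 with hu
    set u' : ι → ℝ := fun i => m' i / a' i ^ 2 with hu'
    have e1 := tilt_sum hK hKc hKi hκ F (h := fun i x => 8 * (u i - u' i) * igw κ x)
      (fun i => by fun_prop) (ℓ := fun i => |8 * (u i - u' i)| * (2 * κ * R))
      (fun i x hx x' hx' => by
        have e2 := abs_igw_sub_le hκ hκR (hR x hx) (hR x' hx')
        calc 8 * (u i - u' i) * igw κ x - 8 * (u i - u' i) * igw κ x'
            = 8 * (u i - u' i) * (igw κ x - igw κ x') := by ring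
          _ ≤ |8 * (u i - u' i) * (igw κ x - igw κ x')| := le_abs_self _
          _ = |8 * (u i - u' i)| * |igw κ x - igw κ x'| := abs_mul _ _
          _ ≤ |8 * (u i - u' i)| * (2 * κ * R * ‖x - x'‖) := by gcongr
          _ = _ := by ring)
      ha ha' haG haG'
    have e3 : ∀ {w : EuclideanSpace ℝ (Fin d) → ℝ} (c : ℝ),
        ∫ x, w x * gw κ x * (c * igw κ x) ∂(unif K) = c * ∫ x, w x ∂(unif K) := fun {w} c => by
      rw [← integral_const_mul]
      congr 1; funext x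
      have := gw_mul_igw κ x
      calc w x * gw κ x * (c * igw κ x) = c * w x * (gw κ x * igw κ x) := by ring
        _ = _ := by rw [this]; ring
    simp only [e3, hm, hm'] at e1
    have e4 : ∀ i, a i * a' i * (8 * (u i - u' i) * m i / a i ^ 2 -
        8 * (u i - u' i) * m' i / a' i ^ 2 - (|8 * (u i - u' i)| * (2 * κ * R)) ^ 2 / κ) =
        4 * (a i * a' i * (u i - u' i) ^ 2) := by
      intro i
      have f1 : (|8 * (u i - u' i)| * (2 * κ * R)) ^ 2 / κ = 4 * (u i - u' i) ^ 2 := by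
        rw [mul_pow, sq_abs]
        calc (8 * (u i - u' i)) ^ 2 * (2 * κ * R) ^ 2 / κ
            = 256 * (u i - u' i) ^ 2 * (κ * R ^ 2) := by field_simp; ring
          _ = _ := by rw [hκR]; ring
      have f2 : 8 * (u i - u' i) * m i / a i ^ 2 = 8 * (u i - u' i) * u i := by
        simp only [hu]; ring
      have f3 : 8 * (u i - u' i) * m' i / a' i ^ 2 = 8 * (u i - u' i) * u' i := by
        simp only [hu']; ring
      rw [f1, f2, f3]; ring
    simp only [e4, ← Finset.mul_sum] at e1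
    have e5 : H ≤ 2 * χ + 2 * ∑ i, a i * a' i * (u i - u' i) ^ 2 := by
      rw [hH, hχ, Finset.mul_sum, Finset.mul_sum, ← Finset.sum_add_distrib]
      refine Finset.sum_le_sum fun i _ => ?_
      have g1 := pow_pos (ha i) 2
      have g2 := pow_pos (ha' i) 2
      refine hellinger_algebra (ha i) (ha' i) ?_ ?_ ?_ ?_ ?_ (h1 i)
      · simp only [hu]; rw [le_div_iff₀ g1]; linarith [ham i]
      · simp only [hu]; rw [div_le_iff₀ g1]; linarith [hma i]
      · simp only [hu']; rw [le_div_iff₀ g2]; linarith [ham' i]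
      · simp only [hu]; rw [div_mul_cancel₀ _ g1.ne']
      · simp only [hu']; rw [div_mul_cancel₀ _ g2.ne']
    linarith
  -- Step 2: first moments
  set b : ι → ℝ := fun i => ∫ x, p i x * ⟪x, Δ i⟫ ∂(unif K) with hb
  set b' : ι → ℝ := fun i => ∫ x, p' i x * ⟪x, Δ i⟫ ∂(unif K) with hb'
  set β : ι → ℝ := fun i => b' i / m' i with hβ
  have hin : ∀ i, ∀ x ∈ K, |⟪x, Δ i⟫| ≤ R * ‖Δ i‖ := fun i x hx =>
    (abs_real_inner_le_norm _ _).trans (mul_le_mul_of_nonneg_right (hR x hx) (norm_nonneg _))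
  have hβb : ∀ i, |β i| ≤ R * ‖Δ i‖ := by
    intro i
    have c1 : b' i ≤ R * ‖Δ i‖ * m' i := by
      rw [← hm', ← integral_const_mul]
      refine integral_unif_mono hK hKi (by fun_prop) (by fun_prop) fun x hx => ?_
      have := (abs_le.mp (hin i x hx)).2
      have := F.pp' i x
      nlinarith
    have c2 : -(R * ‖Δ i‖) * m' i ≤ b' i := by
      rw [← hm', ← integral_const_mul]
      refine integral_unif_mono hK hKi (by fun_prop) (by fun_prop) fun x hx => ?_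
      have := (abs_le.mp (hin i x hx)).1
      have := F.pp' i x
      nlinarith
    rw [abs_le]
    constructor
    · simp only [hβ]; rw [le_div_iff₀ (hm0' i)]; exact c2
    · simp only [hβ]; rw [div_le_iff₀ (hm0' i)]; exact c1
  set s := 1 / t with hs
  have hs0 : 0 < s⁻¹ := by rw [hs]; positivity
  have e1 := tilt_sum hK hKc hKi hκ F
    (h := fun i x => t * a i / a' i * ((⟪x, Δ i⟫ - β i) * igw κ x))
    (fun i => by fun_prop) (ℓ := fun i => t * a i / a' i * (3 * ‖Δ i‖))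
    (fun i x hx x' hx' => by
      have e2 := abs_igw_sub_le hκ hκR (hR x hx) (hR x' hx')
      have e3 := igw_le_two hκ hκR (hR x hx)
      have e4 := one_le_igw hκ x
      have e5 : |⟪x', Δ i⟫ - β i| ≤ 2 * (R * ‖Δ i‖) :=
        (abs_sub _ _).trans (by linarith [hin i x' hx', hβb i])
      have e6 : ⟪x, Δ i⟫ - ⟪x', Δ i⟫ ≤ ‖x - x'‖ * ‖Δ i‖ := by
        rw [← inner_sub_left]; exact real_inner_le_norm _ _
      have e7 : (⟪x', Δ i⟫ - β i) * (igw κ x - igw κ x') ≤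
          2 * (R * ‖Δ i‖) * (2 * κ * R * ‖x - x'‖) :=
        (le_abs_self _).trans (by rw [abs_mul]; gcongr)
      have e8 : 2 * (R * ‖Δ i‖) * (2 * κ * R * ‖x - x'‖) = ‖x - x'‖ * ‖Δ i‖ / 16 := by
        calc _ = 4 * (κ * R ^ 2) * (‖x - x'‖ * ‖Δ i‖) := by ring
          _ = _ := by rw [hκR]; ring
      have e9 : 0 ≤ ‖x - x'‖ * ‖Δ i‖ := by positivity
      have e10 : (⟪x, Δ i⟫ - ⟪x', Δ i⟫) * igw κ x ≤ ‖x - x'‖ * ‖Δ i‖ * 2 :=
        (mul_le_mul_of_nonneg_right e6 (by linarith)).trans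
          (mul_le_mul_of_nonneg_left e3 e9)
      have e11 : (⟪x, Δ i⟫ - β i) * igw κ x - (⟪x', Δ i⟫ - β i) * igw κ x' ≤
          3 * ‖Δ i‖ * ‖x - x'‖ := by nlinarith
      have e12 : 0 ≤ t * a i / a' i := by have := ha i; have := ha' i; positivity
      calc _ = t * a i / a' i *
            ((⟪x, Δ i⟫ - β i) * igw κ x - (⟪x', Δ i⟫ - β i) * igw κ x') := by ring
        _ ≤ t * a i / a' i * (3 * ‖Δ i‖ * ‖x - x'‖) := by gcongr
        _ = _ := by ring)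
    ha ha' haG haG'
  have e3 : ∀ {w : EuclideanSpace ℝ (Fin d) → ℝ} (_ : Continuous w) (c : ℝ) (i : ι),
      ∫ x, w x * gw κ x * (c * ((⟪x, Δ i⟫ - β i) * igw κ x)) ∂(unif K) =
        c * (∫ x, w x * ⟪x, Δ i⟫ ∂(unif K) - β i * ∫ x, w x ∂(unif K)) := fun {w} hw c i => by
    rw [← integral_const_mul, ← integral_sub (hi (by fun_prop)) (hi (by fun_prop)),
      ← integral_const_mul]
    congr 1; funext x
    have := gw_mul_igw κ x
    calc w x * gw κ x * (c * ((⟪x, Δ i⟫ - β i) * igw κ x))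
        = c * w x * (⟪x, Δ i⟫ - β i) * (gw κ x * igw κ x) := by ring
      _ = _ := by rw [this]; ring
  simp only [e3 (cp _), e3 (cp' _), hm, hm'] at e1
  have e4 : ∀ i, t * (b i - β i * m i) - t ^ 2 * (1152 * R ^ 2 * (m i * ‖Δ i‖ ^ 2)) ≤
      a i * a' i * (t * a i / a' i * (b i - β i * m i) / a i ^ 2 -
        t * a i / a' i * (b' i - β i * m' i) / a' i ^ 2 - (t * a i / a' i * (3 * ‖Δ i‖)) ^ 2 / κ) := by
    intro i
    have g1 := ha i
    have g2 := ha' i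
    have f0 : b' i - β i * m' i = 0 := by
      have := hm0' i
      simp only [hβ]; field_simp; ring
    have f1 : a i ≤ 2 * a' i := by
      have : a i ^ 2 ≤ (2 * a' i) ^ 2 := by nlinarith [ham i, hma' i, h2 i]
      exact (pow_le_pow_iff_left₀ g1.le (by positivity) two_ne_zero).mp this
    have f2 : a i ^ 3 / a' i ≤ 2 * m i := by
      rw [div_le_iff₀ g2]
      have := ham i
      nlinarith [pow_pos g1 2]
    have f3 : 1 / κ = 64 * R ^ 2 := by
      field_simp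
      linarith
    have f4 : a i * a' i * (t * a i / a' i * (b i - β i * m i) / a i ^ 2 -
        t * a i / a' i * (b' i - β i * m' i) / a' i ^ 2 - (t * a i / a' i * (3 * ‖Δ i‖)) ^ 2 / κ) =
        t * (b i - β i * m i) - t ^ 2 * (9 * (1 / κ) * (a i ^ 3 / a' i * ‖Δ i‖ ^ 2)) := by
      rw [f0]; field_simp; ring
    rw [f4, f3]
    have f5 : a i ^ 3 / a' i * ‖Δ i‖ ^ 2 ≤ 2 * m i * ‖Δ i‖ ^ 2 := by gcongr
    have f6 : 9 * (64 * R ^ 2) * (a i ^ 3 / a' i * ‖Δ i‖ ^ 2) ≤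
        1152 * R ^ 2 * (m i * ‖Δ i‖ ^ 2) := by
      calc _ ≤ 9 * (64 * R ^ 2) * (2 * m i * ‖Δ i‖ ^ 2) := by gcongr
        _ = _ := by ring
    have := mul_le_mul_of_nonneg_left f6 (sq_nonneg t)
    linarith
  have e5 := (Finset.sum_le_sum fun i (_ : i ∈ Finset.univ) => e4 i).trans e1
  rw [Finset.sum_sub_distrib, ← Finset.mul_sum, ← Finset.mul_sum, ← Finset.mul_sum] at e5
  set W := ∑ i, m i * ‖Δ i‖ ^ 2 with hW
  have e6 : ∑ i, β i * (m i - m' i) ≤ t * (R ^ 2 * W) + χ / t := by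
    rw [hW, hχ, Finset.mul_sum, Finset.mul_sum, Finset.sum_div, ← Finset.sum_add_distrib]
    refine Finset.sum_le_sum fun i _ => ?_
    have g0 := hm0 i
    have g1 : β i ^ 2 ≤ (R * ‖Δ i‖) ^ 2 := by
      rw [← sq_abs]; gcongr; exact hβb i
    have g2 : β i * (m i - m' i) ≤ t * (m i * β i ^ 2) + (m i - m' i) ^ 2 / m i / t := by
      have g3 : t * (m i * β i ^ 2) + (m i - m' i) ^ 2 / m i / t - 2 * (β i * (m i - m' i)) =
          (t * m i * β i - (m i - m' i)) ^ 2 / (m i * t) := by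
        field_simp; ring
      have g4 : 0 ≤ (t * m i * β i - (m i - m' i)) ^ 2 / (m i * t) := by positivity
      have g5 : 0 ≤ t * (m i * β i ^ 2) + (m i - m' i) ^ 2 / m i / t := by positivity
      linarith
    have g6 : t * (m i * β i ^ 2) ≤ t * (R ^ 2 * (m i * ‖Δ i‖ ^ 2)) := by
      calc t * (m i * β i ^ 2) ≤ t * (m i * (R * ‖Δ i‖) ^ 2) := by gcongr
        _ = _ := by ring
    linarith
  have e7 : ∑ i, (b i - b' i) = ∑ i, (b i - β i * m i) + ∑ i, β i * (m i - m' i) := by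
    rw [← Finset.sum_add_distrib]
    refine Finset.sum_congr rfl fun i _ => ?_
    have := hm0' i
    simp only [hβ]; field_simp; ring
  have e8 : ∑ i, (b i - β i * m i) ≤ t * (1152 * R ^ 2 * W) + 4 * χ / t := by
    refine le_of_mul_le_mul_left ?_ ht
    have : t * (t * (1152 * R ^ 2 * W) + 4 * χ / t) = t ^ 2 * (1152 * R ^ 2 * W) + 4 * χ := by
      field_simp
    rw [this]; linarith
  have e9 : 5 * χ / t = 4 * χ / t + χ / t := by ring
  change ∑ i, (b i - b' i) ≤ _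
  rw [e7, e9]; linarith

end Vale.Agent.P074
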