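import Mathlib

/-! Quantization of a compactly supported probability measure. -/

namespace Vale.Agent.P074

open MeasureTheory

theorem exists_discretization_aux {X : Type*} [MetricSpace X] [MeasurableSpace X] [BorelSpace X]
    (Z : Set X) (hZ : IsCompact Z) (P : Measure X) [IsProbabilityMeasure P] (hP : P Zᶜ = 0)
    (η : ℝ) (hη : 0 < η) :
    ∃ (N : ℕ) (m : Fin N → ℝ) (c : Fin N → X),
      (∀ i, 0 ≤ m i) ∧ ∑ i, m i = 1 ∧ (∀ i, c i ∈ Z) ∧
      ∀ (F : X → ℝ) (Λ : ℝ), 0 ≤ Λ → Continuous F →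
        (∀ a ∈ Z, ∀ b ∈ Z, |F a - F b| ≤ Λ * dist a b) →
        |∫ z, F z ∂P - ∑ i, m i * F (c i)| ≤ Λ * η := by
  obtain ⟨t, htZ, htf, hcov⟩ := finite_cover_balls_of_compact hZ hη
  obtain ⟨N, c, hc⟩ := htf.fin_param
  have hcZ : ∀ i, c i ∈ Z := fun i => htZ (hc.2 ▸ Set.mem_range_self i)
  set B : Fin N → Set X := fun i => Metric.ball (c i) η ∩ Z with hB
  have hZm : MeasurableSet Z := hZ.isClosed.measurableSet
  have hBm : ∀ i, MeasurableSet (B i) := fun i => Metric.isOpen_ball.measurableSet.inter hZm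
  set A : Fin N → Set X := disjointed B with hA
  have hAm : ∀ i, MeasurableSet (A i) := fun i => by
    rw [hA, disjointed_apply, Finset.sup_eq_iSup]
    refine (hBm i).diff ?_
    exact MeasurableSet.iUnion fun j => MeasurableSet.iUnion fun _ => hBm j
  have hAd : Pairwise (Function.onFun Disjoint A) := disjoint_disjointed B
  have hAB : ∀ i, A i ⊆ B i := fun i => disjointed_le B i
  have hAU : ⋃ i, A i = Z := by
    rw [hA, iUnion_disjointed]
    refine Set.Subset.antisymm (Set.iUnion_subset fun i => Set.inter_subset_right) fun z hz => ?_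
    obtain ⟨x, hx, hzx⟩ := Set.mem_iUnion₂.mp (hcov hz)
    rw [← hc.2] at hx
    obtain ⟨i, rfl⟩ := hx
    exact Set.mem_iUnion.mpr ⟨i, hzx, hz⟩
  have hres : P.restrict Z = P := Measure.restrict_eq_self_of_ae_mem hP
  have hsum : ∀ F : X → ℝ, Continuous F → ∫ z, F z ∂P = ∑ i, ∫ z in A i, F z ∂P := by
    intro F hF
    have hFi : IntegrableOn F Z P := hF.continuousOn.integrableOn_compact' hZ hZm
    rw [← integral_iUnion_fintype hAm hAd fun i => hFi.mono_set ((hAB i).trans
      Set.inter_subset_right), hAU, hres]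
  have hm1 : ∑ i, P.real (A i) = 1 := by
    have := hsum (fun _ => 1) continuous_const
    simpa using this.symm
  refine ⟨N, fun i => P.real (A i), c, fun i => measureReal_nonneg, hm1, hcZ, ?_⟩
  intro F Λ hΛ hF hl
  have hFi : IntegrableOn F Z P := hF.continuousOn.integrableOn_compact' hZ hZm
  rw [hsum F hF, ← Finset.sum_sub_distrib]
  refine (Finset.abs_sum_le_sum_abs _ _).trans ?_
  calc _ ≤ ∑ i, Λ * η * P.real (A i) := by
        refine Finset.sum_le_sum fun i _ => ?_
        have h1 : P.real (A i) * F (c i) = ∫ _ in A i, F (c i) ∂P := by simp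
        rw [h1, ← integral_sub (hFi.mono_set ((hAB i).trans Set.inter_subset_right))
          (integrable_const _), ← Real.norm_eq_abs]
        refine norm_setIntegral_le_of_norm_le_const (measure_lt_top _ _) fun z hz => ?_
        have h2 := hAB i hz
        rw [Real.norm_eq_abs]
        refine (hl z h2.2 (c i) (hcZ i)).trans ?_
        exact mul_le_mul_of_nonneg_left (le_of_lt h2.1) hΛ
    _ = Λ * η := by rw [← Finset.mul_sum, hm1, mul_one]

theorem exists_discretization {X : Type*} [MetricSpace X] [MeasurableSpace X] [BorelSpace X]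
    (Z : Set X) (hZ : IsCompact Z) (P : Measure X) [IsProbabilityMeasure P] (hP : P Zᶜ = 0)
    (η : ℝ) (hη : 0 < η) :
    ∃ (n : ℕ) (m : Fin (n + 1) → ℝ) (c : Fin (n + 1) → X),
      (∀ i, 0 < m i) ∧ ∑ i, m i = 1 ∧ (∀ i, c i ∈ Z) ∧
      ∀ (F : X → ℝ) (Λ : ℝ), 0 ≤ Λ → Continuous F →
        (∀ a ∈ Z, ∀ b ∈ Z, |F a - F b| ≤ Λ * dist a b) →
        |∫ z, F z ∂P - ∑ i, m i * F (c i)| ≤ Λ * η := by
  obtain ⟨N, m, c, hm, hm1, hc, H⟩ := exists_discretization_aux Z hZ P hP η hη
  set s : Finset (Fin N) := Finset.univ.filter fun i => 0 < m i with hs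
  have hsum : ∀ g : Fin N → ℝ, ∑ i ∈ s, m i * g i = ∑ i, m i * g i := fun g => by
    refine Finset.sum_subset (Finset.subset_univ _) fun i _ hi => ?_
    have : m i = 0 := le_antisymm (by simpa [hs] using hi) (hm i)
    rw [this, zero_mul]
  have hs1 : ∑ i ∈ s, m i = 1 := by
    have := hsum fun _ => 1
    simpa [hm1] using this
  have hne : s.Nonempty := by
    rw [Finset.nonempty_iff_ne_empty]
    intro h
    rw [h] at hs1
    simp at hs1
  obtain ⟨n, hn⟩ : ∃ n, s.card = n + 1 :=
    Nat.exists_eq_succ_of_ne_zero (Finset.card_pos.mpr hne).ne'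
  set e := s.orderIsoOfFin hn with he
  have hsum2 : ∀ g : Fin N → ℝ, ∑ j, g (e j) = ∑ i ∈ s, g i := fun g => by
    rw [← Finset.sum_coe_sort s g]
    exact Equiv.sum_comp e.toEquiv fun i : s => g i
  refine ⟨n, fun j => m (e j), fun j => c (e j), fun j => ?_, ?_, fun j => hc _, ?_⟩
  · exact (Finset.mem_filter.mp (e j).2).2
  · rw [hsum2 m, hs1]
  · intro F Λ hΛ hF hl
    rw [hsum2 fun i => m i * F (c i), hsum]
    exact H F Λ hΛ hF hl

end Vale.Agent.P074
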