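import Vale.Agent.P074.Plan
import Vale.Agent.P074.Discretize

/-! Existence of a transport map attaining the dual value. -/

namespace Vale.Agent.P074

open MeasureTheory Filter Topology
open scoped RealInnerProductSpace

variable {d : ℕ} {K : Set (EuclideanSpace ℝ (Fin d))}

theorem exists_pos_norm_bound {K : Set (EuclideanSpace ℝ (Fin d))} (hK : IsCompact K) :
    ∃ R : ℝ, 0 < R ∧ ∀ x ∈ K, ‖x‖ ≤ R := by
  obtain ⟨R, hR⟩ := hK.isBounded.exists_norm_le
  exact ⟨max R 1, lt_max_of_lt_right one_pos, fun x hx => (hR x hx).trans (le_max_left _ _)⟩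

theorem measure_ext_lipschitz {μ ν : Measure (EuclideanSpace ℝ (Fin d))} [IsProbabilityMeasure μ]
    [IsProbabilityMeasure ν]
    (h : ∀ (F : EuclideanSpace ℝ (Fin d) → ℝ) (Λ : NNReal), (∃ C : ℝ, ∀ x y, dist (F x) (F y) ≤ C) →
      LipschitzWith Λ F → ∫ x, F x ∂μ = ∫ x, F x ∂ν) : μ = ν := by
  let μ' : ProbabilityMeasure (EuclideanSpace ℝ (Fin d)) := ⟨μ, inferInstance⟩
  let ν' : ProbabilityMeasure (EuclideanSpace ℝ (Fin d)) := ⟨ν, inferInstance⟩
  have h1 : Tendsto (fun _ : ℕ => μ') atTop (𝓝 ν') := by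
    rw [tendsto_iff_forall_lipschitz_integral_tendsto]
    rintro F hF ⟨Λ, hΛ⟩
    have := h F Λ hF hΛ
    change Tendsto (fun _ : ℕ => ∫ x, F x ∂μ) atTop (𝓝 (∫ x, F x ∂ν))
    rw [this]
    exact tendsto_const_nhds
  have h2 : μ' = ν' := tendsto_nhds_unique tendsto_const_nhds h1
  exact congrArg Subtype.val h2

/-- the barycentric map of one soft plan is close to the atoms of another one whose gap with
respect to the first potential is small -/
theorem softPlan_close (hK : IsCompact K) (hKc : Convex ℝ K) (hKi : (interior K).Nonempty)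
    {L : ℝ} (hL : 0 < L) {β : ℝ} (hβ : 0 < β) :
    ∃ Γ : ℝ, 0 < Γ ∧ ∀ (n n' : ℕ) (m : Fin n → ℝ) (c : Fin n → EuclideanSpace ℝ (Fin d)) (σ : ℝ)
      (p : Fin n → EuclideanSpace ℝ (Fin d) → ℝ) (φ : EuclideanSpace ℝ (Fin d) → ℝ)
      (m' : Fin n' → ℝ) (c' : Fin n' → EuclideanSpace ℝ (Fin d)) (σ' : ℝ)
      (p' : Fin n' → EuclideanSpace ℝ (Fin d) → ℝ) (φ' : EuclideanSpace ℝ (Fin d) → ℝ),
      SoftPlan K m c σ p φ → SoftPlan K m' c' σ' p' φ' → (∀ i, ‖c i‖ ≤ L) → (∀ i, ‖c' i‖ ≤ L) →
      ∫ x, φ x ∂(unif K) + ∑ i, m' i * conj K φ (c' i) - corr K c' p' ≤ Γ →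
      ∫ x, ∑ i, p' i x * ‖bmap c p x - c' i‖ ∂(unif K) ≤ β := by
  have hi := fun {f : EuclideanSpace ℝ (Fin d) → ℝ} (hf : Continuous f) =>
    integrable_unif_of_continuous hK hKi hf
  have := isProbabilityMeasure_unif hK hKi
  obtain ⟨C, r, hC, hr, hint⟩ := interp hK hKc hKi
  set h := min r (β ^ 2 / (8 * C * L ^ 2)) with hh
  have hh0 : 0 < h := by positivity
  refine ⟨β ^ 2 * h / (8 * C * L), by positivity, ?_⟩
  intro n n' m c σ p φ m' c' σ' p' φ' P P' hc hc' hΓ
  obtain ⟨G, hGi, hG, hGp⟩ := hint L φ φ 0 h hL.le (P.hasBddSubgrad hc) (P.hasBddSubgrad hc) hh0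
    (min_le_left _ _)
  simp only [sub_self, ne_eq, OfNat.ofNat_ne_zero, not_false_eq_true, zero_pow, integral_zero,
    zero_div, add_zero] at hG
  have hcp := P'.cont
  have hb := P.continuous_bmap
  have hφ := P.contφ
  have h1 : ∀ x ∈ K, ∑ i, p' i x * ‖bmap c p x - c' i‖ ≤ β / 2 + (2 / β) * (G x +
      C * L / h * ∑ i, p' i x * (φ x + conj K φ (c' i) - ⟪x, c' i⟫)) := by
    intro x hx
    have e1 : ∀ i, ‖bmap c p x - c' i‖ ≤ β / 2 + (2 / β) * (G x +
        C * L / h * (φ x + conj K φ (c' i) - ⟪x, c' i⟫)) := by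
      intro i
      have e2 := hGp x hx (bmap c p x) (c' i) 0 (φ x + conj K φ (c' i) - ⟪x, c' i⟫)
        (P.norm_bmap_le hc x) (hc' i) le_rfl (by linarith [le_conj hK hφ hx (c' i)])
        (fun x' _ => by linarith [P.subgrad x x'])
        (fun x' hx' => by
          have := le_conj hK hφ hx' (c' i)
          rw [inner_sub_left]; linarith)
      have e3 : C * L * (0 + (φ x + conj K φ (c' i) - ⟪x, c' i⟫)) / h =
          C * L / h * (φ x + conj K φ (c' i) - ⟪x, c' i⟫) := by ring
      rw [e3] at e2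
      set z := ‖bmap c p x - c' i‖
      have e4 : z ≤ β / 2 + (2 / β) * z ^ 2 := by
        have e5 : β / 2 + (2 / β) * z ^ 2 - 2 * z = (2 / β) * (z - β / 2) ^ 2 := by
          field_simp; ring
        have e6 : 0 ≤ (2 / β) * (z - β / 2) ^ 2 := by positivity
        have e7 : 0 ≤ z := norm_nonneg _
        linarith
      exact e4.trans (by gcongr)
    calc _ ≤ ∑ i, p' i x * (β / 2 + (2 / β) * (G x +
          C * L / h * (φ x + conj K φ (c' i) - ⟪x, c' i⟫))) :=
          Finset.sum_le_sum fun i _ => mul_le_mul_of_nonneg_left (e1 i) (P'.nonneg i x)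
      _ = _ := by
          have : ∀ i, p' i x * (β / 2 + (2 / β) * (G x +
              C * L / h * (φ x + conj K φ (c' i) - ⟪x, c' i⟫))) =
              p' i x * (β / 2 + (2 / β) * G x) +
              (2 / β) * (C * L / h) * (p' i x * (φ x + conj K φ (c' i) - ⟪x, c' i⟫)) :=
            fun i => by ring
          simp only [this, Finset.sum_add_distrib, ← Finset.sum_mul, ← Finset.mul_sum, P'.sum_one]
          ring
  have hi2 : Integrable (fun x => C * L / h *
      ∑ i, p' i x * (φ x + conj K φ (c' i) - ⟪x, c' i⟫)) (unif K) := hi (by fun_prop)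
  have hi3 : Integrable (fun x => 2 / β * (G x + C * L / h *
      ∑ i, p' i x * (φ x + conj K φ (c' i) - ⟪x, c' i⟫))) (unif K) := (hGi.add hi2).const_mul _
  have h2 := integral_mono_ae (hi (by fun_prop))
    ((integrable_const _).add hi3) ((ae_mem_unif hK).mono h1)
  simp only [Pi.add_apply] at h2
  rw [integral_add (integrable_const _) hi3, integral_const_mul,
    integral_add hGi hi2, integral_const_mul, P'.integral_gap hK hKi hφ] at h2
  simp only [integral_const, probReal_univ, smul_eq_mul, one_mul] at h2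
  have h3 : C * (L ^ 2 * h) ≤ β ^ 2 / 8 := by
    calc C * (L ^ 2 * h) ≤ C * (L ^ 2 * (β ^ 2 / (8 * C * L ^ 2))) := by
          gcongr; exact min_le_right _ _
      _ = β ^ 2 / 8 := by field_simp
  have h4 : C * L / h * (∫ x, φ x ∂(unif K) + ∑ i, m' i * conj K φ (c' i) - corr K c' p') ≤
      β ^ 2 / 8 := by
    calc _ ≤ C * L / h * (β ^ 2 * h / (8 * C * L)) := by gcongr
      _ = β ^ 2 / 8 := by field_simp
  calc _ ≤ _ := h2
    _ ≤ β / 2 + (2 / β) * (β ^ 2 / 8 + β ^ 2 / 8) := by gcongr; exact hG.trans h3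
    _ = β := by field_simp; ring

theorem exists_approx {Y : Set (EuclideanSpace ℝ (Fin d))} (hY : IsCompact Y)
    (μ : Measure (EuclideanSpace ℝ (Fin d))) [IsProbabilityMeasure μ] (hμ : μ Yᶜ = 0)
    {η : ℝ} (hη : 0 < η) :
    ∃ (n : ℕ) (m : Fin (n + 1) → ℝ) (c : Fin (n + 1) → EuclideanSpace ℝ (Fin d)),
      (∀ i, 0 < m i) ∧ ∑ i, m i = 1 ∧ (∀ i, c i ∈ Y) ∧ Approx μ m c η := by
  obtain ⟨n, m, c, h1, h2, h3, h4⟩ := exists_discretization Y hY μ hμ η hη
  exact ⟨n, m, c, h1, h2, h3, fun F Λ hΛ hF hl => h4 F Λ hΛ hF fun a _ b _ => hl a b⟩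

/-- Strong duality with a Monge map: some Borel map pushes `ρ` to `μ` and its correlation is
approximated from above by the dual functional. -/
theorem exists_map_dual (hK : IsCompact K) (hKc : Convex ℝ K) (hKi : (interior K).Nonempty)
    {Y : Set (EuclideanSpace ℝ (Fin d))} (hY : IsCompact Y)
    (μ : Measure (EuclideanSpace ℝ (Fin d))) [IsProbabilityMeasure μ] (hμ : μ Yᶜ = 0) :
    ∃ T : EuclideanSpace ℝ (Fin d) → EuclideanSpace ℝ (Fin d), Measurable T ∧
      (unif K).map T = μ ∧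
      ∀ σ : ℝ, 0 < σ → ∃ φ : EuclideanSpace ℝ (Fin d) → ℝ, Continuous φ ∧
        dualJ K μ φ ≤ ∫ x, ⟪x, T x⟫ ∂(unif K) + σ := by
  have hi := fun {f : EuclideanSpace ℝ (Fin d) → ℝ} (hf : Continuous f) =>
    integrable_unif_of_continuous hK hKi hf
  have := isProbabilityMeasure_unif hK hKi
  obtain ⟨R, hR0, hR⟩ := exists_pos_norm_bound hK
  obtain ⟨L, hL0, hL⟩ := exists_pos_norm_bound hY
  set τ : ℕ → ℝ := fun k => 1 / ((k : ℝ) + 1) with hτ
  have hτ0 : ∀ k, 0 < τ k := fun k => by positivity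
  have hτt : Tendsto τ atTop (𝓝 0) := tendsto_one_div_add_atTop_nhds_zero_nat
  choose N m c hm hm1 hc hA using fun k => exists_approx hY μ hμ (hτ0 k)
  have hcL : ∀ k i, ‖c k i‖ ≤ L := fun k i => hL _ (hc k i)
  have hex : ∀ k, ∃ p φ, SoftPlan K (m k) (c k) (τ k) p φ := fun k => by
    obtain ⟨p, φ, -, -, P, -⟩ :=
      exists_softPlan_pair hK hKc hKi hR0 hR (hm k) (hm1 k) (c k) (c k) (hτ0 k)
    exact ⟨p, φ, P⟩
  choose p φ P using hex
  set T : ℕ → EuclideanSpace ℝ (Fin d) → EuclideanSpace ℝ (Fin d) :=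
    fun k => bmap (c k) (p k) with hT
  have hTc : ∀ k, Continuous (T k) := fun k => (P k).continuous_bmap
  have hTi : ∀ k, Integrable (T k) (unif K) := fun k =>
    integrable_unif_of_continuous hK hKi (hTc k)
  have hclose : ∀ β : ℝ, 0 < β → ∃ M : ℕ, ∀ n ≥ M, ∀ k ≥ M,
      ∫ x, ∑ i, p k i x * ‖T n x - c k i‖ ∂(unif K) ≤ β := by
    intro β hβ
    obtain ⟨Γ, hΓ, H⟩ := softPlan_close hK hKc hKi hL0 hβ
    obtain ⟨M, hM⟩ := eventually_atTop.mp
      (hτt.eventually_le_const (show (0 : ℝ) < Γ / (2 * (1 + 2 * R)) by positivity))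
    refine ⟨M, fun n hn k hk => H _ _ _ _ _ _ _ _ _ _ _ _ (P n) (P k) (hcL n) (hcL k) ?_⟩
    have e1 := (abs_le.mp ((hA k).conj_bound hK hKi hR0 hR (P n).contφ)).1
    have e2 := (P n).dualJ_le hK hKi hR0 hR (hA n)
    have e3 := (P n).corr_le_dualJ hK hKi hR0 hR (hA n) (P k).contφ
    have e4 := (P k).dualJ_le hK hKi hR0 hR (hA k)
    have e5 : (1 + 2 * R) * τ n ≤ Γ / 2 := by
      calc _ ≤ (1 + 2 * R) * (Γ / (2 * (1 + 2 * R))) := by gcongr; exact hM n hn
        _ = Γ / 2 := by field_simp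
    have e6 : (1 + 2 * R) * τ k ≤ Γ / 2 := by
      calc _ ≤ (1 + 2 * R) * (Γ / (2 * (1 + 2 * R))) := by gcongr; exact hM k hk
        _ = Γ / 2 := by field_simp
    unfold dualJ at e2 e3 e4
    linarith
  have hpt : ∀ n k x, ‖T n x - T k x‖ ≤ ∑ i, p k i x * ‖T n x - c k i‖ := by
    intro n k x
    have e1 : T n x - T k x = ∑ i, p k i x • (T n x - c k i) := by
      simp only [smul_sub, Finset.sum_sub_distrib, ← Finset.sum_smul, (P k).sum_one, one_smul]
      rfl
    rw [e1]
    refine (norm_sum_le _ _).trans (Finset.sum_le_sum fun i _ => ?_)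
    rw [norm_smul, Real.norm_of_nonneg ((P k).nonneg i x)]
  set U : ℕ → (EuclideanSpace ℝ (Fin d) →₁[unif K] EuclideanSpace ℝ (Fin d)) :=
    fun k => (hTi k).toL1 (T k) with hU
  have hUae : ∀ k, U k =ᵐ[unif K] T k := fun k => (hTi k).coeFn_toL1
  have hcauchy : CauchySeq U := by
    rw [Metric.cauchySeq_iff]
    intro β hβ
    obtain ⟨M, hM⟩ := hclose (β / 2) (by positivity)
    refine ⟨M, fun n hn k hk => ?_⟩
    rw [L1.dist_eq_integral_dist]
    have e1 : ∫ x, dist (U n x) (U k x) ∂(unif K) = ∫ x, ‖T n x - T k x‖ ∂(unif K) := by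
      refine integral_congr_ae ?_
      filter_upwards [hUae n, hUae k] with x h1 h2
      rw [h1, h2, dist_eq_norm]
    rw [e1]
    have := (P k).cont
    have := hTc n
    have := hTc k
    have e2 := integral_unif_mono hK hKi (by fun_prop) (by fun_prop) fun x _ => hpt n k x
    linarith [hM n hn k hk]
  obtain ⟨V, hV⟩ := cauchySeq_tendsto_of_complete hcauchy
  have hVi : Integrable V (unif K) := L1.integrable_coeFn V
  have hVm : Measurable V := L1.measurable_coeFn V
  have hlim : Tendsto (fun k => ∫ x, ‖T k x - V x‖ ∂(unif K)) atTop (𝓝 0) := by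
    have e1 := tendsto_iff_dist_tendsto_zero.mp hV
    refine e1.congr fun k => ?_
    rw [L1.dist_eq_integral_dist]
    refine integral_congr_ae ?_
    filter_upwards [hUae k] with x h1
    rw [h1, dist_eq_norm]
  have hni : ∀ k, Integrable (fun x => ‖T k x - V x‖) (unif K) := fun k => ((hTi k).sub hVi).norm
  refine ⟨V, hVm, ?_, fun σ hσ => ?_⟩
  · have : IsProbabilityMeasure ((unif K).map V) := Measure.isProbabilityMeasure_map hVm.aemeasurable
    refine measure_ext_lipschitz fun F Λ ⟨B, hB⟩ hΛ => ?_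
    have hFc := hΛ.continuous
    have hFl : ∀ a b, |F a - F b| ≤ Λ * dist a b := fun a b => by
      rw [← Real.dist_eq]; exact hΛ.dist_le_mul a b
    rw [integral_map hVm.aemeasurable hFc.aestronglyMeasurable]
    have hFV : Integrable (fun x => F (V x)) (unif K) := by
      refine Integrable.of_bound (hFc.measurable.comp hVm).aestronglyMeasurable (|F 0| + B)
        (Eventually.of_forall fun x => ?_)
      have e1 := hB (V x) 0
      rw [Real.dist_eq] at e1
      have e2 := abs_sub_abs_le_abs_sub (F (V x)) (F 0)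
      rw [Real.norm_eq_abs]; linarith
    refine eq_of_forall_dist_le fun ε hε => ?_
    have hΛ0 : (0 : ℝ) ≤ Λ := Λ.2
    set β := ε / (3 * (Λ + 1)) with hβ
    have hβ0 : 0 < β := by positivity
    obtain ⟨M, hM⟩ := hclose β hβ0
    obtain ⟨k, hk1, hk2, hk3⟩ := ((eventually_ge_atTop M).and
      ((hτt.eventually_le_const hβ0).and (hlim.eventually_le_const hβ0))).exists
    have hpc := (P k).cont
    have hTk := hTc k
    have e1 := hA k F Λ hΛ0 hFc hFl
    have e2 : |∫ x, F (V x) ∂(unif K) - ∫ x, F (T k x) ∂(unif K)| ≤ Λ * β := by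
      rw [← integral_sub hFV (hi (by fun_prop))]
      refine (abs_integral_le_integral_abs).trans ?_
      calc _ ≤ ∫ x, Λ * ‖T k x - V x‖ ∂(unif K) := by
            refine integral_mono (hFV.sub (hi (by fun_prop))).abs ((hni k).const_mul _) fun x => ?_
            have := hFl (V x) (T k x)
            rwa [dist_eq_norm, norm_sub_rev] at this
        _ ≤ Λ * β := by rw [integral_const_mul]; gcongr
    have e3 : |∫ x, F (T k x) ∂(unif K) - ∑ i, m k i * F (c k i)| ≤ Λ * β := by
      have f1 : ∑ i, m k i * F (c k i) = ∫ x, ∑ i, p k i x * F (c k i) ∂(unif K) := by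
        rw [integral_finsetSum _ fun i _ => hi (by fun_prop)]
        simp only [integral_mul_const, (P k).mass]
      rw [f1, ← integral_sub (hi (by fun_prop)) (hi (by fun_prop))]
      refine (abs_integral_le_integral_abs).trans ?_
      calc _ ≤ ∫ x, Λ * ∑ i, p k i x * ‖T k x - c k i‖ ∂(unif K) := by
            refine integral_unif_mono hK hKi (by fun_prop) (by fun_prop) fun x _ => ?_
            have f2 : F (T k x) - ∑ i, p k i x * F (c k i) =
                ∑ i, p k i x * (F (T k x) - F (c k i)) := by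
              simp only [mul_sub, Finset.sum_sub_distrib, ← Finset.sum_mul, (P k).sum_one, one_mul]
            rw [f2, Finset.mul_sum]
            refine (Finset.abs_sum_le_sum_abs _ _).trans (Finset.sum_le_sum fun i _ => ?_)
            rw [abs_mul, abs_of_nonneg ((P k).nonneg i x)]
            have f3 := hFl (T k x) (c k i)
            rw [dist_eq_norm] at f3
            calc _ ≤ p k i x * (Λ * ‖T k x - c k i‖) :=
                  mul_le_mul_of_nonneg_left f3 ((P k).nonneg i x)
              _ = _ := by ring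
        _ ≤ Λ * β := by rw [integral_const_mul]; gcongr; exact hM k hk1 k hk1
    have e4 : (Λ : ℝ) * τ k ≤ Λ * β := by gcongr
    have e5 : 3 * (Λ * β) ≤ ε := by
      calc 3 * (Λ * β) ≤ 3 * ((Λ + 1) * β) := by gcongr; linarith
        _ = ε := by rw [hβ]; field_simp
    rw [Real.dist_eq, abs_le]
    rw [abs_le] at e1 e2 e3
    constructor <;> linarith [e1.1, e1.2, e2.1, e2.2, e3.1, e3.2]
  · set β := σ / (1 + 2 * R) with hβ
    have hβ0 : 0 < β := by positivity
    obtain ⟨k, hk2, hk3⟩ :=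
      ((hτt.eventually_le_const hβ0).and (hlim.eventually_le_const hβ0)).exists
    refine ⟨φ k, (P k).contφ, ?_⟩
    have hTk := hTc k
    have e1 := (P k).dualJ_le hK hKi hR0 hR (hA k)
    have hiV : Integrable (fun x => ⟪x, V x⟫) (unif K) := by
      refine Integrable.mono' (hVi.norm.const_mul R)
        (measurable_id.inner hVm).aestronglyMeasurable ((ae_mem_unif hK).mono fun x hx => ?_)
      exact (norm_inner_le_norm _ _).trans (mul_le_mul_of_nonneg_right (hR x hx) (norm_nonneg _))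
    have e2 : corr K (c k) (p k) ≤ ∫ x, ⟪x, V x⟫ ∂(unif K) + R * β := by
      have f1 : corr K (c k) (p k) ≤ ∫ x, (⟪x, V x⟫ + R * ‖T k x - V x‖) ∂(unif K) := by
        refine integral_mono_ae (hi (f := fun x => ⟪x, T k x⟫) (by fun_prop))
          (hiV.add ((hni k).const_mul _)) ((ae_mem_unif hK).mono fun x hx => ?_)
        have f2 : ⟪x, T k x⟫ - ⟪x, V x⟫ ≤ R * ‖T k x - V x‖ := by
          rw [← inner_sub_right]
          exact (real_inner_le_norm _ _).trans
            (mul_le_mul_of_nonneg_right (hR x hx) (norm_nonneg _))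
        change ⟪x, T k x⟫ ≤ _
        linarith
      rw [integral_add hiV ((hni k).const_mul _), integral_const_mul] at f1
      have f3 : R * ∫ x, ‖T k x - V x‖ ∂(unif K) ≤ R * β := by gcongr
      linarith
    have e3 : R * τ k ≤ R * β := by gcongr
    have e4 : (1 + 2 * R) * β = σ := by rw [hβ]; field_simp
    linarith

end Vale.Agent.P074
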