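import Vale.Agent.P074.Defs

/-! Finite-difference interpolation inequality for approximate subgradients. -/

namespace Vale.Agent.P074

open MeasureTheory
open scoped RealInnerProductSpace

/-- Every point has a global subgradient of norm at most `L`
(so `φ` is convex and `L`-Lipschitz). -/
def HasBddSubgrad {d : ℕ} (L : ℝ) (φ : EuclideanSpace ℝ (Fin d) → ℝ) : Prop :=
  ∀ x, ∃ y : EuclideanSpace ℝ (Fin d), ‖y‖ ≤ L ∧ ∀ x', φ x + ⟪x' - x, y⟫ ≤ φ x'

theorem HasBddSubgrad.abs_sub_le {d : ℕ} {L : ℝ} {φ : EuclideanSpace ℝ (Fin d) → ℝ}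
    (hφ : HasBddSubgrad L φ) (x x' : EuclideanSpace ℝ (Fin d)) :
    |φ x - φ x'| ≤ L * ‖x - x'‖ := by
  have key : ∀ z z' : EuclideanSpace ℝ (Fin d), φ z - φ z' ≤ L * ‖z - z'‖ := by
    intro z z'
    obtain ⟨y, hy, h⟩ := hφ z
    have h1 := h z'
    have h2 : |⟪z' - z, y⟫| ≤ ‖z' - z‖ * L :=
      (abs_real_inner_le_norm _ _).trans (mul_le_mul_of_nonneg_left hy (norm_nonneg _))
    rw [norm_sub_rev] at h2
    linarith [(abs_le.mp h2).1]
  have h1 := key x x'
  have h2 := key x' x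
  rw [norm_sub_rev] at h2
  rw [abs_le]; constructor <;> linarith

theorem HasBddSubgrad.continuous {d : ℕ} {L : ℝ} {φ : EuclideanSpace ℝ (Fin d) → ℝ}
    (hφ : HasBddSubgrad L φ) : Continuous φ := by
  have hL : 0 ≤ L := by
    obtain ⟨y, hy, -⟩ := hφ 0
    exact (norm_nonneg y).trans hy
  have : LipschitzWith ⟨L, hL⟩ φ :=
    LipschitzWith.of_dist_le_mul fun x x' => by
      rw [Real.dist_eq, dist_eq_norm]; exact hφ.abs_sub_le x x'
  exact this.continuous

theorem HasBddSubgrad.second_diff_nonneg {d : ℕ} {L : ℝ} {φ : EuclideanSpace ℝ (Fin d) → ℝ}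
    (hφ : HasBddSubgrad L φ) (x v : EuclideanSpace ℝ (Fin d)) :
    0 ≤ φ (x + v) + φ (x - v) - 2 * φ x := by
  obtain ⟨y, -, h⟩ := hφ x
  have h1 := h (x + v)
  have h2 := h (x - v)
  rw [add_sub_cancel_left] at h1
  rw [sub_sub_cancel_left, inner_neg_left] at h2
  linarith

theorem volume_ne_zero_of_interior {d : ℕ} {K : Set (EuclideanSpace ℝ (Fin d))}
    (hKi : (interior K).Nonempty) : volume K ≠ 0 :=
  (Measure.measure_pos_of_nonempty_interior volume hKi).ne'

theorem isProbabilityMeasure_unif {d : ℕ} {K : Set (EuclideanSpace ℝ (Fin d))}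
    (hK : IsCompact K) (hKi : (interior K).Nonempty) : IsProbabilityMeasure (unif K) := by
  constructor
  unfold unif
  rw [Measure.smul_apply, Measure.restrict_apply_univ, smul_eq_mul,
    ENNReal.inv_mul_cancel (volume_ne_zero_of_interior hKi) hK.measure_lt_top.ne]

theorem ae_mem_unif {d : ℕ} {K : Set (EuclideanSpace ℝ (Fin d))}
    (hK : IsCompact K) : ∀ᵐ x ∂(unif K), x ∈ K := by
  unfold unif
  exact Measure.ae_smul_measure (ae_restrict_mem hK.isClosed.measurableSet) _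

theorem integrable_unif_of_continuous {d : ℕ} {K : Set (EuclideanSpace ℝ (Fin d))}
    (hK : IsCompact K) (hKi : (interior K).Nonempty) {F : Type*} [NormedAddCommGroup F]
    {f : EuclideanSpace ℝ (Fin d) → F} (hf : Continuous f) : Integrable f (unif K) := by
  unfold unif
  refine Integrable.smul_measure ?_ (ENNReal.inv_ne_top.mpr (volume_ne_zero_of_interior hKi))
  exact hf.continuousOn.integrableOn_compact hK

theorem unif_restrict {d : ℕ} {K A : Set (EuclideanSpace ℝ (Fin d))} (hA : MeasurableSet A)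
    (hAK : A ⊆ K) : (unif K).restrict A = (volume K)⁻¹ • volume.restrict A := by
  unfold unif
  rw [Measure.restrict_smul, Measure.restrict_restrict hA, Set.inter_eq_left.mpr hAK]

theorem setIntegral_shift {d : ℕ} {K A : Set (EuclideanSpace ℝ (Fin d))} (hA : MeasurableSet A)
    (hAK : A ⊆ K) (v : EuclideanSpace ℝ (Fin d)) (hv : ∀ x ∈ A, x + v ∈ K)
    (f : EuclideanSpace ℝ (Fin d) → ℝ) :
    ∫ x in A, f (x + v) ∂(unif K) = ∫ x in (fun x => x + v) '' A, f x ∂(unif K) := by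
  have he : MeasurableEmbedding fun x : EuclideanSpace ℝ (Fin d) => x + v :=
    measurableEmbedding_addRight v
  rw [unif_restrict hA hAK, unif_restrict (he.measurableSet_image.mpr hA)
    (by rintro _ ⟨x, hx, rfl⟩; exact hv x hx), integral_smul_measure, integral_smul_measure,
    (measurePreserving_add_right volume v).setIntegral_image_emb he]

theorem setIntegral_shift_le {d : ℕ} {K A : Set (EuclideanSpace ℝ (Fin d))} (hK : IsCompact K)
    (hKi : (interior K).Nonempty) (hA : MeasurableSet A)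
    (hAK : A ⊆ K) (v : EuclideanSpace ℝ (Fin d)) (hv : ∀ x ∈ A, x + v ∈ K)
    {f : EuclideanSpace ℝ (Fin d) → ℝ} (hf : Continuous f) (hf0 : ∀ x, 0 ≤ f x) :
    ∫ x in A, f (x + v) ∂(unif K) ≤ ∫ x, f x ∂(unif K) := by
  rw [setIntegral_shift hA hAK v hv]
  exact setIntegral_le_integral (integrable_unif_of_continuous hK hKi hf)
    (Filter.Eventually.of_forall hf0)

theorem setIntegral_second_diff_le {d : ℕ} {K A : Set (EuclideanSpace ℝ (Fin d))}
    (hK : IsCompact K) (hKi : (interior K).Nonempty) (hA : MeasurableSet A)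
    (hAK : A ⊆ K) (v : EuclideanSpace ℝ (Fin d)) (hv : ∀ x ∈ A, x + -v ∈ K)
    {L : ℝ} {φ : EuclideanSpace ℝ (Fin d) → ℝ} (hφ : HasBddSubgrad L φ) :
    ∫ x in A, (φ (x + v) + φ (x - v) - 2 * φ x) ∂(unif K) ≤
      2 * (L * ‖v‖) * (1 - (unif K).real A) := by
  have := isProbabilityMeasure_unif hK hKi
  have hc := hφ.continuous
  set D : EuclideanSpace ℝ (Fin d) → ℝ := fun x => φ (x + v) - φ x + L * ‖v‖ with hD
  have hDc : Continuous D := by rw [hD]; fun_prop
  have hDb : ∀ x, 0 ≤ D x ∧ D x ≤ 2 * (L * ‖v‖) := fun x => by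
    have h := hφ.abs_sub_le (x + v) x
    rw [add_sub_cancel_left, abs_le] at h
    simp only [hD]
    constructor <;> linarith [h.1, h.2]
  have hDi := integrable_unif_of_continuous hK hKi hDc
  have hDi' := integrable_unif_of_continuous hK hKi (f := fun x => D (x + -v)) (by fun_prop)
  have h1 : ∀ x, φ (x + v) + φ (x - v) - 2 * φ x = D x - D (x + -v) := fun x => by
    simp only [hD, ← sub_eq_add_neg, sub_add_cancel]; ring
  simp only [h1]
  rw [integral_sub hDi.integrableOn hDi'.integrableOn, setIntegral_shift hA hAK (-v) hv]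
  set A' := (fun x => x + -v) '' A with hA'
  have hA'm : MeasurableSet A' := (measurableEmbedding_addRight (-v)).measurableSet_image.mpr hA
  have h2 : ∫ x in A, D x ∂(unif K) ≤ ∫ x, D x ∂(unif K) :=
    setIntegral_le_integral hDi (Filter.Eventually.of_forall fun x => (hDb x).1)
  have h3 := integral_add_compl hA'm hDi
  have h4 : (unif K).real A' = (unif K).real A := by
    have := setIntegral_shift hA hAK (-v) hv fun _ => 1
    rw [← hA'] at this
    simpa using this.symm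
  have h5 : ∫ x in A'ᶜ, D x ∂(unif K) ≤ 2 * (L * ‖v‖) * (unif K).real A'ᶜ := by
    refine (le_abs_self _).trans ?_
    rw [← Real.norm_eq_abs]
    refine norm_setIntegral_le_of_norm_le_const (measure_lt_top _ _) fun x _ => ?_
    rw [Real.norm_of_nonneg (hDb x).1]; exact (hDb x).2
  rw [probReal_compl_eq_one_sub hA'm, h4] at h5
  linarith

theorem exists_inner_body {d : ℕ} {K : Set (EuclideanSpace ℝ (Fin d))}
    (hK : IsCompact K) (hKc : Convex ℝ K) (hKi : (interior K).Nonempty) :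
    ∃ r : ℝ, 0 < r ∧ ∀ h : ℝ, 0 < h → h ≤ r → ∃ A : Set (EuclideanSpace ℝ (Fin d)),
      MeasurableSet A ∧ (∀ x ∈ A, ∀ v : EuclideanSpace ℝ (Fin d), ‖v‖ ≤ h → x + v ∈ K) ∧
      1 - (unif K).real A ≤ d * (h / r) := by
  obtain ⟨x₀, hx₀⟩ := hKi
  obtain ⟨r, hr, hball⟩ := Metric.nhds_basis_closedBall.mem_iff.mp (mem_interior_iff_mem_nhds.mp hx₀)
  refine ⟨r, hr, fun h hh hhr => ?_⟩
  set θ := h / r with hθ
  have hθ0 : 0 < θ := by positivity
  have hθ1 : θ ≤ 1 := by rw [hθ, div_le_one hr]; exact hhr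
  set A := AffineMap.homothety x₀ (1 - θ) '' K with hA
  have hAm : MeasurableSet A :=
    (hK.image (AffineMap.homothety_continuous x₀ (1 - θ))).isClosed.measurableSet
  have hAv : ∀ x ∈ A, ∀ v : EuclideanSpace ℝ (Fin d), ‖v‖ ≤ h → x + v ∈ K := by
    rintro _ ⟨k, hk, rfl⟩ v hv
    have h1 : x₀ + θ⁻¹ • v ∈ K := by
      refine hball ?_
      rw [mem_closedBall_iff_norm, add_sub_cancel_left, norm_smul,
        Real.norm_of_nonneg (by positivity), inv_mul_le_iff₀ hθ0, hθ, div_mul_cancel₀ _ hr.ne']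
      exact hv
    have h2 := hKc hk h1 (sub_nonneg.mpr hθ1) hθ0.le (by ring)
    convert h2 using 1
    rw [AffineMap.homothety_apply, smul_add, smul_smul, mul_inv_cancel₀ hθ0.ne', one_smul,
      vsub_eq_sub, vadd_eq_add]
    module
  refine ⟨A, hAm, hAv, ?_⟩
  have hAK : A ⊆ K := fun x hx => by simpa using hAv x hx 0 (by simpa using hh.le)
  have hv0 := volume_ne_zero_of_interior ⟨x₀, hx₀⟩
  have h1 : (unif K).real A = (1 - θ) ^ d := by
    have e1 : unif K A = ENNReal.ofReal ((1 - θ) ^ d) := by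
      unfold unif
      rw [Measure.smul_apply, Measure.restrict_apply hAm, Set.inter_eq_left.mpr hAK, hA,
        Measure.addHaar_image_homothety, smul_eq_mul, finrank_euclideanSpace_fin,
        abs_of_nonneg (pow_nonneg (sub_nonneg.mpr hθ1) _), mul_left_comm,
        ENNReal.inv_mul_cancel hv0 hK.measure_lt_top.ne, mul_one]
    rw [measureReal_def, e1, ENNReal.toReal_ofReal (pow_nonneg (sub_nonneg.mpr hθ1) _)]
  have h2 := one_add_mul_le_pow (a := -θ) (by linarith) d
  rw [h1, ← sub_eq_add_neg] at *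
  linarith

theorem coord_algebra {h L z Δ a b c δ : ℝ} (hh : 0 < h) (hz : |z| ≤ 2 * L) (hΔ : 0 ≤ Δ)
    (hδ : 0 ≤ δ) (h1 : h * z ≤ Δ + δ + (c - a)) (h2 : -(h * z) ≤ Δ + δ + (c - b)) :
    z ^ 2 ≤ 4 * L * Δ / h + 3 * (a ^ 2 + b ^ 2 + c ^ 2) / h ^ 2 + 4 * L * δ / h := by
  set U := |a| + |b| + |c| with hU
  have e1 : h * |z| ≤ Δ + δ + U := by
    have := le_abs_self c
    have := neg_abs_le a
    have := neg_abs_le b
    have := abs_nonneg a
    have := abs_nonneg b
    rcases abs_cases z with ⟨h3, -⟩ | ⟨h3, -⟩ <;> rw [h3] <;> linarith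
  have e2 : U ^ 2 ≤ 3 * (a ^ 2 + b ^ 2 + c ^ 2) := by
    rw [← sq_abs a, ← sq_abs b, ← sq_abs c, hU]
    nlinarith [sq_nonneg (|a| - |b|), sq_nonneg (|a| - |c|), sq_nonneg (|b| - |c|)]
  have hw := abs_nonneg z
  rw [← sq_abs z]
  set w := |z|
  have e3 : h * w * (h * w) ≤ h * w * (Δ + δ + U) := by gcongr
  have e4 : h * w * (Δ + δ) ≤ h * (2 * L) * (Δ + δ) := by gcongr
  have e5 : (h * w) ^ 2 ≤ 4 * L * h * (Δ + δ) + 3 * (a ^ 2 + b ^ 2 + c ^ 2) := by
    nlinarith [sq_nonneg (h * w - U)]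
  have e6 : 4 * L * Δ / h + 3 * (a ^ 2 + b ^ 2 + c ^ 2) / h ^ 2 + 4 * L * δ / h =
      (4 * L * h * (Δ + δ) + 3 * (a ^ 2 + b ^ 2 + c ^ 2)) / h ^ 2 := by
    field_simp; ring
  rw [e6, le_div_iff₀ (by positivity)]
  linarith [mul_pow h w 2]

/-- Interpolation: approximate subgradients `y₀` of `φ₀` and `y₁` of `φ₁` at the same point are
close in mean square when `φ₀ - φ₁` is close to a constant in `L²`. -/
theorem interp {d : ℕ} {K : Set (EuclideanSpace ℝ (Fin d))}
    (hK : IsCompact K) (hKc : Convex ℝ K) (hKi : (interior K).Nonempty) :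
    ∃ C r : ℝ, 0 < C ∧ 0 < r ∧ ∀ (L : ℝ) (φ₀ φ₁ : EuclideanSpace ℝ (Fin d) → ℝ) (c h : ℝ),
      0 ≤ L → HasBddSubgrad L φ₀ → HasBddSubgrad L φ₁ → 0 < h → h ≤ r →
      ∃ G : EuclideanSpace ℝ (Fin d) → ℝ, Integrable G (unif K) ∧
        ∫ x, G x ∂(unif K) ≤
          C * (L ^ 2 * h + (∫ x, (φ₁ x - φ₀ x - c) ^ 2 ∂(unif K)) / h ^ 2) ∧
        ∀ x ∈ K, ∀ (y₀ y₁ : EuclideanSpace ℝ (Fin d)) (δ₀ δ₁ : ℝ),
          ‖y₀‖ ≤ L → ‖y₁‖ ≤ L → 0 ≤ δ₀ → 0 ≤ δ₁ →
          (∀ x' ∈ K, φ₀ x + ⟪x' - x, y₀⟫ - δ₀ ≤ φ₀ x') →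
          (∀ x' ∈ K, φ₁ x + ⟪x' - x, y₁⟫ - δ₁ ≤ φ₁ x') →
          ‖y₀ - y₁‖ ^ 2 ≤ G x + C * L * (δ₀ + δ₁) / h := by
  have := isProbabilityMeasure_unif hK hKi
  have hi := fun {f : EuclideanSpace ℝ (Fin d) → ℝ} (hf : Continuous f) =>
    integrable_unif_of_continuous hK hKi hf
  obtain ⟨r, hr, hA⟩ := exists_inner_body hK hKc hKi
  refine ⟨(8 * d ^ 2 + 4 * d) / r + 9 * d + 1, r, by positivity, hr, ?_⟩
  intro L φ₀ φ₁ c h hL hφ₀ hφ₁ hh hhr
  obtain ⟨A, hAm, hAv, hAρ⟩ := hA h hh hhr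
  have hAK : A ⊆ K := fun x hx => by simpa using hAv x hx 0 (by simpa using hh.le)
  have hc₀ := hφ₀.continuous
  have hc₁ := hφ₁.continuous
  set v : Fin d → EuclideanSpace ℝ (Fin d) := fun k => EuclideanSpace.single k h with hv
  have hvn : ∀ k, ‖v k‖ = h := fun k => by simp [hv, hh.le]
  have hvi : ∀ k (y : EuclideanSpace ℝ (Fin d)), ⟪v k, y⟫ = h * y k := fun k y => by
    simp [hv, EuclideanSpace.inner_single_left]
  set u : EuclideanSpace ℝ (Fin d) → ℝ := fun x => φ₁ x - φ₀ x - c with hu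
  have huc : Continuous u := by rw [hu]; fun_prop
  set g : EuclideanSpace ℝ (Fin d) → ℝ := fun x =>
    ∑ k, (4 * L * (φ₁ (x + v k) + φ₁ (x - v k) - 2 * φ₁ x) / h +
      3 * (u (x + v k) ^ 2 + u (x + -v k) ^ 2 + u x ^ 2) / h ^ 2) with hg
  have hgc : Continuous g := by rw [hg]; fun_prop
  have hi1 : Integrable (A.indicator g) (unif K) := (hi hgc).indicator hAm
  have hi2 : Integrable (Aᶜ.indicator fun _ => 4 * L ^ 2) (unif K) :=
    (integrable_const _).indicator hAm.compl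
  refine ⟨fun x => A.indicator g x + Aᶜ.indicator (fun _ => 4 * L ^ 2) x, hi1.add hi2, ?_, ?_⟩
  · rw [integral_add hi1 hi2, integral_indicator hAm, integral_indicator hAm.compl]
    set U := ∫ x, u x ^ 2 ∂(unif K) with hU
    have hU0 : 0 ≤ U := integral_nonneg fun x => sq_nonneg _
    have h1 : ∫ x in A, g x ∂(unif K) ≤ d * (8 * L ^ 2 * (d * (h / r)) + 9 * U / h ^ 2) := by
      rw [hg, integral_finsetSum _ fun k _ => (hi (by fun_prop)).integrableOn]
      calc _ ≤ ∑ _k : Fin d, (8 * L ^ 2 * (d * (h / r)) + 9 * U / h ^ 2) := by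
            refine Finset.sum_le_sum fun k _ => ?_
            have e1 := setIntegral_second_diff_le hK hKi hAm hAK (v k)
              (fun x hx => hAv x hx _ (by rw [norm_neg, hvn])) hφ₁
            have e2 := setIntegral_shift_le hK hKi hAm hAK (v k)
              (fun x hx => hAv x hx _ (hvn k).le) (f := fun x => u x ^ 2) (by fun_prop)
              fun x => sq_nonneg _
            have e3 := setIntegral_shift_le hK hKi hAm hAK (-v k)
              (fun x hx => hAv x hx _ (by rw [norm_neg, hvn])) (f := fun x => u x ^ 2)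
              (by fun_prop) fun x => sq_nonneg _
            have e4 : ∫ x in A, u x ^ 2 ∂(unif K) ≤ U :=
              setIntegral_le_integral (hi (by fun_prop))
                (Filter.Eventually.of_forall fun x => sq_nonneg _)
            rw [integral_add (hi (by fun_prop)).integrableOn (hi (by fun_prop)).integrableOn,
              integral_div, integral_div, integral_const_mul, integral_const_mul,
              integral_add (f := fun x => u (x + v k) ^ 2 + u (x + -v k) ^ 2)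
                (hi (by fun_prop)).integrableOn (hi (by fun_prop)).integrableOn,
              integral_add (f := fun x => u (x + v k) ^ 2)
                (hi (by fun_prop)).integrableOn (hi (by fun_prop)).integrableOn]
            rw [hvn] at e1
            have e5 : 2 * (L * h) * (1 - (unif K).real A) ≤ 2 * (L * h) * (d * (h / r)) := by
              gcongr
            calc _ ≤ 4 * L * (2 * (L * h) * (d * (h / r))) / h + 3 * (U + U + U) / h ^ 2 := by
                  gcongr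
                  exact e1.trans e5
              _ = _ := by field_simp; ring
        _ = _ := by simp; ring
    have h2 : ∫ _ in Aᶜ, 4 * L ^ 2 ∂(unif K) ≤ 4 * L ^ 2 * (d * (h / r)) := by
      rw [setIntegral_const, smul_eq_mul, probReal_compl_eq_one_sub hAm, mul_comm]
      gcongr
    have h3 : 0 ≤ U / h ^ 2 := by positivity
    have h4 : 0 ≤ L ^ 2 * h := by positivity
    have h5 : (0 : ℝ) ≤ (8 * d ^ 2 + 4 * d) / r := by positivity
    have h6 : (0 : ℝ) ≤ d := by positivity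
    have h7 : d * (8 * L ^ 2 * (d * (h / r)) + 9 * U / h ^ 2) + 4 * L ^ 2 * (d * (h / r)) =
        (8 * d ^ 2 + 4 * d) / r * (L ^ 2 * h) + 9 * d * (U / h ^ 2) := by ring
    change _ ≤ _ * (L ^ 2 * h + U / h ^ 2)
    nlinarith [mul_nonneg h5 h3, mul_nonneg h6 h4]
  · intro x hx y₀ y₁ δ₀ δ₁ hy₀ hy₁ hδ₀ hδ₁ H₀ H₁
    have hy : ‖y₀ - y₁‖ ≤ 2 * L := (norm_sub_le _ _).trans (by linarith)
    have hδ : 0 ≤ L * (δ₀ + δ₁) / h := by positivity
    have hC : ((8 * d ^ 2 + 4 * d) / r + 9 * d + 1) * L * (δ₀ + δ₁) / h =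
        ((8 * d ^ 2 + 4 * d) / r + 9 * d + 1) * (L * (δ₀ + δ₁) / h) := by ring
    have h5 : (0 : ℝ) ≤ (8 * d ^ 2 + 4 * d) / r := by positivity
    have h6 : (0 : ℝ) ≤ d := by positivity
    rw [hC]
    by_cases hxA : x ∈ A
    · simp only [Set.indicator_of_mem hxA, Set.indicator_of_notMem (Set.notMem_compl_iff.mpr hxA),
        add_zero]
      have e1 : ‖y₀ - y₁‖ ^ 2 ≤ g x + ∑ _k : Fin d, 4 * L * (δ₀ + δ₁) / h := by
        rw [EuclideanSpace.real_norm_sq_eq, hg, ← Finset.sum_add_distrib]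
        refine Finset.sum_le_sum fun k _ => ?_
        have f1 := H₀ (x + v k) (hAv x hxA _ (hvn k).le)
        have f2 := H₀ (x + -v k) (hAv x hxA _ (by rw [norm_neg, hvn]))
        have f3 := H₁ (x + v k) (hAv x hxA _ (hvn k).le)
        have f4 := H₁ (x + -v k) (hAv x hxA _ (by rw [norm_neg, hvn]))
        rw [add_sub_cancel_left] at f1 f2 f3 f4
        rw [inner_neg_left] at f2 f4
        rw [hvi] at f1 f2 f3 f4
        refine coord_algebra hh ?_ (hφ₁.second_diff_nonneg x (v k)) (by linarith) ?_ ?_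
        · exact (EuclideanSpace.norm_eq (y₀ - y₁) ▸ PiLp.norm_apply_le (y₀ - y₁) k).trans
            (EuclideanSpace.norm_eq (y₀ - y₁) ▸ hy)
        · simp only [hu, PiLp.sub_apply, ← sub_eq_add_neg] at *
          linarith
        · simp only [hu, PiLp.sub_apply, ← sub_eq_add_neg] at *
          linarith
      have e2 : ∑ _k : Fin d, 4 * L * (δ₀ + δ₁) / h = 4 * d * (L * (δ₀ + δ₁) / h) := by
        simp; ring
      rw [e2] at e1
      nlinarith [mul_nonneg h5 hδ, mul_nonneg h6 hδ]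
    · simp only [Set.indicator_of_notMem hxA, Set.indicator_of_mem (Set.mem_compl hxA), zero_add]
      have e1 : ‖y₀ - y₁‖ ^ 2 ≤ (2 * L) ^ 2 := by gcongr
      nlinarith [mul_nonneg h5 hδ, mul_nonneg h6 hδ]

end Vale.Agent.P074
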