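import Vale.Agent.P074.Soft
import Vale.Agent.P074.Interp

/-! Existence of weights with prescribed soft-cell masses. -/

namespace Vale.Agent.P074

open MeasureTheory
open scoped RealInnerProductSpace

theorem eq_of_forall_exp_le {M m : ℝ} (hm : 0 < m) (hM : 0 < M)
    (h : ∀ u : ℝ, 0 ≤ M * (Real.exp (-u) - 1) + m * u) : M = m := by
  have h1 := h (Real.log (M / m))
  rw [Real.exp_neg, Real.exp_log (by positivity)] at h1
  have h2 : M * ((M / m)⁻¹ - 1) = m - M := by field_simp
  rw [h2] at h1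
  by_contra hne
  have h3 : M / m ≠ 1 := fun h => hne (by rwa [div_eq_one_iff_eq hm.ne'] at h)
  have h4 := Real.log_lt_sub_one_of_pos (by positivity : 0 < M / m) h3
  have h5 := mul_lt_mul_of_pos_left h4 hm
  have h6 : m * (M / m - 1) = M - m := by field_simp
  linarith

theorem exists_sol {d : ℕ} {K : Set (EuclideanSpace ℝ (Fin d))}
    (hK : IsCompact K) (hKi : (interior K).Nonempty)
    {ι : Type*} [Fintype ι] [Nonempty ι] (m : ι → ℝ) (hm : ∀ i, 0 < m i) (hm1 : ∑ i, m i = 1)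
    (y : ι → EuclideanSpace ℝ (Fin d)) :
    ∃ ψ : ι → ℝ, ∀ i, ∫ x, cell y ψ i x ∂(unif K) = m i := by
  classical
  have hi := fun {f : EuclideanSpace ℝ (Fin d) → ℝ} (hf : Continuous f) =>
    integrable_unif_of_continuous hK hKi hf
  have := isProbabilityMeasure_unif hK hKi
  have hmono : ∀ {f g : EuclideanSpace ℝ (Fin d) → ℝ}, Continuous f → Continuous g →
      (∀ x ∈ K, f x ≤ g x) → ∫ x, f x ∂(unif K) ≤ ∫ x, g x ∂(unif K) := fun hf hg h =>
    integral_mono_ae (hi hf) (hi hg) ((ae_mem_unif hK).mono h)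
  set F : (ι → ℝ) → ℝ := fun ψ => ∫ x, pot y ψ x ∂(unif K) + ∑ i, m i * ψ i with hF
  -- one-sided comparison of potentials
  have hcmp : ∀ (ψ ψ' : ι → ℝ) (t : ℝ), (∀ i, ψ' i - ψ i ≤ t) →
      ∫ x, pot y ψ x ∂(unif K) ≤ ∫ x, pot y ψ' x ∂(unif K) + t := by
    intro ψ ψ' t ht
    have hp := continuous_pot y ψ
    have hp' := continuous_pot y ψ'
    have h1 := hmono (f := pot y ψ) (g := fun x => pot y ψ' x + t) hp (by fun_prop) fun x _ => by
      have e1 := pot_sub_ge y y ψ ψ' x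
      have e2 : ∑ i, cell y ψ i x * (-t) ≤
          ∑ i, cell y ψ i x * (⟪x, y i - y i⟫ - (ψ' i - ψ i)) :=
        Finset.sum_le_sum fun i _ => mul_le_mul_of_nonneg_left
          (by rw [sub_self, inner_zero_right]; linarith [ht i]) (cell_pos y ψ i x).le
      rw [← Finset.sum_mul, sum_cell] at e2
      linarith
    rw [integral_add (hi hp') (integrable_const _)] at h1
    simpa using h1
  have hFc : Continuous F := by
    have h1 : LipschitzWith 1 fun ψ : ι → ℝ => ∫ x, pot y ψ x ∂(unif K) :=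
      LipschitzWith.of_le_add fun ψ ψ' => hcmp ψ ψ' _ fun i => by
        have := dist_le_pi_dist ψ' ψ i
        rw [Real.dist_eq, dist_comm] at this
        exact (le_abs_self _).trans this
    have h2 := h1.continuous
    rw [hF]; fun_prop
  have hshift : ∀ (ψ : ι → ℝ) (t : ℝ), F (fun i => ψ i - t) ≤ F ψ := by
    intro ψ t
    have h1 := hcmp (fun i => ψ i - t) ψ t fun i => by linarith
    have h2 : ∑ i, m i * (ψ i - t) = ∑ i, m i * ψ i - t := by
      simp only [mul_sub, Finset.sum_sub_distrib, ← Finset.sum_mul, hm1, one_mul]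
    simp only [hF]; linarith
  -- lower bound
  obtain ⟨B, hB⟩ : ∃ B : ℝ, ∀ i, ∀ x ∈ K, -B ≤ ⟪x, y i⟫ := by
    have : ∀ i, ∃ B : ℝ, ∀ x ∈ K, -B ≤ ⟪x, y i⟫ := fun i => by
      obtain ⟨b, hb⟩ := (hK.image (f := fun x => ⟪x, y i⟫) (by fun_prop)).bddBelow
      exact ⟨-b, fun x hx => by rw [neg_neg]; exact hb ⟨x, hx, rfl⟩⟩
    choose B hB using this
    refine ⟨∑ i, |B i|, fun i x hx => le_trans ?_ (hB i x hx)⟩
    have := Finset.single_le_sum (f := fun i => |B i|) (fun _ _ => abs_nonneg _) (Finset.mem_univ i)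
    linarith [le_abs_self (B i)]
  have hlow : ∀ ψ : ι → ℝ, (∀ i, 0 ≤ ψ i) → (∃ j, ψ j = 0) → ∀ i, -B + m i * ψ i ≤ F ψ := by
    rintro ψ h0 ⟨j, hj⟩ i
    have h1 := hmono (f := fun _ => -B) (g := pot y ψ) continuous_const (continuous_pot y ψ)
      fun x hx => by linarith [le_pot y ψ j x, hB j x hx]
    have h2 := Finset.single_le_sum (f := fun i => m i * ψ i)
      (fun i _ => mul_nonneg (hm i).le (h0 i)) (Finset.mem_univ i)
    simp only [integral_const, probReal_univ, smul_eq_mul, one_mul] at h1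
    simp only [hF]; linarith
  set S : Set (ι → ℝ) := Set.pi Set.univ fun i => Set.Icc 0 (|F 0 + B| / m i) with hS
  have hSc : IsCompact S := isCompact_univ_pi fun i => isCompact_Icc
  have hS0 : (0 : ι → ℝ) ∈ S := fun i _ => ⟨le_rfl, by have := hm i; positivity⟩
  obtain ⟨ψ, -, hψ⟩ := hSc.exists_isMinOn ⟨0, hS0⟩ hFc.continuousOn
  have hmin : ∀ ψ', F ψ ≤ F ψ' := by
    intro ψ'
    obtain ⟨j, -, hj⟩ := Finset.exists_min_image Finset.univ ψ' Finset.univ_nonempty
    refine le_trans ?_ (hshift ψ' (ψ' j))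
    have h0 : ∀ i, 0 ≤ ψ' i - ψ' j := fun i => sub_nonneg.mpr (hj i (Finset.mem_univ i))
    by_cases hc : F (fun i => ψ' i - ψ' j) ≤ F 0
    · refine hψ fun i _ => ⟨h0 i, ?_⟩
      have := hlow _ h0 ⟨j, sub_self _⟩ i
      rw [le_div_iff₀ (hm i)]
      linarith [le_abs_self (F 0 + B)]
    · exact (hψ hS0).trans (not_le.mp hc).le
  refine ⟨ψ, fun k => ?_⟩
  have hc := continuous_cell y ψ k
  have hpos : 0 < ∫ x, cell y ψ k x ∂(unif K) := by
    rw [integral_pos_iff_support_of_nonneg (fun x => (cell_pos y ψ k x).le) (hi hc)]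
    have : Function.support (cell y ψ k) = Set.univ := by
      ext x; simp [(cell_pos y ψ k x).ne']
    rw [this]; simp
  refine eq_of_forall_exp_le (hm k) hpos fun u => ?_
  set ψ' : ι → ℝ := fun i => ψ i + if i = k then u else 0 with hψ'
  have h1 := hmin ψ'
  have h2 : ∑ i, m i * ψ' i = ∑ i, m i * ψ i + m k * u := by
    simp [hψ', mul_add, Finset.sum_add_distrib]
  have hp := continuous_pot y ψ
  have hp' := continuous_pot y ψ'
  have h3 := hmono (f := pot y ψ') (g := fun x => pot y ψ x + cell y ψ k x * (Real.exp (-u) - 1))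
    hp' (by fun_prop) fun x _ => by
      have e1 := lse_sub_le (fun i => ⟪x, y i⟫ - ψ i) (fun i => ⟪x, y i⟫ - ψ' i)
      rw [Finset.sum_eq_single k (fun i _ hik => by simp [hψ', hik]) (by simp)] at e1
      have e2 : ⟪x, y k⟫ - ψ' k - (⟪x, y k⟫ - ψ k) = -u := by simp [hψ']
      rw [e2] at e1
      unfold pot cell
      linarith
  rw [integral_add (hi hp) (hi (by fun_prop)), integral_mul_const] at h3
  simp only [hF] at h1
  linarith

end Vale.Agent.P074
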