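import Vale.Agent.P074.Soft
import Vale.Agent.P074.Bary
import Vale.Agent.P074.ExistsSol

/-! Lipschitz stability of the soft potentials with respect to the sites. -/

namespace Vale.Agent.P074

open MeasureTheory
open scoped RealInnerProductSpace

theorem chain_le {f g b c : ℝ → ℝ} {M : ℝ} (hf : ∀ s t, b s * (t - s) ≤ f t - f s)
    (hg : ∀ s t, c s * (t - s) ≤ g t - g s) (hM : ∀ s, b s - c s ≤ M) :
    (f 1 - f 0) - (g 1 - g 0) ≤ M := by
  have key : ∀ δ : ℝ, 0 < δ → ∀ k : ℕ,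
      (f (k * δ) - f 0) - (g (k * δ) - g 0) ≤ k * δ * M + δ * (b (k * δ) - b 0) := by
    intro δ hδ k
    induction k with
    | zero => simp
    | succ k ih =>
      have h1 := hf ((k + 1 : ℕ) * δ) (k * δ)
      have h2 := hg (k * δ) ((k + 1 : ℕ) * δ)
      have h3 := mul_le_mul_of_nonneg_left (hM (k * δ)) hδ.le
      have h4 : ((k + 1 : ℕ) : ℝ) * δ - k * δ = δ := by push_cast; ring
      have h5 : (k : ℝ) * δ - ((k + 1 : ℕ) : ℝ) * δ = -δ := by push_cast; ring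
      rw [h4] at h2
      rw [h5] at h1
      have h6 : ((k + 1 : ℕ) : ℝ) * δ * M = k * δ * M + δ * M := by push_cast; ring
      rw [h6]
      nlinarith
  refine le_of_forall_pos_le_add fun ε hε => ?_
  obtain ⟨n, hn⟩ := exists_nat_gt (|b 1 - b 0| / ε)
  have hn0 : (0 : ℝ) < n := lt_of_le_of_lt (by positivity) hn
  have h := key (1 / n) (by positivity) n
  have h1 : (n : ℝ) * (1 / n) = 1 := by field_simp
  rw [h1] at h
  have h2 : 1 / (n : ℝ) * (b 1 - b 0) ≤ ε := by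
    rw [div_lt_iff₀ hε] at hn
    rw [one_div, inv_mul_le_iff₀ hn0]
    exact (le_abs_self _).trans hn.le
  linarith

variable {d : ℕ} {K : Set (EuclideanSpace ℝ (Fin d))} {ι : Type*} [Fintype ι] [Nonempty ι]

/-- value of the semi-discrete dual functional -/
noncomputable def val (K : Set (EuclideanSpace ℝ (Fin d))) (m : ι → ℝ)
    (y : ι → EuclideanSpace ℝ (Fin d)) (ψ : ι → ℝ) : ℝ :=
  ∫ x, pot y ψ x ∂(unif K) + ∑ i, m i * ψ i

theorem val_ineq (hK : IsCompact K) (hKi : (interior K).Nonempty) {m : ι → ℝ}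
    {y : ι → EuclideanSpace ℝ (Fin d)} {ψ : ι → ℝ} (h : ∀ i, ∫ x, cell y ψ i x ∂(unif K) = m i)
    (m' : ι → ℝ) (y' : ι → EuclideanSpace ℝ (Fin d)) (ψ' : ι → ℝ) :
    ∑ i, ∫ x, cell y ψ i x * ⟪x, y' i - y i⟫ ∂(unif K) + ∑ i, (m' i - m i) * ψ' i ≤
      val K m' y' ψ' - val K m y ψ := by
  have hi := fun {f : EuclideanSpace ℝ (Fin d) → ℝ} (hf : Continuous f) =>
    integrable_unif_of_continuous hK hKi hf
  have hc := continuous_cell y ψ
  have hp := continuous_pot y ψ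
  have hp' := continuous_pot y' ψ'
  have h1 := integral_unif_mono hK hKi
    (f := fun x => ∑ i, cell y ψ i x * (⟪x, y' i - y i⟫ - (ψ' i - ψ i)))
    (g := fun x => pot y' ψ' x - pot y ψ x) (by fun_prop) (by fun_prop)
    fun x _ => pot_sub_ge y y' ψ ψ' x
  rw [integral_sub (hi hp') (hi hp), integral_finsetSum _ fun i _ => hi (by fun_prop)] at h1
  have h2 : ∀ i, ∫ x, cell y ψ i x * (⟪x, y' i - y i⟫ - (ψ' i - ψ i)) ∂(unif K) =
      ∫ x, cell y ψ i x * ⟪x, y' i - y i⟫ ∂(unif K) - m i * (ψ' i - ψ i) := by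
    intro i
    rw [← h i, ← integral_mul_const, ← integral_sub (hi (by fun_prop)) (hi (by fun_prop))]
    congr 1; funext x; ring
  simp only [h2, Finset.sum_sub_distrib] at h1
  unfold val
  have h3 : ∑ i, (m' i - m i) * ψ' i = ∑ i, m' i * ψ' i - ∑ i, m i * ψ' i := by
    rw [← Finset.sum_sub_distrib]; exact Finset.sum_congr rfl fun i _ => by ring
  have h4 : ∑ i, m i * (ψ' i - ψ i) = ∑ i, m i * ψ' i - ∑ i, m i * ψ i := by
    rw [← Finset.sum_sub_distrib]; exact Finset.sum_congr rfl fun i _ => by ring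
  linarith

theorem midFamily_cell (y : ι → EuclideanSpace ℝ (Fin d)) (ψ ψ' : ι → ℝ) :
    MidFamily (cell y ψ) (cell y ψ') (cell y fun j => (ψ j + ψ' j) / 2) :=
  ⟨continuous_cell _ _, continuous_cell _ _, continuous_cell _ _, cell_pos _ _, cell_pos _ _,
    cell_pos _ _, sum_cell _ _, sum_cell _ _, sum_cell _ _, cell_mid _ _ _⟩

theorem sum_mass (hK : IsCompact K) (hKi : (interior K).Nonempty) {m : ι → ℝ}
    {y : ι → EuclideanSpace ℝ (Fin d)} {ψ : ι → ℝ}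
    (h : ∀ i, ∫ x, cell y ψ i x ∂(unif K) = m i) : ∑ i, m i = 1 := by
  have := isProbabilityMeasure_unif hK hKi
  have h1 := sum_integral_mul hK hKi (continuous_cell y ψ) (sum_cell y ψ)
    (g := fun _ => 1) continuous_const
  simpa [h] using h1

/-- mixed second difference bound -/
theorem mixed_bound (hK : IsCompact K) (hKc : Convex ℝ K) (hKi : (interior K).Nonempty)
    {R : ℝ} (hR0 : 0 < R) (hR : ∀ x ∈ K, ‖x‖ ≤ R) {m m' : ι → ℝ} (hm : ∀ i, 0 < m i)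
    (hm1 : ∑ i, m i = 1) (hm1' : ∑ i, m' i = 1)
    (h1 : ∀ i, m' i ≤ 2 * m i) (h2 : ∀ i, m i ≤ 2 * m' i)
    {y₀ y₁ : ι → EuclideanSpace ℝ (Fin d)} {ψ₁ : ι → ℝ}
    (hψ₁ : ∀ i, ∫ x, cell y₁ ψ₁ i x ∂(unif K) = m i) {t : ℝ} (ht : 0 < t) :
    ∃ ψ' : ι → ℝ, (∀ i, ∫ x, cell y₀ ψ' i x ∂(unif K) = m' i) ∧
      ∑ i, (m i - m' i) * (ψ₁ i - ψ' i) ≤
        t * (1153 * R ^ 2 * ∑ i, m i * ‖y₁ i - y₀ i‖ ^ 2) +
          5 * (∑ i, (m i - m' i) ^ 2 / m i) / t := by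
  have hm' : ∀ i, 0 < m' i := fun i => by linarith [hm i, h2 i]
  set y : ℝ → ι → EuclideanSpace ℝ (Fin d) := fun s i => y₀ i + s • (y₁ i - y₀ i) with hy
  have hy0 : y 0 = y₀ := by funext i; simp [hy]
  have hy1 : y 1 = y₁ := by funext i; simp [hy]
  have hyd : ∀ s t i, y t i - y s i = (t - s) • (y₁ i - y₀ i) := by
    intro s t i; simp only [hy]; rw [sub_smul]; abel
  choose ψ hψ using fun s => exists_sol hK hKi m hm hm1 (y s)
  choose ψ' hψ' using fun s => exists_sol hK hKi m' hm' hm1' (y s)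
  have hsub : ∀ {μ : ι → ℝ} {χ : ℝ → ι → ℝ}, (∀ s i, ∫ x, cell (y s) (χ s) i x ∂(unif K) = μ i) →
      ∀ s t, (∑ i, ∫ x, cell (y s) (χ s) i x * ⟪x, y₁ i - y₀ i⟫ ∂(unif K)) * (t - s) ≤
        val K μ (y t) (χ t) - val K μ (y s) (χ s) := by
    intro μ χ hχ s t
    have h := val_ineq hK hKi (hχ s) μ (y t) (χ t)
    simp only [sub_self, zero_mul, Finset.sum_const_zero, add_zero, hyd,
      real_inner_smul_right] at h
    rw [Finset.sum_mul]
    refine le_of_eq_of_le (Finset.sum_congr rfl fun i _ => ?_) h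
    rw [← integral_mul_const]
    congr 1; funext x; ring
  have hchain := chain_le (hsub hψ) (hsub hψ') (fun s => by
    rw [← Finset.sum_sub_distrib]
    exact bary_estimate hK hKc hKi hR0 hR (midFamily_cell (y s) (ψ s) (ψ' s)) (hψ s) (hψ' s)
      h1 h2 (fun i => y₁ i - y₀ i) ht)
  refine ⟨ψ' 0, by rw [← hy0]; exact hψ' 0, ?_⟩
  have e1 := val_ineq hK hKi (hψ' 1) m y₁ ψ₁
  have e2 := val_ineq hK hKi hψ₁ m (y 1) (ψ 1)
  have e3 := val_ineq hK hKi (hψ 0) m' (y 0) (ψ' 0)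
  simp only [hy1, sub_self, inner_zero_right, mul_zero, integral_zero, Finset.sum_const_zero,
    zero_add, zero_mul] at e1 e2 e3 hchain
  have e4 : ∑ i, (m i - m' i) * (ψ₁ i - ψ' 0 i) =
      ∑ i, (m i - m' i) * ψ₁ i + ∑ i, (m' i - m i) * ψ' 0 i := by
    rw [← Finset.sum_add_distrib]; exact Finset.sum_congr rfl fun i _ => by ring
  linarith

/-- oscillation bound for two solutions with the same sites -/
theorem osc_bound (hK : IsCompact K) (hKi : (interior K).Nonempty) {m m' : ι → ℝ}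
    (hm : ∀ i, 0 < m i) {y : ι → EuclideanSpace ℝ (Fin d)} {ψ ψ' : ι → ℝ}
    (hψ : ∀ i, ∫ x, cell y ψ i x ∂(unif K) = m i) (hψ' : ∀ i, ∫ x, cell y ψ' i x ∂(unif K) = m' i)
    {c σ : ℝ} (hc : 0 < c) (hcell : ∀ j, ∀ x ∈ K, c ≤ cell y ψ j x) (hσ : σ ≤ 1 / 2)
    (hmm : ∀ i, (1 - σ) * m i ≤ m' i) :
    ∃ e : ℝ, ∀ j, |ψ' j - ψ j - e| ≤ 2 * σ / c := by
  obtain ⟨i, -, hi⟩ := Finset.exists_max_image Finset.univ (fun j => ψ' j - ψ j)
    Finset.univ_nonempty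
  refine ⟨ψ' i - ψ i, fun j => ?_⟩
  have hj := hi j (Finset.mem_univ j)
  set z := c * ((ψ' i - ψ i) - (ψ' j - ψ j)) with hz
  have hz0 : 0 ≤ z := mul_nonneg hc.le (by linarith)
  have h1 : ∀ x ∈ K, (1 + z) * cell y ψ' i x ≤ cell y ψ i x := by
    intro x hx
    have e1 := pot_sub_ge y y ψ ψ' x
    simp only [sub_self, inner_zero_right, zero_sub] at e1
    have e2 : z ≤ ∑ k, cell y ψ k x * ((ψ' i - ψ i) - (ψ' k - ψ k)) := by
      refine le_trans ?_ (Finset.single_le_sum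
        (f := fun k => cell y ψ k x * ((ψ' i - ψ i) - (ψ' k - ψ k)))
        (fun k _ => mul_nonneg (cell_pos y ψ k x).le
          (by linarith [hi k (Finset.mem_univ k)])) (Finset.mem_univ j))
      exact mul_le_mul_of_nonneg_right (hcell j x hx) (by linarith)
    have e3 : ∑ k, cell y ψ k x * ((ψ' i - ψ i) - (ψ' k - ψ k)) =
        (ψ' i - ψ i) + ∑ k, cell y ψ k x * (-(ψ' k - ψ k)) := by
      have : ∀ k, cell y ψ k x * ((ψ' i - ψ i) - (ψ' k - ψ k)) =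
          cell y ψ k x * (ψ' i - ψ i) + cell y ψ k x * (-(ψ' k - ψ k)) := fun k => by ring
      simp only [this, Finset.sum_add_distrib, ← Finset.sum_mul, sum_cell, one_mul]
    have e4 : cell y ψ i x = Real.exp (⟪x, y i⟫ - ψ i - pot y ψ x) := smax_eq_exp _ _
    have e5 : cell y ψ' i x = Real.exp (⟪x, y i⟫ - ψ' i - pot y ψ' x) := smax_eq_exp _ _
    have e6 : Real.exp z * cell y ψ' i x ≤ cell y ψ i x := by
      rw [e4, e5, ← Real.exp_add]
      exact Real.exp_le_exp.mpr (by linarith)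
    have e7 := Real.add_one_le_exp z
    exact (mul_le_mul_of_nonneg_right (by linarith) (cell_pos y ψ' i x).le).trans e6
  have hc1 := continuous_cell y ψ i
  have hc2 := continuous_cell y ψ' i
  have h2 := integral_unif_mono hK hKi (by fun_prop) hc1 h1
  rw [integral_const_mul, hψ, hψ'] at h2
  have h3 : (1 + z) * (1 - σ) ≤ 1 := by
    have e1 : (1 + z) * ((1 - σ) * m i) ≤ 1 * m i :=
      (mul_le_mul_of_nonneg_left (hmm i) (by linarith)).trans (by linarith)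
    rw [← mul_assoc] at e1
    exact le_of_mul_le_mul_right e1 (hm i)
  have h4 : z ≤ 2 * σ := by nlinarith
  rw [abs_sub_comm, abs_of_nonneg (by linarith), le_div_iff₀ hc]
  linarith

/-- variance bound for the weights -/
theorem var_bound (hK : IsCompact K) (hKc : Convex ℝ K) (hKi : (interior K).Nonempty)
    {R : ℝ} (hR0 : 0 < R) (hR : ∀ x ∈ K, ‖x‖ ≤ R) {m : ι → ℝ}
    {y₀ y₁ : ι → EuclideanSpace ℝ (Fin d)} {ψ₀ ψ₁ : ι → ℝ}
    (hψ₀ : ∀ i, ∫ x, cell y₀ ψ₀ i x ∂(unif K) = m i)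
    (hψ₁ : ∀ i, ∫ x, cell y₁ ψ₁ i x ∂(unif K) = m i) :
    ∃ c : ℝ, ∑ i, m i * (ψ₁ i - ψ₀ i - c) ^ 2 ≤
      23060 * R ^ 2 * ∑ i, m i * ‖y₁ i - y₀ i‖ ^ 2 := by
  have hm : ∀ i, 0 < m i := fun i =>
    hψ₀ i ▸ integral_unif_pos hK hKi (continuous_cell _ _ i) (cell_pos _ _ i)
  have hm1 := sum_mass hK hKi hψ₀
  refine ⟨∑ i, m i * (ψ₁ i - ψ₀ i), ?_⟩
  set cc := ∑ i, m i * (ψ₁ i - ψ₀ i) with hcc
  set f : ι → ℝ := fun i => ψ₁ i - ψ₀ i - cc with hf
  have hf0 : ∑ i, m i * f i = 0 := by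
    simp only [hf, mul_sub (m _) (_ - _), Finset.sum_sub_distrib, ← Finset.sum_mul, hm1]
    rw [hcc]; ring
  set F := ∑ i, |f i| + 1 with hF
  have hF0 : 0 < F := by positivity
  have hfF : ∀ i, |f i| ≤ F := fun i =>
    (Finset.single_le_sum (f := fun i => |f i|) (fun _ _ => abs_nonneg _)
      (Finset.mem_univ i)).trans (by linarith)
  obtain ⟨c, hc, hcell⟩ : ∃ c : ℝ, 0 < c ∧ ∀ j, ∀ x ∈ K, c ≤ cell y₀ ψ₀ j x := by
    have hKn : K.Nonempty := hKi.mono interior_subset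
    have : ∀ j, ∃ c : ℝ, 0 < c ∧ ∀ x ∈ K, c ≤ cell y₀ ψ₀ j x := fun j => by
      obtain ⟨x, -, hx⟩ := hK.exists_isMinOn hKn (continuous_cell y₀ ψ₀ j).continuousOn
      exact ⟨_, cell_pos y₀ ψ₀ j x, fun z hz => hx hz⟩
    choose c hc hcx using this
    obtain ⟨j, -, hj⟩ := Finset.exists_min_image Finset.univ c Finset.univ_nonempty
    exact ⟨c j, hc j, fun k x hx => (hj k (Finset.mem_univ k)).trans (hcx k x hx)⟩
  set V := ∑ i, m i * f i ^ 2 with hV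
  set W := ∑ i, m i * ‖y₁ i - y₀ i‖ ^ 2 with hW
  have key : ∀ s : ℝ, 0 < s → s * F ≤ 1 / 2 →
      V ≤ 23060 * R ^ 2 * W + 4 * F ^ 2 / c * s := by
    intro s hs hsF
    have hb : ∀ i, |s * f i| ≤ s * F := fun i => by
      rw [abs_mul, abs_of_pos hs]; exact mul_le_mul_of_nonneg_left (hfF i) hs.le
    obtain ⟨ψ', hψ', hmix⟩ := mixed_bound hK hKc hKi hR0 hR (m' := fun i => m i * (1 - s * f i))
      hm hm1
      (by
        have : ∀ i, m i * (1 - s * f i) = m i - s * (m i * f i) := fun i => by ring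
        simp only [this, Finset.sum_sub_distrib, ← Finset.mul_sum, hm1, hf0]; ring)
      (fun i => by have := (abs_le.mp (hb i)).1; have := hm i; nlinarith)
      (fun i => by have := (abs_le.mp (hb i)).2; have := hm i; nlinarith)
      (y₀ := y₀) hψ₁ (t := 10 * s) (by positivity)
    obtain ⟨e, he⟩ := osc_bound hK hKi hm hψ₀ hψ' hc hcell hsF
      (fun i => by have := (abs_le.mp (hb i)).2; have := hm i; nlinarith)
    have e1 : ∑ i, (m i - m i * (1 - s * f i)) ^ 2 / m i = s ^ 2 * V := by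
      rw [hV, Finset.mul_sum]
      refine Finset.sum_congr rfl fun i _ => ?_
      have := hm i
      field_simp; ring
    have e2 : ∑ i, (m i - m i * (1 - s * f i)) * (ψ₁ i - ψ' i) =
        s * (V - ∑ i, m i * (f i * (ψ' i - ψ₀ i - e))) := by
      have : ∀ i, (m i - m i * (1 - s * f i)) * (ψ₁ i - ψ' i) =
          s * (m i * f i ^ 2) - s * (m i * (f i * (ψ' i - ψ₀ i - e))) +
            s * (cc - e) * (m i * f i) := fun i => by simp only [hf]; ring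
      simp only [this, Finset.sum_add_distrib, Finset.sum_sub_distrib, ← Finset.mul_sum, hf0]
      rw [hV]; ring
    have e3 : ∑ i, m i * (f i * (ψ' i - ψ₀ i - e)) ≤ F * (2 * (s * F) / c) := by
      calc ∑ i, m i * (f i * (ψ' i - ψ₀ i - e)) ≤ ∑ i, m i * (F * (2 * (s * F) / c)) := by
            refine Finset.sum_le_sum fun i _ => mul_le_mul_of_nonneg_left ?_ (hm i).le
            refine (le_abs_self _).trans ?_
            rw [abs_mul]
            exact mul_le_mul (hfF i) (he i) (abs_nonneg _) hF0.le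
        _ = _ := by rw [← Finset.sum_mul, hm1, one_mul]
    rw [e1, e2, ← hW] at hmix
    have e4 : 10 * s * (1153 * R ^ 2 * W) + 5 * (s ^ 2 * V) / (10 * s) =
        s * (11530 * R ^ 2 * W + V / 2) := by field_simp; ring
    rw [e4] at hmix
    have e5 := le_of_mul_le_mul_left hmix hs
    have e6 : 4 * F ^ 2 / c * s = 2 * (F * (2 * (s * F) / c)) := by ring
    linarith
  refine le_of_forall_pos_le_add fun ε hε => ?_
  have hs : 0 < min (1 / (2 * F)) (ε * c / (4 * F ^ 2)) := by positivity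
  have h := key _ hs (by
    calc _ ≤ 1 / (2 * F) * F := by gcongr; exact min_le_left _ _
      _ = 1 / 2 := by field_simp)
  have h2 : 4 * F ^ 2 / c * min (1 / (2 * F)) (ε * c / (4 * F ^ 2)) ≤ ε := by
    calc _ ≤ 4 * F ^ 2 / c * (ε * c / (4 * F ^ 2)) := by gcongr; exact min_le_right _ _
      _ = ε := by field_simp
  linarith

omit [Nonempty ι] in
theorem sq_avg_le {p g : ι → ℝ} (hp : ∀ i, 0 ≤ p i) (hp1 : ∑ i, p i = 1) :
    (∑ i, p i * g i) ^ 2 ≤ ∑ i, p i * g i ^ 2 := by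
  set t := ∑ i, p i * g i with ht
  have h1 : 0 ≤ ∑ i, p i * (g i - t) ^ 2 :=
    Finset.sum_nonneg fun i _ => mul_nonneg (hp i) (sq_nonneg _)
  have h2 : ∀ i, p i * (g i - t) ^ 2 = p i * g i ^ 2 - 2 * t * (p i * g i) + t ^ 2 * p i :=
    fun i => by ring
  simp only [h2, Finset.sum_add_distrib, Finset.sum_sub_distrib, ← Finset.mul_sum, hp1,
    ← ht] at h1
  nlinarith

theorem core_stability' (hK : IsCompact K) (hKc : Convex ℝ K) (hKi : (interior K).Nonempty)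
    {R : ℝ} (hR0 : 0 < R) (hR : ∀ x ∈ K, ‖x‖ ≤ R) {m : ι → ℝ}
    {y₀ y₁ : ι → EuclideanSpace ℝ (Fin d)} {ψ₀ ψ₁ : ι → ℝ}
    (hψ₀ : ∀ i, ∫ x, cell y₀ ψ₀ i x ∂(unif K) = m i)
    (hψ₁ : ∀ i, ∫ x, cell y₁ ψ₁ i x ∂(unif K) = m i) :
    ∃ c : ℝ, ∫ x, (pot y₁ ψ₁ x - pot y₀ ψ₀ x - c) ^ 2 ∂(unif K) ≤
      100000 * R ^ 2 * ∑ i, m i * ‖y₁ i - y₀ i‖ ^ 2 := by
  have hi := fun {f : EuclideanSpace ℝ (Fin d) → ℝ} (hf : Continuous f) =>
    integrable_unif_of_continuous hK hKi hf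
  have hm : ∀ i, 0 < m i := fun i =>
    hψ₀ i ▸ integral_unif_pos hK hKi (continuous_cell _ _ i) (cell_pos _ _ i)
  obtain ⟨c, hc⟩ := var_bound hK hKc hKi hR0 hR hψ₀ hψ₁
  refine ⟨-c, ?_⟩
  set w : ι → ℝ := fun i => 2 * (R ^ 2 * ‖y₁ i - y₀ i‖ ^ 2) + 2 * (ψ₁ i - ψ₀ i - c) ^ 2 with hw
  have hc0 := continuous_cell y₀ ψ₀
  have hc1 := continuous_cell y₁ ψ₁
  have hp0 := continuous_pot y₀ ψ₀
  have hp1 := continuous_pot y₁ ψ₁
  have h1 : ∀ x ∈ K, (pot y₁ ψ₁ x - pot y₀ ψ₀ x - -c) ^ 2 ≤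
      ∑ i, cell y₀ ψ₀ i x * w i + ∑ i, cell y₁ ψ₁ i x * w i := by
    intro x hx
    set g : ι → ℝ := fun i => ⟪x, y₁ i - y₀ i⟫ - (ψ₁ i - ψ₀ i - c) with hg
    have hgw : ∀ i, g i ^ 2 ≤ w i := by
      intro i
      have e1 : |⟪x, y₁ i - y₀ i⟫| ≤ R * ‖y₁ i - y₀ i‖ :=
        (abs_real_inner_le_norm _ _).trans (mul_le_mul_of_nonneg_right (hR x hx) (norm_nonneg _))
      have e2 : ⟪x, y₁ i - y₀ i⟫ ^ 2 ≤ (R * ‖y₁ i - y₀ i‖) ^ 2 := by
        rw [← sq_abs]; gcongr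
      simp only [hg, hw]
      nlinarith [sq_nonneg (⟪x, y₁ i - y₀ i⟫ + (ψ₁ i - ψ₀ i - c))]
    have e0 := pot_sub_ge y₀ y₁ ψ₀ ψ₁ x
    have e1 := pot_sub_ge y₁ y₀ ψ₁ ψ₀ x
    have e2 : ∑ i, cell y₀ ψ₀ i x * g i =
        ∑ i, cell y₀ ψ₀ i x * (⟪x, y₁ i - y₀ i⟫ - (ψ₁ i - ψ₀ i)) + c := by
      have : ∀ i, cell y₀ ψ₀ i x * g i =
          cell y₀ ψ₀ i x * (⟪x, y₁ i - y₀ i⟫ - (ψ₁ i - ψ₀ i)) + cell y₀ ψ₀ i x * c :=
        fun i => by simp only [hg]; ring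
      simp only [this, Finset.sum_add_distrib, ← Finset.sum_mul, sum_cell, one_mul]
    have e3 : ∑ i, cell y₁ ψ₁ i x * g i =
        -∑ i, cell y₁ ψ₁ i x * (⟪x, y₀ i - y₁ i⟫ - (ψ₀ i - ψ₁ i)) + c := by
      have : ∀ i, cell y₁ ψ₁ i x * g i =
          -(cell y₁ ψ₁ i x * (⟪x, y₀ i - y₁ i⟫ - (ψ₀ i - ψ₁ i))) + cell y₁ ψ₁ i x * c :=
        fun i => by simp only [hg, inner_sub_right]; ring
      simp only [this, Finset.sum_add_distrib, ← Finset.sum_mul, sum_cell, one_mul,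
        Finset.sum_neg_distrib]
    have e4 := sq_avg_le (g := g) (fun i => (cell_pos y₀ ψ₀ i x).le) (sum_cell y₀ ψ₀ x)
    have e5 := sq_avg_le (g := g) (fun i => (cell_pos y₁ ψ₁ i x).le) (sum_cell y₁ ψ₁ x)
    have e6 : ∑ i, cell y₀ ψ₀ i x * g i ^ 2 ≤ ∑ i, cell y₀ ψ₀ i x * w i :=
      Finset.sum_le_sum fun i _ => mul_le_mul_of_nonneg_left (hgw i) (cell_pos _ _ i x).le
    have e7 : ∑ i, cell y₁ ψ₁ i x * g i ^ 2 ≤ ∑ i, cell y₁ ψ₁ i x * w i :=
      Finset.sum_le_sum fun i _ => mul_le_mul_of_nonneg_left (hgw i) (cell_pos _ _ i x).le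
    set A := ∑ i, cell y₀ ψ₀ i x * g i
    set B := ∑ i, cell y₁ ψ₁ i x * g i
    set u := pot y₁ ψ₁ x - pot y₀ ψ₀ x - -c with hu
    have f1 : A ≤ u := by linarith
    have f2 : u ≤ B := by linarith
    have f3 : u ^ 2 ≤ A ^ 2 + B ^ 2 := by
      rcases le_total 0 u with h | h
      · nlinarith [sq_nonneg A]
      · nlinarith [sq_nonneg B]
    linarith
  have h2 := integral_unif_mono hK hKi (by fun_prop) (by fun_prop) h1
  rw [integral_add (hi (by fun_prop)) (hi (by fun_prop)),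
    integral_finsetSum _ fun i _ => hi (by fun_prop),
    integral_finsetSum _ fun i _ => hi (by fun_prop)] at h2
  simp only [integral_mul_const, hψ₀, hψ₁] at h2
  have h3 : ∑ i, m i * w i = 2 * (R ^ 2 * ∑ i, m i * ‖y₁ i - y₀ i‖ ^ 2) +
      2 * ∑ i, m i * (ψ₁ i - ψ₀ i - c) ^ 2 := by
    simp only [Finset.mul_sum, ← Finset.sum_add_distrib]
    exact Finset.sum_congr rfl fun i _ => by simp only [hw]; ring
  have h4 : 0 ≤ R ^ 2 * ∑ i, m i * ‖y₁ i - y₀ i‖ ^ 2 :=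
    mul_nonneg (sq_nonneg _) (Finset.sum_nonneg fun i _ => mul_nonneg (hm i).le (sq_nonneg _))
  linarith

end Vale.Agent.P074
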