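import Vale.Agent.P074.Upper

/-! The three-atom example: no exponent above `1/3` is admissible. -/

namespace Vale.Agent.P074

open MeasureTheory Filter Topology
open scoped RealInnerProductSpace ENNReal NNReal

variable {d : ℕ}

theorem optimal_of_potential {K A : Set (EuclideanSpace ℝ (Fin d))} (hK : IsCompact K)
    (hKi : (interior K).Nonempty) (hA : IsCompact A)
    {T : EuclideanSpace ℝ (Fin d) → EuclideanSpace ℝ (Fin d)} (hT : Measurable T)
    (hTA : ∀ x, T x ∈ A) {Ψ : EuclideanSpace ℝ (Fin d) → ℝ} (hΨ : Continuous Ψ)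
    (H : ∀ x ∈ K, ∀ y ∈ A, ⟪x, y⟫ - Ψ y ≤ ⟪x, T x⟫ - Ψ (T x)) :
    IsOptimalMap (unif K) ((unif K).map T) T := by
  have hμ : ((unif K).map T) Aᶜ = 0 := by
    rw [Measure.map_apply hT hA.isClosed.measurableSet.compl]
    have : T ⁻¹' Aᶜ = ∅ := by ext x; simp [hTA x]
    rw [this, measure_empty]
  refine ⟨hT, rfl, fun S hS hSμ => ?_⟩
  rw [cost_le_iff hK hKi hA hT rfl hS hSμ hμ]
  have hSA := ae_map_mem hS hSμ hμ
  have hTA' : ∀ᵐ x ∂(unif K), T x ∈ A := Eventually.of_forall hTA
  have i1 := integrable_comp_of_map hK hKi hA hS hSA (F := fun p => ⟪p.1, p.2⟫) (by fun_prop)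
  have i2 := integrable_comp_of_map hK hKi hA hS hSA (F := fun p => Ψ p.2) (by fun_prop)
  have i3 := integrable_comp_of_map hK hKi hA hT hTA' (F := fun p => ⟪p.1, p.2⟫) (by fun_prop)
  have i4 := integrable_comp_of_map hK hKi hA hT hTA' (F := fun p => Ψ p.2) (by fun_prop)
  have h1 : ∫ x, (⟪x, S x⟫ - Ψ (S x)) ∂(unif K) ≤ ∫ x, (⟪x, T x⟫ - Ψ (T x)) ∂(unif K) := by
    refine integral_mono_ae (i1.sub i2) (i3.sub i4) ?_
    filter_upwards [ae_mem_unif hK, hSA] with x hx hs using H x hx _ hs
  rw [integral_sub i1 i2, integral_sub i3 i4] at h1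
  have h2 : ∫ x, Ψ (S x) ∂(unif K) = ∫ x, Ψ (T x) ∂(unif K) := by
    rw [← integral_map hS.aemeasurable hΨ.aestronglyMeasurable, hSμ,
      integral_map hT.aemeasurable hΨ.aestronglyMeasurable]
  linarith

/-- a coordinate box -/
def box (a b : Fin d → ℝ) : Set (EuclideanSpace ℝ (Fin d)) := WithLp.ofLp ⁻¹' Set.Icc a b

theorem mem_box {a b : Fin d → ℝ} {x : EuclideanSpace ℝ (Fin d)} :
    x ∈ box a b ↔ ∀ i, a i ≤ x i ∧ x i ≤ b i := by
  simp [box, Set.mem_Icc, Pi.le_def, forall_and]

theorem isCompact_box (a b : Fin d → ℝ) : IsCompact (box a b) :=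
  (PiLp.homeomorph 2 fun _ : Fin d => ℝ).isCompact_preimage.mpr isCompact_Icc

theorem convex_box (a b : Fin d → ℝ) : Convex ℝ (box a b) :=
  (convex_Icc a b).linear_preimage (WithLp.linearEquiv 2 ℝ (Fin d → ℝ)).toLinearMap

theorem volume_box (a b : Fin d → ℝ) : volume (box a b) = ∏ i, ENNReal.ofReal (b i - a i) := by
  unfold box
  rw [(PiLp.volume_preserving_ofLp (Fin d)).measure_preimage measurableSet_Icc.nullMeasurableSet,
    Real.volume_Icc_pi]

/-- the cube -/
def cube (d : ℕ) : Set (EuclideanSpace ℝ (Fin d)) := box (fun _ => -1) fun _ => 1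

theorem interior_cube : (interior (cube d)).Nonempty := by
  refine ⟨0, mem_interior_iff_mem_nhds.mpr (mem_of_superset (Metric.ball_mem_nhds 0 one_pos) ?_)⟩
  intro x hx
  rw [mem_ball_zero_iff] at hx
  refine mem_box.mpr fun i => abs_le.mp ?_
  exact (PiLp.norm_apply_le x i).trans hx.le

theorem unif_cube_box {a b : Fin d → ℝ} (ha : ∀ i, -1 ≤ a i) (hb : ∀ i, b i ≤ 1) :
    unif (cube d) (box a b) = ∏ i, ENNReal.ofReal ((b i - a i) / 2) := by
  have hsub : box a b ⊆ cube d := fun x hx => mem_box.mpr fun i =>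
    ⟨(ha i).trans (mem_box.mp hx i).1, (mem_box.mp hx i).2.trans (hb i)⟩
  unfold unif
  rw [Measure.smul_apply, Measure.restrict_apply (isCompact_box a b).isClosed.measurableSet,
    Set.inter_eq_left.mpr hsub, cube, volume_box, volume_box, smul_eq_mul]
  have h1 : ∏ i, ENNReal.ofReal (b i - a i) = (∏ _i : Fin d, ENNReal.ofReal (1 - -1)) *
      ∏ i, ENNReal.ofReal ((b i - a i) / 2) := by
    rw [← Finset.prod_mul_distrib]
    refine Finset.prod_congr rfl fun i _ => ?_
    rw [← ENNReal.ofReal_mul (by norm_num)]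
    congr 1; ring
  rw [h1, ← mul_assoc, ENNReal.inv_mul_cancel (Finset.prod_ne_zero_iff.mpr fun _ _ => by norm_num)
    (ENNReal.prod_ne_top fun _ _ => ENNReal.ofReal_ne_top), one_mul]

/-- the three-atom transport map -/
noncomputable def tmap (i j : Fin d) (ε a : ℝ) (x : EuclideanSpace ℝ (Fin d)) :
    EuclideanSpace ℝ (Fin d) :=
  if ε + a * x j < x i then EuclideanSpace.single i 1
  else if ε + a * x j < -x i then EuclideanSpace.single i (-1) else EuclideanSpace.single j a

theorem measurable_tmap (i j : Fin d) (ε a : ℝ) : Measurable (tmap i j ε a) := by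
  unfold tmap
  refine Measurable.ite (measurableSet_lt (by fun_prop) (by fun_prop)) measurable_const ?_
  exact Measurable.ite (measurableSet_lt (by fun_prop) (by fun_prop)) measurable_const
    measurable_const

theorem tmap_optimal {i j : Fin d} (hij : i ≠ j) {ε a : ℝ} (ha : |a| ≤ ε) :
    IsOptimalMap (unif (cube d)) ((unif (cube d)).map (tmap i j ε a)) (tmap i j ε a) := by
  refine optimal_of_potential (isCompact_box _ _) interior_cube
    (A := {EuclideanSpace.single i 1, EuclideanSpace.single i (-1), EuclideanSpace.single j a})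
    (Set.toFinite _).isCompact (measurable_tmap i j ε a) (fun x => ?_)
    (Ψ := fun y => ε * (y i ^ 2 - 1)) (by fun_prop) fun x hx y hy => ?_
  · unfold tmap; split_ifs <;> simp
  · have h1 := mem_box.mp hx j
    have h2 : 0 ≤ ε + a * x j := by
      have h3 : |a * x j| ≤ ε * 1 := by
        rw [abs_mul]
        exact mul_le_mul ha (abs_le.mpr h1) (abs_nonneg _) ((abs_nonneg _).trans ha)
      linarith [(abs_le.mp h3).1]
    unfold tmap
    rcases hy with rfl | rfl | rfl <;> split_ifs <;>
      simp [EuclideanSpace.inner_single_right, hij] <;> linarith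

theorem tmap_mem (i j : Fin d) {ε a : ℝ} (ha : |a| ≤ 1) (x : EuclideanSpace ℝ (Fin d)) :
    tmap i j ε a x ∈ Metric.closedBall (0 : EuclideanSpace ℝ (Fin d)) 1 := by
  unfold tmap; split_ifs <;> simp [ha]

/-- reflection in the coordinate `j` -/
noncomputable def refl (j : Fin d) : EuclideanSpace ℝ (Fin d) ≃ₗᵢ[ℝ] EuclideanSpace ℝ (Fin d) :=
  LinearIsometryEquiv.piLpCongrRight 2 fun k =>
    if k = j then LinearIsometryEquiv.neg ℝ else LinearIsometryEquiv.refl ℝ ℝ

theorem refl_apply (j k : Fin d) (x : EuclideanSpace ℝ (Fin d)) :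
    refl j x k = if k = j then -x k else x k := by
  unfold refl
  rw [LinearIsometryEquiv.piLpCongrRight_apply]
  split_ifs with h <;> simp [h]

theorem map_refl_unif (j : Fin d) : (unif (cube d)).map (refl j) = unif (cube d) := by
  have h1 : refl j ⁻¹' cube d = cube d := by
    ext x
    simp only [Set.mem_preimage, cube, mem_box, refl_apply]
    refine forall_congr' fun k => ?_
    split_ifs
    · constructor <;> rintro ⟨h1, h2⟩ <;> constructor <;> linarith
    · rfl
  have h2 := (refl j).measurePreserving.restrict_preimage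
    (isCompact_box (fun _ : Fin d => -1) fun _ => 1).isClosed.measurableSet
  change MeasurePreserving _ (volume.restrict (refl j ⁻¹' cube d)) (volume.restrict (cube d)) at h2
  rw [h1] at h2
  unfold unif
  rw [Measure.map_smul, h2.map_eq]

theorem W2_tmap_le {i j : Fin d} (hij : i ≠ j) {ε : ℝ} (hε : 0 < ε) (hε1 : ε ≤ 1 / 2) :
    W2 ((unif (cube d)).map (tmap i j ε ε)) ((unif (cube d)).map (tmap i j ε (-ε))) ≤
      ENNReal.ofReal (8 * ε ^ 3) ^ (1 / 2 : ℝ) := by
  have hm1 : Measurable fun x => tmap i j ε ε (refl j x) :=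
    (measurable_tmap i j ε ε).comp (refl j).continuous.measurable
  have hm2 := measurable_tmap i j ε (-ε)
  have hm := hm1.prodMk hm2
  unfold W2
  refine iInf₂_le_of_le ((unif (cube d)).map fun x => (tmap i j ε ε (refl j x), tmap i j ε (-ε) x))
    ⟨?_, ?_⟩ ?_
  · rw [Measure.map_map measurable_fst hm]
    conv_rhs => rw [← map_refl_unif j]
    rw [Measure.map_map (measurable_tmap i j ε ε) (refl j).continuous.measurable]
    rfl
  · rw [Measure.map_map measurable_snd hm]
    rfl
  · refine ENNReal.rpow_le_rpow ?_ (by norm_num)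
    rw [lintegral_map (by fun_prop) hm]
    set B := box (fun k : Fin d => if k = i then -(2 * ε) else -1)
      (fun k => if k = i then 2 * ε else 1) with hB
    have hBm : MeasurableSet B := (isCompact_box _ _).isClosed.measurableSet
    have hBv : unif (cube d) B = ENNReal.ofReal (2 * ε) := by
      rw [hB, unif_cube_box (fun k => by split_ifs <;> linarith)
        (fun k => by split_ifs <;> linarith),
        Finset.prod_eq_single i (fun k _ hk => by simp [hk]) (by simp)]
      simp
    calc _ ≤ ∫⁻ x, B.indicator (fun _ => ENNReal.ofReal (4 * ε ^ 2)) x ∂(unif (cube d)) := by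
          refine lintegral_mono_ae ((ae_mem_unif (isCompact_box _ _)).mono fun x hx => ?_)
          have h1 := mem_box.mp hx
          have e1 : refl j x i = x i := by rw [refl_apply, if_neg hij]
          have e2 : refl j x j = -x j := by rw [refl_apply, if_pos rfl]
          have e3 : ε * -x j = -ε * x j := by ring
          simp only [tmap, e1, e2, e3]
          split_ifs with c1 c2
          · simp
          · simp
          · have hxB : x ∈ B := by
              refine mem_box.mpr fun k => ?_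
              have := h1 j
              split_ifs with hk
              · subst hk
                constructor <;> nlinarith
              · exact h1 k
            rw [Set.indicator_of_mem hxB, ← PiLp.single_sub, ← ofReal_norm,
              ← ENNReal.ofReal_pow (norm_nonneg _), PiLp.norm_single, Real.norm_eq_abs,
              sq_abs]
            exact ENNReal.ofReal_le_ofReal (le_of_eq (by ring))
      _ = ENNReal.ofReal (8 * ε ^ 3) := by
          rw [lintegral_indicator hBm, setLIntegral_const, hBv,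
            ← ENNReal.ofReal_mul (by positivity)]
          congr 1; ring

theorem le_eLpNorm_tmap {i j : Fin d} (hij : i ≠ j) {ε : ℝ} (hε : 0 < ε) (hε1 : ε ≤ 1 / 2) :
    ENNReal.ofReal (ε / 16) ^ (1 / 2 : ℝ) ≤
      eLpNorm (fun x => tmap i j ε ε x - tmap i j ε (-ε) x) 2 (unif (cube d)) := by
  rw [eLpNorm_eq_lintegral_rpow_enorm_toReal (by norm_num) (by norm_num)]
  simp only [ENNReal.toReal_ofNat, ENNReal.rpow_ofNat]
  refine ENNReal.rpow_le_rpow ?_ (by norm_num)
  set B := box (fun k : Fin d => if k = i then 3 * ε / 4 else if k = j then 1 / 2 else -1)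
    (fun k => if k = i then 5 * ε / 4 else 1) with hB
  have hBm : MeasurableSet B := (isCompact_box _ _).isClosed.measurableSet
  have hBv : unif (cube d) B = ENNReal.ofReal (ε / 16) := by
    rw [hB, unif_cube_box (fun k => by split_ifs <;> linarith)
      (fun k => by split_ifs <;> linarith),
      Finset.prod_eq_mul i j hij (fun k _ hk => by simp [hk.1, hk.2]) (by simp) (by simp)]
    simp only [if_true, if_neg hij.symm]
    rw [← ENNReal.ofReal_mul (by linarith)]
    congr 1; ring
  rw [← hBv, ← lintegral_indicator_one hBm]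
  refine lintegral_mono fun x => ?_
  by_cases hx : x ∈ B
  · rw [Set.indicator_of_mem hx]
    have h1 := mem_box.mp hx i
    have h2 := mem_box.mp hx j
    simp only [if_true, if_neg hij.symm] at h1 h2
    have c1 : ¬ ε + ε * x j < x i := by nlinarith
    have c2 : ¬ ε + ε * x j < -x i := by nlinarith
    have c3 : ε + -ε * x j < x i := by nlinarith
    simp only [tmap, if_neg c1, if_neg c2, if_pos c3, Pi.one_apply]
    refine one_le_pow₀ ?_
    rw [← ofReal_norm, ENNReal.one_le_ofReal]
    refine le_trans ?_ (PiLp.norm_apply_le _ i)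
    simp [hij]
  · rw [Set.indicator_of_notMem hx]; exact zero_le

theorem not_admissible_of_gt (hd : 2 ≤ d) {α : ℝ} (hα : 1 / 3 < α) : ¬ Admissible d α := by
  rintro ⟨hα0, -, H⟩
  obtain ⟨C, HC⟩ := H (cube d) (isCompact_box _ _) (convex_box _ _) interior_cube
    (Metric.closedBall 0 1) (isCompact_closedBall _ _) ⟨0, by simp⟩
  have : IsProbabilityMeasure (unif (cube d)) :=
    isProbabilityMeasure_unif (isCompact_box _ _) interior_cube
  set i : Fin d := ⟨0, by omega⟩
  set j : Fin d := ⟨1, by omega⟩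
  have hij : i ≠ j := by simp [i, j]
  have hsupp : ∀ ε a : ℝ, |a| ≤ 1 →
      ((unif (cube d)).map (tmap i j ε a)) (Metric.closedBall 0 1)ᶜ = 0 := fun ε a ha => by
    rw [Measure.map_apply (measurable_tmap i j ε a) Metric.isClosed_closedBall.measurableSet.compl]
    have : tmap i j ε a ⁻¹' (Metric.closedBall 0 1)ᶜ = ∅ := by
      ext x; simpa using tmap_mem i j ha x
    rw [this, measure_empty]
  have key : ∀ ε : ℝ, 0 < ε → ε ≤ 1 / 2 → 1 / 16 ≤ C ^ 2 * 8 ^ α * ε ^ (3 * α - 1) := by
    intro ε hε hε1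
    have h1 := HC _ _ (Measure.isProbabilityMeasure_map (measurable_tmap i j ε ε).aemeasurable)
      (Measure.isProbabilityMeasure_map (measurable_tmap i j ε (-ε)).aemeasurable)
      (hsupp ε ε (by rw [abs_of_pos hε]; linarith))
      (hsupp ε (-ε) (by rw [abs_neg, abs_of_pos hε]; linarith)) _ _
      (tmap_optimal hij (abs_of_pos hε).le) (tmap_optimal hij (by rw [abs_neg, abs_of_pos hε]))
    have h2 : ENNReal.ofReal (ε / 16) ^ (1 / 2 : ℝ) ≤
        C * (ENNReal.ofReal (8 * ε ^ 3) ^ (1 / 2 : ℝ)) ^ α :=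
      (le_eLpNorm_tmap hij hε hε1).trans (h1.trans (by gcongr; exact W2_tmap_le hij hε hε1))
    have h3 := ENNReal.rpow_le_rpow h2 (show (0 : ℝ) ≤ 2 by norm_num)
    rw [ENNReal.mul_rpow_of_nonneg _ _ (by norm_num), ← ENNReal.rpow_mul, ← ENNReal.rpow_mul,
      ← ENNReal.rpow_mul, show (1 / 2 : ℝ) * 2 = 1 by norm_num, ENNReal.rpow_one,
      show (1 / 2 : ℝ) * (α * 2) = α by ring, ENNReal.ofReal_rpow_of_nonneg (by positivity) hα0.le,
      ← ENNReal.ofReal_coe_nnreal, ENNReal.ofReal_rpow_of_nonneg (x := (C : ℝ)) (p := 2) C.2 (by norm_num),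
      ← ENNReal.ofReal_mul (by positivity), ENNReal.ofReal_le_ofReal_iff (by positivity),
      Real.mul_rpow (by norm_num) (by positivity), ← Real.rpow_natCast ε, ← Real.rpow_mul hε.le,
      Real.rpow_two] at h3
    rw [Real.rpow_sub_one hε.ne', ← mul_div_assoc, le_div_iff₀ hε]
    push_cast at h3
    linarith
  have hlim : Tendsto (fun ε : ℝ => (C : ℝ) ^ 2 * 8 ^ α * ε ^ (3 * α - 1)) (𝓝[>] 0) (𝓝 0) := by
    have h1 := (Real.continuousAt_rpow_const 0 (3 * α - 1) (Or.inr (by linarith))).tendsto
    rw [Real.zero_rpow (by linarith)] at h1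
    have h2 := (h1.mono_left (nhdsWithin_le_nhds (s := Set.Ioi 0))).const_mul ((C : ℝ) ^ 2 * 8 ^ α)
    simpa using h2
  have hev : ∀ᶠ ε : ℝ in 𝓝[>] 0, 1 / 16 ≤ (C : ℝ) ^ 2 * 8 ^ α * ε ^ (3 * α - 1) := by
    filter_upwards [Ioc_mem_nhdsGT (show (0 : ℝ) < 1 / 2 by norm_num)] with ε hε using
      key ε hε.1 hε.2
  have := ge_of_tendsto hlim hev
  norm_num at this

end Vale.Agent.P074
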