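import Vale.Agent.P074.Soft
import Vale.Agent.P074.Interp

/-! The conjugate over `K`, the dual functional, and the scaled soft potentials. -/

namespace Vale.Agent.P074

open MeasureTheory
open scoped RealInnerProductSpace

/-- conjugate of `φ` restricted to `K` -/
noncomputable def conj {d : ℕ} (K : Set (EuclideanSpace ℝ (Fin d)))
    (φ : EuclideanSpace ℝ (Fin d) → ℝ) (y : EuclideanSpace ℝ (Fin d)) : ℝ :=
  sSup ((fun x => ⟪x, y⟫ - φ x) '' K)

/-- the dual functional -/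
noncomputable def dualJ {d : ℕ} (K : Set (EuclideanSpace ℝ (Fin d)))
    (μ : Measure (EuclideanSpace ℝ (Fin d))) (φ : EuclideanSpace ℝ (Fin d) → ℝ) : ℝ :=
  ∫ x, φ x ∂(unif K) + ∫ y, conj K φ y ∂μ

theorem le_conj {d : ℕ} {K : Set (EuclideanSpace ℝ (Fin d))} (hK : IsCompact K)
    {φ : EuclideanSpace ℝ (Fin d) → ℝ} (hφ : Continuous φ) {x : EuclideanSpace ℝ (Fin d)}
    (hx : x ∈ K) (y : EuclideanSpace ℝ (Fin d)) : ⟪x, y⟫ - φ x ≤ conj K φ y := by
  refine le_csSup ?_ ⟨x, hx, rfl⟩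
  exact (hK.image (by fun_prop)).bddAbove

theorem conj_le {d : ℕ} {K : Set (EuclideanSpace ℝ (Fin d))} (hK : K.Nonempty)
    {φ : EuclideanSpace ℝ (Fin d) → ℝ} {y : EuclideanSpace ℝ (Fin d)} {t : ℝ}
    (h : ∀ x ∈ K, ⟪x, y⟫ - φ x ≤ t) : conj K φ y ≤ t := by
  refine csSup_le (hK.image _) ?_
  rintro _ ⟨x, hx, rfl⟩
  exact h x hx

theorem abs_conj_sub_le {d : ℕ} {K : Set (EuclideanSpace ℝ (Fin d))} (hK : IsCompact K)
    (hKn : K.Nonempty) {R : ℝ} (hR : ∀ x ∈ K, ‖x‖ ≤ R)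
    {φ : EuclideanSpace ℝ (Fin d) → ℝ} (hφ : Continuous φ) (y y' : EuclideanSpace ℝ (Fin d)) :
    |conj K φ y - conj K φ y'| ≤ R * dist y y' := by
  have key : ∀ z z' : EuclideanSpace ℝ (Fin d), conj K φ z ≤ conj K φ z' + R * dist z z' := by
    intro z z'
    refine conj_le hKn fun x hx => ?_
    have h1 := le_conj hK hφ hx z'
    have h2 : ⟪x, z⟫ - ⟪x, z'⟫ ≤ R * dist z z' := by
      rw [← inner_sub_right, dist_eq_norm]
      exact (real_inner_le_norm _ _).trans (mul_le_mul_of_nonneg_right (hR x hx) (norm_nonneg _))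
    linarith
  have h1 := key y y'
  have h2 := key y' y
  rw [dist_comm] at h2
  rw [abs_le]; constructor <;> linarith

theorem continuous_conj {d : ℕ} {K : Set (EuclideanSpace ℝ (Fin d))} (hK : IsCompact K)
    (hKn : K.Nonempty) {φ : EuclideanSpace ℝ (Fin d) → ℝ} (hφ : Continuous φ) :
    Continuous (conj K φ) := by
  obtain ⟨R, hR⟩ := hK.isBounded.exists_norm_le
  have hR0 : 0 ≤ R := by
    obtain ⟨x, hx⟩ := hKn
    exact (norm_nonneg x).trans (hR x hx)
  have : LipschitzWith ⟨R, hR0⟩ (conj K φ) :=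
    LipschitzWith.of_dist_le_mul fun y y' => by
      rw [Real.dist_eq]; exact abs_conj_sub_le hK hKn hR hφ y y'
  exact this.continuous

end Vale.Agent.P074
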