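import Vale.Agent.P074.Core
import Vale.Agent.P074.Dual

/-! Soft transport plans towards finitely many atoms. -/

namespace Vale.Agent.P074

open MeasureTheory
open scoped RealInnerProductSpace

variable {d : ℕ} {K : Set (EuclideanSpace ℝ (Fin d))} {ι : Type*} [Fintype ι]

/-- barycentric map of a soft plan -/
noncomputable def bmap (c : ι → EuclideanSpace ℝ (Fin d)) (p : ι → EuclideanSpace ℝ (Fin d) → ℝ)
    (x : EuclideanSpace ℝ (Fin d)) : EuclideanSpace ℝ (Fin d) := ∑ i, p i x • c i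

/-- correlation of a soft plan -/
noncomputable def corr (K : Set (EuclideanSpace ℝ (Fin d))) (c : ι → EuclideanSpace ℝ (Fin d))
    (p : ι → EuclideanSpace ℝ (Fin d) → ℝ) : ℝ := ∫ x, ⟪x, bmap c p x⟫ ∂(unif K)

/-- a soft plan with masses `m`, atoms `c`, potential `φ` and duality gap at most `σ` -/
structure SoftPlan (K : Set (EuclideanSpace ℝ (Fin d))) (m : ι → ℝ)
    (c : ι → EuclideanSpace ℝ (Fin d)) (σ : ℝ) (p : ι → EuclideanSpace ℝ (Fin d) → ℝ)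
    (φ : EuclideanSpace ℝ (Fin d) → ℝ) : Prop where
  cont : ∀ i, Continuous (p i)
  nonneg : ∀ i x, 0 ≤ p i x
  sum_one : ∀ x, ∑ i, p i x = 1
  mass : ∀ i, ∫ x, p i x ∂(unif K) = m i
  subgrad : ∀ x x', φ x + ⟪x' - x, bmap c p x⟫ ≤ φ x'
  contφ : Continuous φ
  gap : ∫ x, φ x ∂(unif K) + ∑ i, m i * conj K φ (c i) ≤ corr K c p + σ

theorem SoftPlan.continuous_bmap {m : ι → ℝ} {c : ι → EuclideanSpace ℝ (Fin d)} {σ : ℝ}
    {p : ι → EuclideanSpace ℝ (Fin d) → ℝ} {φ : EuclideanSpace ℝ (Fin d) → ℝ}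
    (P : SoftPlan K m c σ p φ) : Continuous (bmap c p) := by
  have := P.cont
  unfold bmap; fun_prop

theorem SoftPlan.norm_bmap_le {m : ι → ℝ} {c : ι → EuclideanSpace ℝ (Fin d)} {σ : ℝ}
    {p : ι → EuclideanSpace ℝ (Fin d) → ℝ} {φ : EuclideanSpace ℝ (Fin d) → ℝ}
    (P : SoftPlan K m c σ p φ) {L : ℝ} (hc : ∀ i, ‖c i‖ ≤ L) (x : EuclideanSpace ℝ (Fin d)) :
    ‖bmap c p x‖ ≤ L := by
  unfold bmap
  calc ‖∑ i, p i x • c i‖ ≤ ∑ i, p i x * L := by
        refine (norm_sum_le _ _).trans (Finset.sum_le_sum fun i _ => ?_)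
        rw [norm_smul, Real.norm_of_nonneg (P.nonneg i x)]
        exact mul_le_mul_of_nonneg_left (hc i) (P.nonneg i x)
    _ = L := by rw [← Finset.sum_mul, P.sum_one, one_mul]

theorem SoftPlan.hasBddSubgrad {m : ι → ℝ} {c : ι → EuclideanSpace ℝ (Fin d)} {σ : ℝ}
    {p : ι → EuclideanSpace ℝ (Fin d) → ℝ} {φ : EuclideanSpace ℝ (Fin d) → ℝ}
    (P : SoftPlan K m c σ p φ) {L : ℝ} (hc : ∀ i, ‖c i‖ ≤ L) : HasBddSubgrad L φ :=
  fun x => ⟨bmap c p x, P.norm_bmap_le hc x, P.subgrad x⟩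

theorem inner_bmap (c : ι → EuclideanSpace ℝ (Fin d)) (p : ι → EuclideanSpace ℝ (Fin d) → ℝ)
    (x z : EuclideanSpace ℝ (Fin d)) : ⟪z, bmap c p x⟫ = ∑ i, p i x * ⟪z, c i⟫ := by
  unfold bmap
  rw [inner_sum]
  exact Finset.sum_congr rfl fun i _ => real_inner_smul_right _ _ _

/-- integrated gap of a soft plan with respect to an arbitrary potential -/
theorem SoftPlan.integral_gap (hK : IsCompact K) (hKi : (interior K).Nonempty)
    {m : ι → ℝ} {c : ι → EuclideanSpace ℝ (Fin d)} {σ : ℝ}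
    {p : ι → EuclideanSpace ℝ (Fin d) → ℝ} {φ : EuclideanSpace ℝ (Fin d) → ℝ}
    (P : SoftPlan K m c σ p φ) {φ' : EuclideanSpace ℝ (Fin d) → ℝ} (hφ' : Continuous φ') :
    ∫ x, ∑ i, p i x * (φ' x + conj K φ' (c i) - ⟪x, c i⟫) ∂(unif K) =
      ∫ x, φ' x ∂(unif K) + ∑ i, m i * conj K φ' (c i) - corr K c p := by
  have hi := fun {f : EuclideanSpace ℝ (Fin d) → ℝ} (hf : Continuous f) =>
    integrable_unif_of_continuous hK hKi hf
  have hc := P.cont
  have hb := P.continuous_bmap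
  have h1 : ∀ x, ∑ i, p i x * (φ' x + conj K φ' (c i) - ⟪x, c i⟫) =
      φ' x + ∑ i, p i x * conj K φ' (c i) - ⟪x, bmap c p x⟫ := by
    intro x
    rw [inner_bmap]
    simp only [mul_sub, mul_add, Finset.sum_sub_distrib, Finset.sum_add_distrib,
      ← Finset.sum_mul, P.sum_one, one_mul]
  simp only [h1]
  rw [integral_sub (hi (by fun_prop)) (hi (by fun_prop)), integral_add (hi hφ') (hi (by fun_prop)),
    integral_finsetSum _ fun i _ => hi (by fun_prop)]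
  simp only [integral_mul_const, P.mass]
  rfl

/-- weak duality -/
theorem SoftPlan.corr_le (hK : IsCompact K) (hKi : (interior K).Nonempty)
    {m : ι → ℝ} {c : ι → EuclideanSpace ℝ (Fin d)} {σ : ℝ}
    {p : ι → EuclideanSpace ℝ (Fin d) → ℝ} {φ : EuclideanSpace ℝ (Fin d) → ℝ}
    (P : SoftPlan K m c σ p φ) {φ' : EuclideanSpace ℝ (Fin d) → ℝ} (hφ' : Continuous φ') :
    corr K c p ≤ ∫ x, φ' x ∂(unif K) + ∑ i, m i * conj K φ' (c i) := by
  have h := P.integral_gap hK hKi hφ'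
  have h2 : 0 ≤ ∫ x, ∑ i, p i x * (φ' x + conj K φ' (c i) - ⟪x, c i⟫) ∂(unif K) := by
    refine integral_nonneg_of_ae ((ae_mem_unif hK).mono fun x hx => ?_)
    refine Finset.sum_nonneg fun i _ => mul_nonneg (P.nonneg i x) ?_
    linarith [le_conj hK hφ' hx (c i)]
  linarith

variable [Nonempty ι]

theorem softPlan_of_sol (hK : IsCompact K) (hKi : (interior K).Nonempty) {m : ι → ℝ}
    (c : ι → EuclideanSpace ℝ (Fin d)) {ε : ℝ} (hε : 0 < ε) {ψ : ι → ℝ}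
    (hψ : ∀ i, ∫ x, cell (fun i => ε⁻¹ • c i) ψ i x ∂(unif K) = m i) :
    SoftPlan K m c (ε * Fintype.card ι) (cell (fun i => ε⁻¹ • c i) ψ)
      (fun x => ε * pot (fun i => ε⁻¹ • c i) ψ x) := by
  have hi := fun {f : EuclideanSpace ℝ (Fin d) → ℝ} (hf : Continuous f) =>
    integrable_unif_of_continuous hK hKi hf
  have := isProbabilityMeasure_unif hK hKi
  set y : ι → EuclideanSpace ℝ (Fin d) := fun i => ε⁻¹ • c i with hy
  have hin : ∀ z i, ε * ⟪z, y i⟫ = ⟪z, c i⟫ := fun z i => by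
    simp only [hy, real_inner_smul_right]; field_simp
  have hc := continuous_cell y ψ
  have hp := continuous_pot y ψ
  refine ⟨hc, fun i x => (cell_pos _ _ i x).le, sum_cell _ _, hψ, fun x x' => ?_, by fun_prop, ?_⟩
  · have h := mul_le_mul_of_nonneg_left (pot_subgrad y ψ x x') hε.le
    have h2 : ⟪x' - x, bmap c (cell y ψ) x⟫ = ε * ⟪x' - x, ∑ i, cell y ψ i x • y i⟫ := by
      have := inner_bmap y (cell y ψ) x (x' - x)
      unfold bmap at this
      rw [this, inner_bmap, Finset.mul_sum]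
      exact Finset.sum_congr rfl fun i _ => by rw [← hin]; ring
    rw [h2]; linarith
  · have h1 : ∀ i, conj K (fun x => ε * pot y ψ x) (c i) ≤ ε * ψ i := fun i =>
      conj_le (hKi.mono interior_subset) fun x _ => by
        have := mul_le_mul_of_nonneg_left (le_pot y ψ i x) hε.le
        rw [mul_sub, hin] at this
        linarith
    have hm : ∀ i, 0 ≤ m i := fun i =>
      hψ i ▸ (integral_unif_pos hK hKi (hc i) (cell_pos _ _ i)).le
    have h2 : ∑ i, m i * conj K (fun x => ε * pot y ψ x) (c i) ≤ ∑ i, m i * (ε * ψ i) :=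
      Finset.sum_le_sum fun i _ => mul_le_mul_of_nonneg_left (h1 i) (hm i)
    have hb : Continuous (bmap c (cell y ψ)) := by unfold bmap; fun_prop
    have h3 := integral_unif_mono hK hKi (f := fun x => ε * pot y ψ x)
      (g := fun x => ⟪x, bmap c (cell y ψ) x⟫ - ∑ i, cell y ψ i x * (ε * ψ i) +
        ε * Fintype.card ι) (by fun_prop) (by fun_prop) fun x _ => by
        have e1 := mul_le_mul_of_nonneg_left (pot_le_sum y ψ x) hε.le
        have e2 : ε * ∑ i, cell y ψ i x * (⟪x, y i⟫ - ψ i) =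
            ⟪x, bmap c (cell y ψ) x⟫ - ∑ i, cell y ψ i x * (ε * ψ i) := by
          rw [inner_bmap, Finset.mul_sum, ← Finset.sum_sub_distrib]
          exact Finset.sum_congr rfl fun i _ => by rw [← hin]; ring
        rw [mul_add, e2] at e1
        exact e1
    rw [integral_add (hi (by fun_prop)) (hi (by fun_prop)),
      integral_sub (hi (by fun_prop)) (hi (by fun_prop)),
      integral_finsetSum _ fun i _ => hi (by fun_prop)] at h3
    simp only [integral_mul_const, hψ, integral_const, probReal_univ, smul_eq_mul,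
      one_mul] at h3
    unfold corr
    linarith

/-- two soft plans with the same masses have close potentials -/
theorem exists_softPlan_pair (hK : IsCompact K) (hKc : Convex ℝ K) (hKi : (interior K).Nonempty)
    {R : ℝ} (hR0 : 0 < R) (hR : ∀ x ∈ K, ‖x‖ ≤ R) {m : ι → ℝ} (hm : ∀ i, 0 < m i)
    (hm1 : ∑ i, m i = 1) (c₀ c₁ : ι → EuclideanSpace ℝ (Fin d)) {σ : ℝ} (hσ : 0 < σ) :
    ∃ p₀ φ₀ p₁ φ₁, SoftPlan K m c₀ σ p₀ φ₀ ∧ SoftPlan K m c₁ σ p₁ φ₁ ∧
      ∃ e : ℝ, ∫ x, (φ₁ x - φ₀ x - e) ^ 2 ∂(unif K) ≤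
        100000 * R ^ 2 * ∑ i, m i * ‖c₁ i - c₀ i‖ ^ 2 := by
  have hN : (0 : ℝ) < Fintype.card ι := by exact_mod_cast Fintype.card_pos
  set ε := σ / Fintype.card ι with hεd
  have hε : 0 < ε := by positivity
  have hσε : ε * Fintype.card ι = σ := by rw [hεd]; field_simp
  obtain ⟨ψ₀, h₀⟩ := exists_sol hK hKi m hm hm1 (fun i => ε⁻¹ • c₀ i)
  obtain ⟨ψ₁, h₁⟩ := exists_sol hK hKi m hm hm1 (fun i => ε⁻¹ • c₁ i)
  have P₀ := softPlan_of_sol hK hKi c₀ hε h₀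
  have P₁ := softPlan_of_sol hK hKi c₁ hε h₁
  rw [hσε] at P₀ P₁
  obtain ⟨e, he⟩ := core_stability' hK hKc hKi hR0 hR h₀ h₁
  refine ⟨_, _, _, _, P₀, P₁, ε * e, ?_⟩
  have h1 : ∀ x, (ε * pot (fun i => ε⁻¹ • c₁ i) ψ₁ x - ε * pot (fun i => ε⁻¹ • c₀ i) ψ₀ x -
      ε * e) ^ 2 = ε ^ 2 * (pot (fun i => ε⁻¹ • c₁ i) ψ₁ x - pot (fun i => ε⁻¹ • c₀ i) ψ₀ x -
      e) ^ 2 := fun x => by ring
  simp only [h1]
  rw [integral_const_mul]
  have h2 : ∑ i, m i * ‖c₁ i - c₀ i‖ ^ 2 = ε ^ 2 * ∑ i, m i * ‖ε⁻¹ • c₁ i - ε⁻¹ • c₀ i‖ ^ 2 := by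
    rw [Finset.mul_sum]
    refine Finset.sum_congr rfl fun i _ => ?_
    rw [← smul_sub, norm_smul, Real.norm_of_nonneg (by positivity)]
    field_simp
  rw [h2]
  calc _ ≤ ε ^ 2 * (100000 * R ^ 2 * ∑ i, m i * ‖ε⁻¹ • c₁ i - ε⁻¹ • c₀ i‖ ^ 2) := by gcongr
    _ = _ := by ring

omit [Nonempty ι] in
/-- `∑ m i δ (c i)` is within `η` of `μ` when tested against Lipschitz functions -/
def Approx (μ : Measure (EuclideanSpace ℝ (Fin d))) (m : ι → ℝ) (c : ι → EuclideanSpace ℝ (Fin d))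
    (η : ℝ) : Prop :=
  ∀ (F : EuclideanSpace ℝ (Fin d) → ℝ) (Λ : ℝ), 0 ≤ Λ → Continuous F →
    (∀ a b, |F a - F b| ≤ Λ * dist a b) → |∫ z, F z ∂μ - ∑ i, m i * F (c i)| ≤ Λ * η

omit [Nonempty ι] in
theorem Approx.conj_bound (hK : IsCompact K) (hKi : (interior K).Nonempty)
    {R : ℝ} (hR0 : 0 < R) (hR : ∀ x ∈ K, ‖x‖ ≤ R) {μ : Measure (EuclideanSpace ℝ (Fin d))}
    {m : ι → ℝ} {c : ι → EuclideanSpace ℝ (Fin d)} {η : ℝ} (A : Approx μ m c η)
    {φ : EuclideanSpace ℝ (Fin d) → ℝ} (hφ : Continuous φ) :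
    |∫ z, conj K φ z ∂μ - ∑ i, m i * conj K φ (c i)| ≤ R * η :=
  A _ R hR0.le (continuous_conj hK (hKi.mono interior_subset) hφ)
    (abs_conj_sub_le hK (hKi.mono interior_subset) hR hφ)

omit [Nonempty ι] in
theorem SoftPlan.dualJ_le (hK : IsCompact K) (hKi : (interior K).Nonempty)
    {R : ℝ} (hR0 : 0 < R) (hR : ∀ x ∈ K, ‖x‖ ≤ R) {μ : Measure (EuclideanSpace ℝ (Fin d))}
    {m : ι → ℝ} {c : ι → EuclideanSpace ℝ (Fin d)} {σ η : ℝ}
    {p : ι → EuclideanSpace ℝ (Fin d) → ℝ} {φ : EuclideanSpace ℝ (Fin d) → ℝ}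
    (P : SoftPlan K m c σ p φ) (A : Approx μ m c η) :
    dualJ K μ φ ≤ corr K c p + σ + R * η := by
  have h1 := (abs_le.mp (A.conj_bound hK hKi hR0 hR P.contφ)).2
  have h2 := P.gap
  unfold dualJ
  linarith

omit [Nonempty ι] in
theorem SoftPlan.corr_le_dualJ (hK : IsCompact K) (hKi : (interior K).Nonempty)
    {R : ℝ} (hR0 : 0 < R) (hR : ∀ x ∈ K, ‖x‖ ≤ R) {μ : Measure (EuclideanSpace ℝ (Fin d))}
    {m : ι → ℝ} {c : ι → EuclideanSpace ℝ (Fin d)} {σ η : ℝ}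
    {p : ι → EuclideanSpace ℝ (Fin d) → ℝ} {φ : EuclideanSpace ℝ (Fin d) → ℝ}
    (P : SoftPlan K m c σ p φ) (A : Approx μ m c η)
    {φ' : EuclideanSpace ℝ (Fin d) → ℝ} (hφ' : Continuous φ') :
    corr K c p ≤ dualJ K μ φ' + R * η := by
  have h1 := (abs_le.mp (A.conj_bound hK hKi hR0 hR hφ')).1
  have h2 := P.corr_le hK hKi hφ'
  unfold dualJ
  linarith

end Vale.Agent.P074
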