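import Mathlib
import Vale.Agent.Lib.PrekopaLeindler

/-! Midpoint Prekopa-Leindler inequality. -/

namespace Vale.Agent.P074

open MeasureTheory
open scoped ENNReal

/-- Midpoint Prekopa-Leindler inequality in `ℝ^d` (squared form). -/
theorem prekopa_leindler_mid {d : ℕ} (f g h : EuclideanSpace ℝ (Fin d) → ℝ≥0∞)
    (hf : Measurable f) (hg : Measurable g) (hh : Measurable h)
    (H : ∀ x y, f x * g y ≤ h ((1 / 2 : ℝ) • (x + y)) ^ 2) :
    (∫⁻ x, f x) * (∫⁻ x, g x) ≤ (∫⁻ x, h x) ^ 2 := by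
  have sq : ∀ u v w : ℝ≥0∞, u * v ≤ w ^ 2 ↔ u ^ (1 / 2 : ℝ) * v ^ (1 / 2 : ℝ) ≤ w := by
    intro u v w
    rw [← ENNReal.mul_rpow_of_nonneg _ _ (by norm_num), one_div,
      ENNReal.rpow_inv_le_iff (by norm_num), ENNReal.rpow_two]
  rw [sq]
  refine Vale.Agent.Lib.PL.prekopa_leindler volume (by norm_num) (by norm_num) (by norm_num)
    hf hg hh fun x y => ?_
  rw [← sq, ← smul_add]
  exact H x y

/-- Real-valued form on a compact convex set. -/
theorem prekopa_leindler_mid_real {d : ℕ} (K : Set (EuclideanSpace ℝ (Fin d)))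
    (hK : IsCompact K) (hKc : Convex ℝ K) (f g h : EuclideanSpace ℝ (Fin d) → ℝ)
    (hf : Continuous f) (hg : Continuous g) (hh : Continuous h)
    (hf0 : ∀ x, 0 ≤ f x) (hg0 : ∀ x, 0 ≤ g x) (hh0 : ∀ x, 0 ≤ h x)
    (H : ∀ x ∈ K, ∀ y ∈ K, f x * g y ≤ h ((1 / 2 : ℝ) • (x + y)) ^ 2) :
    (∫ x in K, f x) * (∫ x in K, g x) ≤ (∫ x in K, h x) ^ 2 := by
  have hm := hK.measurableSet
  have conv : ∀ u : EuclideanSpace ℝ (Fin d) → ℝ, Continuous u → (∀ x, 0 ≤ u x) →
      ∫⁻ x, K.indicator (fun x => ENNReal.ofReal (u x)) x = ENNReal.ofReal (∫ x in K, u x) := by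
    intro u hu hu0
    rw [lintegral_indicator hm, ofReal_integral_eq_lintegral_ofReal
      (hu.continuousOn.integrableOn_compact hK) (Filter.Eventually.of_forall hu0)]
  have key := prekopa_leindler_mid (K.indicator fun x => ENNReal.ofReal (f x))
    (K.indicator fun x => ENNReal.ofReal (g x)) (K.indicator fun x => ENNReal.ofReal (h x))
    (hf.measurable.ennreal_ofReal.indicator hm) (hg.measurable.ennreal_ofReal.indicator hm)
    (hh.measurable.ennreal_ofReal.indicator hm) (fun x y => by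
      by_cases hx : x ∈ K
      · by_cases hy : y ∈ K
        · have hz : (1 / 2 : ℝ) • (x + y) ∈ K := by
            rw [smul_add]
            exact hKc hx hy (by norm_num) (by norm_num) (by norm_num)
          simp only [Set.indicator_of_mem hx, Set.indicator_of_mem hy, Set.indicator_of_mem hz]
          rw [← ENNReal.ofReal_mul (hf0 x), ← ENNReal.ofReal_pow (hh0 _)]
          exact ENNReal.ofReal_le_ofReal (H x hx y hy)
        · simp [hy]
      · simp [hx])
  rw [conv f hf hf0, conv g hg hg0, conv h hh hh0,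
    ← ENNReal.ofReal_mul (integral_nonneg hf0), ← ENNReal.ofReal_pow (integral_nonneg hh0)] at key
  exact (ENNReal.ofReal_le_ofReal_iff (sq_nonneg _)).1 key

end Vale.Agent.P074
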