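import Mathlib

/-! Log-sum-exp potentials and softmax cells. -/

namespace Vale.Agent.P074

open MeasureTheory Finset
open scoped RealInnerProductSpace

section lse

variable {ι : Type*} [Fintype ι]

/-- log-sum-exp -/
noncomputable def lse (a : ι → ℝ) : ℝ := Real.log (∑ i, Real.exp (a i))

/-- softmax -/
noncomputable def smax (a : ι → ℝ) (i : ι) : ℝ := Real.exp (a i) / ∑ j, Real.exp (a j)

variable [Nonempty ι]

theorem sum_exp_pos (a : ι → ℝ) : 0 < ∑ j, Real.exp (a j) :=
  Finset.sum_pos (fun _ _ => Real.exp_pos _) Finset.univ_nonempty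

theorem smax_pos (a : ι → ℝ) (i : ι) : 0 < smax a i :=
  div_pos (Real.exp_pos _) (sum_exp_pos a)

theorem sum_smax (a : ι → ℝ) : ∑ i, smax a i = 1 := by
  unfold smax
  rw [← Finset.sum_div, div_self (sum_exp_pos a).ne']

theorem smax_le_one (a : ι → ℝ) (i : ι) : smax a i ≤ 1 := by
  rw [← sum_smax a]
  exact Finset.single_le_sum (fun j _ => (smax_pos a j).le) (Finset.mem_univ i)

theorem smax_eq_exp (a : ι → ℝ) (i : ι) : smax a i = Real.exp (a i - lse a) := by
  unfold smax lse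
  rw [Real.exp_sub, Real.exp_log (sum_exp_pos a)]

theorem lse_sub_eq (a a' : ι → ℝ) :
    lse a' - lse a = Real.log (∑ i, smax a i * Real.exp (a' i - a i)) := by
  unfold lse smax
  rw [← Real.log_div (sum_exp_pos a').ne' (sum_exp_pos a).ne', Finset.sum_div]
  congr 1
  refine Finset.sum_congr rfl fun i _ => ?_
  rw [Real.exp_sub]
  have := Real.exp_pos (a i)
  have := sum_exp_pos a
  field_simp

/-- Jensen: the softmax is a subgradient of log-sum-exp. -/
theorem lse_sub_ge (a a' : ι → ℝ) : ∑ i, smax a i * (a' i - a i) ≤ lse a' - lse a := by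
  rw [lse_sub_eq]
  set t := ∑ i, smax a i * (a' i - a i) with ht
  rw [Real.le_log_iff_exp_le (Finset.sum_pos (fun i _ => mul_pos (smax_pos a i) (Real.exp_pos _))
    Finset.univ_nonempty)]
  have h1 : ∀ i, Real.exp t * (1 + (a' i - a i - t)) ≤ Real.exp (a' i - a i) := by
    intro i
    have h := Real.add_one_le_exp (a' i - a i - t)
    have h2 : Real.exp (a' i - a i) = Real.exp t * Real.exp (a' i - a i - t) := by
      rw [← Real.exp_add]; congr 1; ring
    rw [h2]
    exact mul_le_mul_of_nonneg_left (by linarith) (Real.exp_pos t).le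
  calc Real.exp t = ∑ i, smax a i * (Real.exp t * (1 + (a' i - a i - t))) := by
        have : ∀ i, smax a i * (Real.exp t * (1 + (a' i - a i - t))) =
            Real.exp t * (1 - t) * smax a i + Real.exp t * (smax a i * (a' i - a i)) := by
          intro i; ring
        simp only [this, Finset.sum_add_distrib, ← Finset.mul_sum, sum_smax, ← ht]
        ring
    _ ≤ _ := Finset.sum_le_sum fun i _ => mul_le_mul_of_nonneg_left (h1 i) (smax_pos a i).le

theorem lse_sub_le (a a' : ι → ℝ) :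
    lse a' - lse a ≤ ∑ i, smax a i * (Real.exp (a' i - a i) - 1) := by
  rw [lse_sub_eq]
  have h := Real.log_le_sub_one_of_pos (Finset.sum_pos
    (fun i _ => mul_pos (smax_pos a i) (Real.exp_pos (a' i - a i))) Finset.univ_nonempty)
  have : ∑ i, smax a i * (Real.exp (a' i - a i) - 1) =
      ∑ i, smax a i * Real.exp (a' i - a i) - 1 := by
    simp only [mul_sub, mul_one, Finset.sum_sub_distrib, sum_smax]
  rw [this]; exact h

theorem le_lse (a : ι → ℝ) (i : ι) : a i ≤ lse a := by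
  have h := smax_le_one a i
  rw [smax_eq_exp, Real.exp_le_one_iff] at h
  linarith

theorem lse_le_sum (a : ι → ℝ) : lse a ≤ ∑ i, smax a i * a i + Fintype.card ι := by
  have h : ∀ i, smax a i * (lse a - a i) ≤ 1 := by
    intro i
    rw [smax_eq_exp]
    have h1 := Real.add_one_le_exp (lse a - a i)
    have h2 : Real.exp (a i - lse a) * Real.exp (lse a - a i) = 1 := by
      rw [← Real.exp_add]; simp
    have h3 := Real.exp_pos (a i - lse a)
    nlinarith
  have h2 : ∑ i, smax a i * (lse a - a i) ≤ Fintype.card ι := by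
    calc ∑ i, smax a i * (lse a - a i) ≤ ∑ _i : ι, (1 : ℝ) := Finset.sum_le_sum fun i _ => h i
      _ = Fintype.card ι := by simp
  have h3 : ∑ i, smax a i * (lse a - a i) = lse a - ∑ i, smax a i * a i := by
    simp only [mul_sub, Finset.sum_sub_distrib, ← Finset.sum_mul, sum_smax, one_mul]
  linarith

/-- Midpoint log-concavity of softmax. -/
theorem smax_mid (a a' : ι → ℝ) (i : ι) :
    smax a i * smax a' i ≤ smax (fun j => (a j + a' j) / 2) i ^ 2 := by
  have h1 := lse_sub_ge (fun j => (a j + a' j) / 2) a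
  have h2 := lse_sub_ge (fun j => (a j + a' j) / 2) a'
  have h3 : ∑ j, smax (fun j => (a j + a' j) / 2) j * (a j - (a j + a' j) / 2) +
      ∑ j, smax (fun j => (a j + a' j) / 2) j * (a' j - (a j + a' j) / 2) = 0 := by
    rw [← Finset.sum_add_distrib]
    exact Finset.sum_eq_zero fun j _ => by ring
  simp only [smax_eq_exp a, smax_eq_exp a']
  rw [smax_eq_exp, ← Real.exp_add, sq, ← Real.exp_add]
  exact Real.exp_le_exp.mpr (by linarith)

end lse

section pot

variable {d : ℕ} {ι : Type*} [Fintype ι]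

/-- the smooth potential `log ∑ exp (⟪x, y i⟫ - ψ i)` -/
noncomputable def pot (y : ι → EuclideanSpace ℝ (Fin d)) (ψ : ι → ℝ)
    (x : EuclideanSpace ℝ (Fin d)) : ℝ := lse (fun i => ⟪x, y i⟫ - ψ i)

/-- the soft Laguerre cell -/
noncomputable def cell (y : ι → EuclideanSpace ℝ (Fin d)) (ψ : ι → ℝ) (i : ι)
    (x : EuclideanSpace ℝ (Fin d)) : ℝ := smax (fun j => ⟪x, y j⟫ - ψ j) i

variable [Nonempty ι]

theorem continuous_pot (y : ι → EuclideanSpace ℝ (Fin d)) (ψ : ι → ℝ) : Continuous (pot y ψ) := by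
  unfold pot lse
  refine Continuous.log (by fun_prop) fun x => (sum_exp_pos _).ne'

theorem continuous_cell (y : ι → EuclideanSpace ℝ (Fin d)) (ψ : ι → ℝ) (i : ι) :
    Continuous (cell y ψ i) := by
  unfold cell smax
  refine Continuous.div (by fun_prop) (by fun_prop) fun x => (sum_exp_pos _).ne'

theorem cell_pos (y : ι → EuclideanSpace ℝ (Fin d)) (ψ : ι → ℝ) (i : ι)
    (x : EuclideanSpace ℝ (Fin d)) : 0 < cell y ψ i x := smax_pos _ _

theorem cell_le_one (y : ι → EuclideanSpace ℝ (Fin d)) (ψ : ι → ℝ) (i : ι)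
    (x : EuclideanSpace ℝ (Fin d)) : cell y ψ i x ≤ 1 := smax_le_one _ _

theorem sum_cell (y : ι → EuclideanSpace ℝ (Fin d)) (ψ : ι → ℝ)
    (x : EuclideanSpace ℝ (Fin d)) : ∑ i, cell y ψ i x = 1 := sum_smax _

theorem le_pot (y : ι → EuclideanSpace ℝ (Fin d)) (ψ : ι → ℝ) (i : ι)
    (x : EuclideanSpace ℝ (Fin d)) : ⟪x, y i⟫ - ψ i ≤ pot y ψ x :=
  le_lse (fun i => ⟪x, y i⟫ - ψ i) i

theorem pot_le_sum (y : ι → EuclideanSpace ℝ (Fin d)) (ψ : ι → ℝ)
    (x : EuclideanSpace ℝ (Fin d)) :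
    pot y ψ x ≤ ∑ i, cell y ψ i x * (⟪x, y i⟫ - ψ i) + Fintype.card ι :=
  lse_le_sum _

/-- joint subgradient inequality in the parameters -/
theorem pot_sub_ge (y y' : ι → EuclideanSpace ℝ (Fin d)) (ψ ψ' : ι → ℝ)
    (x : EuclideanSpace ℝ (Fin d)) :
    ∑ i, cell y ψ i x * (⟪x, y' i - y i⟫ - (ψ' i - ψ i)) ≤ pot y' ψ' x - pot y ψ x := by
  have h := lse_sub_ge (fun i => ⟪x, y i⟫ - ψ i) (fun i => ⟪x, y' i⟫ - ψ' i)
  unfold pot cell
  refine le_of_eq_of_le (Finset.sum_congr rfl fun i _ => ?_) h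
  rw [inner_sub_right]; ring

/-- subgradient inequality in the space variable -/
theorem pot_subgrad (y : ι → EuclideanSpace ℝ (Fin d)) (ψ : ι → ℝ)
    (x x' : EuclideanSpace ℝ (Fin d)) :
    pot y ψ x + ⟪x' - x, ∑ i, cell y ψ i x • y i⟫ ≤ pot y ψ x' := by
  have h := lse_sub_ge (fun i => ⟪x, y i⟫ - ψ i) (fun i => ⟪x', y i⟫ - ψ i)
  have h2 : ⟪x' - x, ∑ i, cell y ψ i x • y i⟫ =
      ∑ i, smax (fun i => ⟪x, y i⟫ - ψ i) i * (⟪x', y i⟫ - ψ i - (⟪x, y i⟫ - ψ i)) := by
    rw [inner_sum]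
    refine Finset.sum_congr rfl fun i _ => ?_
    rw [real_inner_smul_right, inner_sub_left]
    unfold cell; ring
  unfold pot
  linarith

/-- joint midpoint log-concavity of the soft cells -/
theorem cell_mid (y : ι → EuclideanSpace ℝ (Fin d)) (ψ ψ' : ι → ℝ) (i : ι)
    (x x' : EuclideanSpace ℝ (Fin d)) :
    cell y ψ i x * cell y ψ' i x' ≤
      cell y (fun j => (ψ j + ψ' j) / 2) i ((1 / 2 : ℝ) • (x + x')) ^ 2 := by
  have h := smax_mid (fun j => ⟪x, y j⟫ - ψ j) (fun j => ⟪x', y j⟫ - ψ' j) i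
  unfold cell
  convert h using 3
  funext j
  rw [real_inner_smul_left, inner_add_left]; ring

end pot

end Vale.Agent.P074
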