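import Vale.Agent.P074.Interp
import Vale.Agent.P074.Prekopa

/-! Gaussian-weighted Prekopa-Leindler estimates for families of soft cells. -/

namespace Vale.Agent.P074

open MeasureTheory
open scoped RealInnerProductSpace

variable {d : ℕ} {K : Set (EuclideanSpace ℝ (Fin d))}

theorem pl_unif (hK : IsCompact K) (hKc : Convex ℝ K) (f g h : EuclideanSpace ℝ (Fin d) → ℝ)
    (hf : Continuous f) (hg : Continuous g) (hh : Continuous h)
    (hf0 : ∀ x, 0 ≤ f x) (hg0 : ∀ x, 0 ≤ g x) (hh0 : ∀ x, 0 ≤ h x)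
    (H : ∀ x ∈ K, ∀ y ∈ K, f x * g y ≤ h ((1 / 2 : ℝ) • (x + y)) ^ 2) :
    (∫ x, f x ∂(unif K)) * (∫ x, g x ∂(unif K)) ≤ (∫ x, h x ∂(unif K)) ^ 2 := by
  have h1 := prekopa_leindler_mid_real K hK hKc f g h hf hg hh hf0 hg0 hh0 H
  unfold unif
  simp only [integral_smul_measure, smul_eq_mul]
  have h0 : 0 ≤ ((volume K)⁻¹).toReal := ENNReal.toReal_nonneg
  calc _ = ((volume K)⁻¹).toReal ^ 2 * ((∫ x in K, f x) * (∫ x in K, g x)) := by ring
    _ ≤ ((volume K)⁻¹).toReal ^ 2 * (∫ x in K, h x) ^ 2 := by gcongr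
    _ = _ := by ring

/-- the Gaussian weight -/
noncomputable def gw (κ : ℝ) (x : EuclideanSpace ℝ (Fin d)) : ℝ := Real.exp (-(κ * ‖x‖ ^ 2 / 2))

theorem continuous_gw (κ : ℝ) : Continuous (gw (d := d) κ) := by
  unfold gw; fun_prop

theorem gw_pos (κ : ℝ) (x : EuclideanSpace ℝ (Fin d)) : 0 < gw κ x := Real.exp_pos _

theorem gw_mid (κ : ℝ) (x x' : EuclideanSpace ℝ (Fin d)) :
    gw κ x * gw κ x' * Real.exp (κ * ‖x - x'‖ ^ 2 / 4) = gw κ ((1 / 2 : ℝ) • (x + x')) ^ 2 := by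
  unfold gw
  rw [sq (Real.exp _), ← Real.exp_add, ← Real.exp_add, ← Real.exp_add]
  congr 1
  have h1 : ‖(1 / 2 : ℝ) • (x + x')‖ ^ 2 = ‖x + x'‖ ^ 2 / 4 := by
    rw [norm_smul, mul_pow]; norm_num; ring
  have h2 := parallelogram_law_with_norm ℝ x x'
  rw [h1]
  have h3 : ‖x + x'‖ ^ 2 = 2 * (‖x‖ ^ 2 + ‖x'‖ ^ 2) - ‖x - x'‖ ^ 2 := by nlinarith
  rw [h3]; ring

theorem integral_unif_pos (hK : IsCompact K) (hKi : (interior K).Nonempty)
    {f : EuclideanSpace ℝ (Fin d) → ℝ} (hf : Continuous f) (hf0 : ∀ x, 0 < f x) :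
    0 < ∫ x, f x ∂(unif K) := by
  have := isProbabilityMeasure_unif hK hKi
  rw [integral_pos_iff_support_of_nonneg (fun x => (hf0 x).le)
    (integrable_unif_of_continuous hK hKi hf)]
  have : Function.support f = Set.univ := by
    ext x; simp [(hf0 x).ne']
  rw [this]; simp

theorem integral_unif_mono (hK : IsCompact K) (hKi : (interior K).Nonempty)
    {f g : EuclideanSpace ℝ (Fin d) → ℝ} (hf : Continuous f) (hg : Continuous g)
    (h : ∀ x ∈ K, f x ≤ g x) : ∫ x, f x ∂(unif K) ≤ ∫ x, g x ∂(unif K) :=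
  integral_mono_ae (integrable_unif_of_continuous hK hKi hf)
    (integrable_unif_of_continuous hK hKi hg) ((ae_mem_unif hK).mono h)

/-- exponential Jensen inequality for a weight -/
theorem integral_le_integral_mul_exp (hK : IsCompact K) (hKi : (interior K).Nonempty)
    {w h : EuclideanSpace ℝ (Fin d) → ℝ} (hw : Continuous w) (hh : Continuous h)
    (hw0 : ∀ x, 0 ≤ w x) (hmean : ∫ x, w x * h x ∂(unif K) = 0) :
    ∫ x, w x ∂(unif K) ≤ ∫ x, w x * Real.exp (h x) ∂(unif K) := by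
  have h1 : ∫ x, w x ∂(unif K) = ∫ x, (w x + w x * h x) ∂(unif K) := by
    rw [integral_add (integrable_unif_of_continuous hK hKi hw)
      (integrable_unif_of_continuous hK hKi (f := fun x => w x * h x) (by fun_prop)),
      hmean, add_zero]
  rw [h1]
  refine integral_unif_mono hK hKi (by fun_prop) (by fun_prop) fun x _ => ?_
  have := Real.add_one_le_exp (h x)
  have := hw0 x
  nlinarith

/-- one cell: tilted Prekopa-Leindler -/
theorem tilt_one (hK : IsCompact K) (hKc : Convex ℝ K) (hKi : (interior K).Nonempty)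
    {κ : ℝ} (hκ : 0 < κ) {p p' q h : EuclideanSpace ℝ (Fin d) → ℝ}
    (hp : Continuous p) (hp' : Continuous p') (hq : Continuous q) (hh : Continuous h)
    (hp0 : ∀ x, 0 < p x) (hp0' : ∀ x, 0 < p' x) (hq0 : ∀ x, 0 < q x)
    (hmid : ∀ x x', p x * p' x' ≤ q ((1 / 2 : ℝ) • (x + x')) ^ 2)
    {ℓ : ℝ} (hℓ : ∀ x ∈ K, ∀ x' ∈ K, h x - h x' ≤ ℓ * ‖x - x'‖)
    {a a' : ℝ} (ha : 0 < a) (ha' : 0 < a') (haG : a ^ 2 = ∫ x, p x * gw κ x ∂(unif K))
    (haG' : a' ^ 2 = ∫ x, p' x * gw κ x ∂(unif K)) :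
    a * a' * (2 + (∫ x, p x * gw κ x * h x ∂(unif K)) / a ^ 2 -
      (∫ x, p' x * gw κ x * h x ∂(unif K)) / a' ^ 2 - ℓ ^ 2 / κ) ≤
      2 * ∫ x, q x * gw κ x ∂(unif K) := by
  have hg := continuous_gw (d := d) κ
  set μ := (∫ x, p x * gw κ x * h x ∂(unif K)) / a ^ 2 with hμ
  set μ' := (∫ x, p' x * gw κ x * h x ∂(unif K)) / a' ^ 2 with hμ'
  have hi := fun {f : EuclideanSpace ℝ (Fin d) → ℝ} (hf : Continuous f) =>
    integrable_unif_of_continuous hK hKi hf
  have h1 : a ^ 2 ≤ ∫ x, p x * gw κ x * Real.exp (h x - μ) ∂(unif K) := by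
    rw [haG]
    refine integral_le_integral_mul_exp hK hKi (by fun_prop) (by fun_prop)
      (fun x => (mul_pos (hp0 x) (gw_pos κ x)).le) ?_
    have : ∀ x, p x * gw κ x * (h x - μ) = p x * gw κ x * h x - μ * (p x * gw κ x) := by
      intro x; ring
    simp only [this]
    rw [integral_sub (hi (by fun_prop)) (hi (by fun_prop)), integral_const_mul, ← haG, hμ]
    field_simp
    ring
  have h2 : a' ^ 2 ≤ ∫ x, p' x * gw κ x * Real.exp (μ' - h x) ∂(unif K) := by
    rw [haG']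
    refine integral_le_integral_mul_exp hK hKi (by fun_prop) (by fun_prop)
      (fun x => (mul_pos (hp0' x) (gw_pos κ x)).le) ?_
    have : ∀ x, p' x * gw κ x * (μ' - h x) = μ' * (p' x * gw κ x) - p' x * gw κ x * h x := by
      intro x; ring
    simp only [this]
    rw [integral_sub (hi (by fun_prop)) (hi (by fun_prop)), integral_const_mul, ← haG', hμ']
    field_simp
    ring
  set t := (ℓ ^ 2 / κ + μ' - μ) / 2 with ht
  have h3 := pl_unif hK hKc (fun x => p x * gw κ x * Real.exp (h x - μ))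
    (fun x => p' x * gw κ x * Real.exp (μ' - h x)) (fun x => Real.exp t * (q x * gw κ x))
    (by fun_prop) (by fun_prop) (by fun_prop)
    (fun x => (mul_pos (mul_pos (hp0 x) (gw_pos κ x)) (Real.exp_pos _)).le)
    (fun x => (mul_pos (mul_pos (hp0' x) (gw_pos κ x)) (Real.exp_pos _)).le)
    (fun x => (mul_pos (Real.exp_pos _) (mul_pos (hq0 x) (gw_pos κ x))).le)
    (by
      intro x hx x' hx'
      have e1 := hmid x x'
      have e2 := gw_mid κ x x'
      have e3 : Real.exp (h x - μ) * Real.exp (μ' - h x') ≤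
          Real.exp t ^ 2 * Real.exp (κ * ‖x - x'‖ ^ 2 / 4) := by
        rw [sq (Real.exp t), ← Real.exp_add, ← Real.exp_add, ← Real.exp_add]
        refine Real.exp_le_exp.mpr ?_
        have e4 := hℓ x hx x' hx'
        have e5 : ℓ * ‖x - x'‖ ≤ κ * ‖x - x'‖ ^ 2 / 4 + ℓ ^ 2 / κ := by
          have e6 : κ * ‖x - x'‖ ^ 2 / 4 + ℓ ^ 2 / κ - ℓ * ‖x - x'‖ =
              (κ * ‖x - x'‖ / 2 - ℓ) ^ 2 / κ := by
            field_simp; ring
          have e7 : 0 ≤ (κ * ‖x - x'‖ / 2 - ℓ) ^ 2 / κ := by positivity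
          linarith
        rw [ht]; linarith
      have g1 := gw_pos κ x
      have g2 := gw_pos κ x'
      calc p x * gw κ x * Real.exp (h x - μ) * (p' x' * gw κ x' * Real.exp (μ' - h x'))
          = (p x * p' x') * (gw κ x * gw κ x') * (Real.exp (h x - μ) * Real.exp (μ' - h x')) := by
            ring
        _ ≤ q ((1 / 2 : ℝ) • (x + x')) ^ 2 * (gw κ x * gw κ x') *
            (Real.exp t ^ 2 * Real.exp (κ * ‖x - x'‖ ^ 2 / 4)) := by
            gcongr
        _ = _ := by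
            rw [mul_pow, mul_pow, ← e2]; ring)
  rw [integral_const_mul] at h3
  set Q := ∫ x, q x * gw κ x ∂(unif K) with hQ
  have hQ0 : 0 < Q := integral_unif_pos hK hKi (by fun_prop)
    fun x => mul_pos (hq0 x) (gw_pos κ x)
  have h4 : (a * a') ^ 2 ≤ (Real.exp t * Q) ^ 2 := by
    rw [mul_pow]
    exact (mul_le_mul h1 h2 (by positivity) ((sq_nonneg a).trans h1)).trans h3
  have h5 : a * a' ≤ Real.exp t * Q :=
    (pow_le_pow_iff_left₀ (by positivity) (by positivity) two_ne_zero).mp h4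
  have h6 : a * a' * Real.exp (-t) ≤ Q := by
    have := mul_le_mul_of_nonneg_right h5 (Real.exp_pos (-t)).le
    rw [mul_right_comm (Real.exp t), ← Real.exp_add] at this
    simpa using this
  have h7 := Real.add_one_le_exp (-t)
  have h8 : a * a' * (-t + 1) ≤ Q :=
    (mul_le_mul_of_nonneg_left h7 (by positivity)).trans h6
  have h9 : 2 + μ - μ' - ℓ ^ 2 / κ = 2 * (-t + 1) := by rw [ht]; ring
  rw [h9]; linarith

end Vale.Agent.P074
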