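import Vale.Agent.P074.Brenier

/-! The exponent `1/3` is admissible, and optimal maps exist. -/

namespace Vale.Agent.P074

open MeasureTheory Filter Topology
open scoped RealInnerProductSpace ENNReal NNReal

variable {d : ℕ} {K Y : Set (EuclideanSpace ℝ (Fin d))} {μ ν : Measure (EuclideanSpace ℝ (Fin d))}
  {T S : EuclideanSpace ℝ (Fin d) → EuclideanSpace ℝ (Fin d)}

theorem ae_map_mem (hT : Measurable T) (hTμ : (unif K).map T = μ) (hμ : μ Yᶜ = 0) :
    ∀ᵐ x ∂(unif K), T x ∈ Y := by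
  have h : ∀ᵐ y ∂((unif K).map T), y ∈ Y := by rw [hTμ]; exact hμ
  exact ae_of_ae_map hT.aemeasurable h

theorem integrable_comp_of_map (hK : IsCompact K) (hKi : (interior K).Nonempty) (hY : IsCompact Y)
    (hT : Measurable T) (hTY : ∀ᵐ x ∂(unif K), T x ∈ Y)
    {F : EuclideanSpace ℝ (Fin d) × EuclideanSpace ℝ (Fin d) → ℝ} (hF : Continuous F) :
    Integrable (fun x => F (x, T x)) (unif K) := by
  have := isProbabilityMeasure_unif hK hKi
  obtain ⟨B, hB⟩ := ((hK.prod hY).image hF).isBounded.exists_norm_le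
  refine Integrable.of_bound (hF.measurable.comp (measurable_id.prodMk hT)).aestronglyMeasurable B ?_
  filter_upwards [ae_mem_unif hK, hTY] with x h1 h2
  exact hB _ ⟨(x, T x), ⟨h1, h2⟩, rfl⟩

theorem cost_eq (hK : IsCompact K) (hKi : (interior K).Nonempty) (hY : IsCompact Y)
    (hT : Measurable T) (hTμ : (unif K).map T = μ) (hμ : μ Yᶜ = 0) :
    cost (unif K) T = ENNReal.ofReal (∫ x, ‖x - T x‖ ^ 2 ∂(unif K)) ∧
    ∫ x, ‖x - T x‖ ^ 2 ∂(unif K) =
      ∫ x, ‖x‖ ^ 2 ∂(unif K) - 2 * ∫ x, ⟪x, T x⟫ ∂(unif K) + ∫ y, ‖y‖ ^ 2 ∂μ := by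
  have hTY := ae_map_mem hT hTμ hμ
  have i1 := integrable_comp_of_map hK hKi hY hT hTY (F := fun p => ‖p.1 - p.2‖ ^ 2) (by fun_prop)
  have i2 := integrable_comp_of_map hK hKi hY hT hTY (F := fun p => ‖p.1‖ ^ 2) (by fun_prop)
  have i3 := integrable_comp_of_map hK hKi hY hT hTY (F := fun p => ⟪p.1, p.2⟫) (by fun_prop)
  have i4 := integrable_comp_of_map hK hKi hY hT hTY (F := fun p => ‖p.2‖ ^ 2) (by fun_prop)
  constructor
  · rw [ofReal_integral_eq_lintegral_ofReal i1 (Eventually.of_forall fun x => by positivity)]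
    unfold cost
    congr 1; funext x
    rw [ENNReal.ofReal_pow (norm_nonneg _), ofReal_norm]
  · have i5 : Integrable (fun x => ‖x‖ ^ 2 - 2 * ⟪x, T x⟫) (unif K) := i2.sub (i3.const_mul 2)
    rw [← hTμ, integral_map hT.aemeasurable (by fun_prop), ← integral_const_mul,
      ← integral_sub i2 (i3.const_mul 2), ← integral_add i5 i4]
    congr 1; funext x
    exact norm_sub_sq_real _ _

theorem cost_le_iff (hK : IsCompact K) (hKi : (interior K).Nonempty) (hY : IsCompact Y)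
    (hT : Measurable T) (hTμ : (unif K).map T = μ) (hS : Measurable S) (hSμ : (unif K).map S = μ)
    (hμ : μ Yᶜ = 0) : cost (unif K) T ≤ cost (unif K) S ↔
      ∫ x, ⟪x, S x⟫ ∂(unif K) ≤ ∫ x, ⟪x, T x⟫ ∂(unif K) := by
  obtain ⟨h1, h2⟩ := cost_eq hK hKi hY hT hTμ hμ
  obtain ⟨h3, h4⟩ := cost_eq hK hKi hY hS hSμ hμ
  rw [h1, h3, ENNReal.ofReal_le_ofReal_iff (integral_nonneg fun x => by positivity), h2, h4]
  constructor <;> intro h <;> linarith

theorem integral_gap_map (hK : IsCompact K) (hKi : (interior K).Nonempty) (hY : IsCompact Y)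
    (hT : Measurable T) (hTμ : (unif K).map T = μ) (hμ : μ Yᶜ = 0)
    {φ : EuclideanSpace ℝ (Fin d) → ℝ} (hφ : Continuous φ) :
    Integrable (fun x => φ x + conj K φ (T x) - ⟪x, T x⟫) (unif K) ∧
    ∫ x, (φ x + conj K φ (T x) - ⟪x, T x⟫) ∂(unif K) = dualJ K μ φ - ∫ x, ⟪x, T x⟫ ∂(unif K) := by
  have hTY := ae_map_mem hT hTμ hμ
  have hc := continuous_conj hK (hKi.mono interior_subset) hφ
  have i1 := integrable_unif_of_continuous hK hKi hφ
  have i2 := integrable_comp_of_map hK hKi hY hT hTY (F := fun p => conj K φ p.2) (by fun_prop)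
  have i3 := integrable_comp_of_map hK hKi hY hT hTY (F := fun p => ⟪p.1, p.2⟫) (by fun_prop)
  have i4 : Integrable (fun x => φ x + conj K φ (T x)) (unif K) := i1.add i2
  refine ⟨i4.sub i3, ?_⟩
  rw [integral_sub i4 i3, integral_add i1 i2]
  unfold dualJ
  rw [← hTμ, integral_map hT.aemeasurable hc.aestronglyMeasurable]

theorem corr_map_le_dualJ (hK : IsCompact K) (hKi : (interior K).Nonempty) (hY : IsCompact Y)
    (hT : Measurable T) (hTμ : (unif K).map T = μ) (hμ : μ Yᶜ = 0)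
    {φ : EuclideanSpace ℝ (Fin d) → ℝ} (hφ : Continuous φ) :
    ∫ x, ⟪x, T x⟫ ∂(unif K) ≤ dualJ K μ φ := by
  have h := (integral_gap_map hK hKi hY hT hTμ hμ hφ).2
  have h2 : 0 ≤ ∫ x, (φ x + conj K φ (T x) - ⟪x, T x⟫) ∂(unif K) :=
    integral_nonneg_of_ae ((ae_mem_unif hK).mono fun x hx => by
      have := le_conj hK hφ hx (T x)
      change 0 ≤ φ x + conj K φ (T x) - ⟪x, T x⟫
      linarith)
  linarith

theorem exists_isOptimalMap (hK : IsCompact K) (hKc : Convex ℝ K) (hKi : (interior K).Nonempty)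
    (hY : IsCompact Y) [IsProbabilityMeasure μ] (hμ : μ Yᶜ = 0) :
    ∃ T, IsOptimalMap (unif K) μ T := by
  obtain ⟨T, hT, hTμ, H⟩ := exists_map_dual hK hKc hKi hY μ hμ
  refine ⟨T, hT, hTμ, fun S hS hSμ => ?_⟩
  rw [cost_le_iff hK hKi hY hT hTμ hS hSμ hμ]
  refine le_of_forall_pos_le_add fun σ hσ => ?_
  obtain ⟨φ, hφ, h⟩ := H σ hσ
  exact (corr_map_le_dualJ hK hKi hY hS hSμ hμ hφ).trans h

theorem IsOptimalMap.near_dual (hK : IsCompact K) (hKc : Convex ℝ K) (hKi : (interior K).Nonempty)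
    (hY : IsCompact Y) [IsProbabilityMeasure μ] (hμ : μ Yᶜ = 0) (hT : IsOptimalMap (unif K) μ T)
    {σ : ℝ} (hσ : 0 < σ) : ∃ φ : EuclideanSpace ℝ (Fin d) → ℝ, Continuous φ ∧
      dualJ K μ φ ≤ ∫ x, ⟪x, T x⟫ ∂(unif K) + σ := by
  obtain ⟨S, hS, hSμ, H⟩ := exists_map_dual hK hKc hKi hY μ hμ
  obtain ⟨φ, hφ, h⟩ := H σ hσ
  have h2 := (cost_le_iff hK hKi hY hT.1 hT.2.1 hS hSμ hμ).mp (hT.2.2 S hS hSμ)
  exact ⟨φ, hφ, by linarith⟩

theorem IsOptimalMap.gap_le (hK : IsCompact K) (hKc : Convex ℝ K) (hKi : (interior K).Nonempty)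
    (hY : IsCompact Y) [IsProbabilityMeasure μ] (hμ : μ Yᶜ = 0) (hT : IsOptimalMap (unif K) μ T)
    {R : ℝ} (hR0 : 0 < R) (hR : ∀ x ∈ K, ‖x‖ ≤ R) {ι : Type*} [Fintype ι]
    {m : ι → ℝ} {c : ι → EuclideanSpace ℝ (Fin d)} {η : ℝ} (hη : 0 < η)
    {p : ι → EuclideanSpace ℝ (Fin d) → ℝ} {φ : EuclideanSpace ℝ (Fin d) → ℝ}
    (P : SoftPlan K m c η p φ) (A : Approx μ m c η) :
    ∫ x, (φ x + conj K φ (T x) - ⟪x, T x⟫) ∂(unif K) ≤ (2 + 2 * R) * η := by
  rw [(integral_gap_map hK hKi hY hT.1 hT.2.1 hμ P.contφ).2]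
  obtain ⟨φ', hφ', h⟩ := hT.near_dual hK hKc hKi hY hμ hη
  have h1 := P.dualJ_le hK hKi hR0 hR A
  have h2 := P.corr_le_dualJ hK hKi hR0 hR A hφ'
  linarith

theorem coupling_ae {π : Measure (EuclideanSpace ℝ (Fin d) × EuclideanSpace ℝ (Fin d))}
    (h1 : π.map Prod.fst = μ) (h2 : π.map Prod.snd = ν) (hμ : μ Yᶜ = 0)
    (hν : ν Yᶜ = 0) : π (Y ×ˢ Y)ᶜ = 0 := by
  have e1 : ∀ᵐ p ∂π, p.1 ∈ Y :=
    ae_of_ae_map measurable_fst.aemeasurable (by rw [h1]; exact hμ)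
  have e2 : ∀ᵐ p ∂π, p.2 ∈ Y :=
    ae_of_ae_map measurable_snd.aemeasurable (by rw [h2]; exact hν)
  have : ∀ᵐ p ∂π, p ∈ Y ×ˢ Y := by
    filter_upwards [e1, e2] with p a b using ⟨a, b⟩
  exact this

theorem coupling_prob {π : Measure (EuclideanSpace ℝ (Fin d) × EuclideanSpace ℝ (Fin d))}
    [IsProbabilityMeasure μ] (h1 : π.map Prod.fst = μ) : IsProbabilityMeasure π := by
  constructor
  have := congrArg (fun m => m Set.univ) h1
  simpa [Measure.map_apply measurable_fst] using this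

/-- the main real-variable estimate -/
theorem main_real (hK : IsCompact K) (hKc : Convex ℝ K) (hKi : (interior K).Nonempty)
    (hY : IsCompact Y) : ∃ C r : ℝ, 0 < C ∧ 0 < r ∧
      ∀ (μ ν : Measure (EuclideanSpace ℝ (Fin d))) [IsProbabilityMeasure μ]
        [IsProbabilityMeasure ν], μ Yᶜ = 0 → ν Yᶜ = 0 →
      ∀ T S, IsOptimalMap (unif K) μ T → IsOptimalMap (unif K) ν S →
      ∀ π : Measure (EuclideanSpace ℝ (Fin d) × EuclideanSpace ℝ (Fin d)),
        π.map Prod.fst = μ → π.map Prod.snd = ν → ∀ h : ℝ, 0 < h → h ≤ r →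
        ∫ x, ‖T x - S x‖ ^ 2 ∂(unif K) ≤ C * (h + (∫ p, ‖p.1 - p.2‖ ^ 2 ∂π) / h ^ 2) := by
  have := isProbabilityMeasure_unif hK hKi
  obtain ⟨R, hR0, hR⟩ := exists_pos_norm_bound hK
  obtain ⟨L, hL0, hL⟩ := exists_pos_norm_bound hY
  obtain ⟨C, r, hC, hr, hint⟩ := interp hK hKc hKi
  refine ⟨C * (L ^ 2 + 100000 * R ^ 2), r, by positivity, hr, ?_⟩
  intro μ ν _ _ hμ hν T S hT hS π h1 h2 h hh hhr
  have := coupling_prob h1
  have hπ := coupling_ae h1 h2 hμ hν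
  have hTY := ae_map_mem hT.1 hT.2.1 hμ
  have hSY := ae_map_mem hS.1 hS.2.1 hν
  set I := ∫ p, ‖p.1 - p.2‖ ^ 2 ∂π with hI
  have hI0 : 0 ≤ I := integral_nonneg fun p => by positivity
  have key : ∀ η : ℝ, 0 < η → ∫ x, ‖T x - S x‖ ^ 2 ∂(unif K) ≤
      C * (L ^ 2 * h + 100000 * R ^ 2 * I / h ^ 2) +
        (C * (100000 * R ^ 2 * (8 * L)) / h ^ 2 + C * L / h * (4 + 4 * R)) * η := by
    intro η hη
    obtain ⟨n, m, c, hm, hm1, hc, hd⟩ := exists_discretization (Y ×ˢ Y) (hY.prod hY) π hπ η hη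
    have A₀ : Approx μ m (fun i => (c i).1) η := fun F Λ hΛ hF hl => by
      rw [← h1, integral_map measurable_fst.aemeasurable hF.aestronglyMeasurable]
      refine hd (fun p => F p.1) Λ hΛ (by fun_prop) fun a _ b _ => (hl a.1 b.1).trans ?_
      gcongr
      rw [Prod.dist_eq]; exact le_max_left _ _
    have A₁ : Approx ν m (fun i => (c i).2) η := fun F Λ hΛ hF hl => by
      rw [← h2, integral_map measurable_snd.aemeasurable hF.aestronglyMeasurable]
      refine hd (fun p => F p.2) Λ hΛ (by fun_prop) fun a _ b _ => (hl a.2 b.2).trans ?_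
      gcongr
      rw [Prod.dist_eq]; exact le_max_right _ _
    have hW : ∑ i, m i * ‖(c i).2 - (c i).1‖ ^ 2 ≤ I + 8 * L * η := by
      have e1 := hd (fun p => ‖p.1 - p.2‖ ^ 2) (8 * L) (by positivity) (by fun_prop)
        (fun a ha b hb => by
          have f1 : ‖a.1 - a.2‖ ≤ 2 * L :=
            (norm_sub_le _ _).trans (by linarith [hL _ ha.1, hL _ ha.2])
          have f2 : ‖b.1 - b.2‖ ≤ 2 * L :=
            (norm_sub_le _ _).trans (by linarith [hL _ hb.1, hL _ hb.2])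
          have f3 : |‖a.1 - a.2‖ - ‖b.1 - b.2‖| ≤ 2 * dist a b := by
            refine (abs_norm_sub_norm_le _ _).trans ?_
            have g1 : a.1 - a.2 - (b.1 - b.2) = (a.1 - b.1) - (a.2 - b.2) := by abel
            rw [g1]
            refine (norm_sub_le _ _).trans ?_
            rw [← dist_eq_norm, ← dist_eq_norm, Prod.dist_eq]
            linarith [le_max_left (dist a.1 b.1) (dist a.2 b.2),
              le_max_right (dist a.1 b.1) (dist a.2 b.2)]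
          have f4 : ‖a.1 - a.2‖ ^ 2 - ‖b.1 - b.2‖ ^ 2 =
              (‖a.1 - a.2‖ + ‖b.1 - b.2‖) * (‖a.1 - a.2‖ - ‖b.1 - b.2‖) := by ring
          rw [f4, abs_mul, abs_of_nonneg (by positivity)]
          calc _ ≤ (4 * L) * (2 * dist a b) := by gcongr; linarith
            _ = _ := by ring)
      simp only [norm_sub_rev (c _).2]
      linarith [(abs_le.mp e1).1]
    obtain ⟨p₀, φ₀, p₁, φ₁, P₀, P₁, e, he⟩ := exists_softPlan_pair hK hKc hKi hR0 hR hm hm1
      (fun i => (c i).1) (fun i => (c i).2) hη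
    obtain ⟨G, hGi, hG, hGp⟩ := hint L φ₀ φ₁ e h hL0.le
      (P₀.hasBddSubgrad fun i => hL _ (hc i).1) (P₁.hasBddSubgrad fun i => hL _ (hc i).2) hh hhr
    have g₀ := hT.gap_le hK hKc hKi hY hμ hR0 hR hη P₀ A₀
    have g₁ := hS.gap_le hK hKc hKi hY hν hR0 hR hη P₁ A₁
    have i₀ := (integral_gap_map hK hKi hY hT.1 hT.2.1 hμ P₀.contφ).1
    have i₁ := (integral_gap_map hK hKi hY hS.1 hS.2.1 hν P₁.contφ).1
    have i₂ : Integrable (fun x => C * L / h * ((φ₀ x + conj K φ₀ (T x) - ⟪x, T x⟫) +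
        (φ₁ x + conj K φ₁ (S x) - ⟪x, S x⟫))) (unif K) := (i₀.add i₁).const_mul _
    have e1 : ∫ x, ‖T x - S x‖ ^ 2 ∂(unif K) ≤ ∫ x, (G x + C * L / h *
        ((φ₀ x + conj K φ₀ (T x) - ⟪x, T x⟫) + (φ₁ x + conj K φ₁ (S x) - ⟪x, S x⟫))) ∂(unif K) := by
      refine integral_mono_of_nonneg (Eventually.of_forall fun x => by positivity) (hGi.add i₂) ?_
      filter_upwards [ae_mem_unif hK, hTY, hSY] with x hx h3 h4
      have f1 := hGp x hx (T x) (S x) (φ₀ x + conj K φ₀ (T x) - ⟪x, T x⟫)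
        (φ₁ x + conj K φ₁ (S x) - ⟪x, S x⟫) (hL _ h3) (hL _ h4)
        (by linarith [le_conj hK P₀.contφ hx (T x)]) (by linarith [le_conj hK P₁.contφ hx (S x)])
        (fun x' hx' => by
          have := le_conj hK P₀.contφ hx' (T x)
          rw [inner_sub_left]; linarith)
        (fun x' hx' => by
          have := le_conj hK P₁.contφ hx' (S x)
          rw [inner_sub_left]; linarith)
      refine f1.trans (le_of_eq ?_)
      ring
    rw [integral_add hGi i₂, integral_const_mul, integral_add i₀ i₁] at e1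
    have e2 : ∫ x, G x ∂(unif K) ≤ C * (L ^ 2 * h + 100000 * R ^ 2 * (I + 8 * L * η) / h ^ 2) := by
      refine hG.trans ?_
      gcongr
      exact he.trans (by gcongr)
    calc _ ≤ _ := e1
      _ ≤ C * (L ^ 2 * h + 100000 * R ^ 2 * (I + 8 * L * η) / h ^ 2) +
          C * L / h * ((2 + 2 * R) * η + (2 + 2 * R) * η) := by gcongr
      _ = _ := by ring
  have key2 : ∫ x, ‖T x - S x‖ ^ 2 ∂(unif K) ≤ C * (L ^ 2 * h + 100000 * R ^ 2 * I / h ^ 2) := by
    refine le_of_forall_pos_le_add fun ε hε => ?_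
    set M := C * (100000 * R ^ 2 * (8 * L)) / h ^ 2 + C * L / h * (4 + 4 * R) with hM
    have hM0 : 0 < M := by positivity
    have := key (ε / M) (by positivity)
    rwa [mul_div_cancel₀ _ hM0.ne'] at this
  refine key2.trans ?_
  rw [mul_assoc C]
  gcongr
  have e1 : 0 ≤ I / h ^ 2 := by positivity
  have e2 : 100000 * R ^ 2 * I / h ^ 2 = 100000 * R ^ 2 * (I / h ^ 2) := by ring
  rw [e2]
  nlinarith [mul_nonneg (sq_nonneg L) e1, mul_nonneg (sq_nonneg R) hh.le]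

theorem cube_le_of_forall {C r B D I : ℝ} (hC : 0 < C) (hr : 0 < r) (hD0 : 0 ≤ D) (hDB : D ≤ B)
    (hI : 0 ≤ I) (H : ∀ h : ℝ, 0 < h → h ≤ r → D ≤ C * (h + I / h ^ 2)) :
    D ^ 3 ≤ (8 * C ^ 3 + 2 * C * B ^ 2 / r ^ 2) * I := by
  rcases hD0.eq_or_lt with rfl | hD
  · have : 0 ≤ B := hDB
    simp only [ne_eq, OfNat.ofNat_ne_zero, not_false_eq_true, zero_pow]; positivity
  have key : ∀ h : ℝ, 0 < h → h ≤ r → h ≤ D / (2 * C) → D * h ^ 2 ≤ 2 * C * I := by
    intro h h0 h1 h2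
    have e1 := H h h0 h1
    have e2 : C * h ≤ D / 2 := by
      calc C * h ≤ C * (D / (2 * C)) := by gcongr
        _ = D / 2 := by field_simp
    have e3 : D / 2 ≤ C * (I / h ^ 2) := by linarith
    have e4 := mul_le_mul_of_nonneg_right e3 (sq_nonneg h)
    have e5 : C * (I / h ^ 2) * h ^ 2 = C * I := by field_simp
    linarith
  have p1 : 0 ≤ 8 * C ^ 3 * I := by positivity
  have p2 : 0 ≤ 2 * C * B ^ 2 / r ^ 2 * I := by positivity
  rw [add_mul]
  rcases le_total r (D / (2 * C)) with h | h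
  · have e1 := key r hr le_rfl h
    have e2 : D ≤ 2 * C * I / r ^ 2 := by rw [le_div_iff₀ (by positivity)]; exact e1
    have e3 : D ^ 3 ≤ B ^ 2 * (2 * C * I / r ^ 2) := by
      calc D ^ 3 = D ^ 2 * D := by ring
        _ ≤ _ := by gcongr
    have e4 : B ^ 2 * (2 * C * I / r ^ 2) = 2 * C * B ^ 2 / r ^ 2 * I := by ring
    linarith
  · have e1 := key _ (by positivity) h le_rfl
    have e2 : D ^ 3 = 4 * C ^ 2 * (D * (D / (2 * C)) ^ 2) := by field_simp; ring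
    have e3 : 4 * C ^ 2 * (D * (D / (2 * C)) ^ 2) ≤ 4 * C ^ 2 * (2 * C * I) := by gcongr
    nlinarith

theorem admissible_third (d : ℕ) : Admissible d (1 / 3) := by
  refine ⟨by norm_num, by norm_num, fun K hK hKc hKi Y hY _ => ?_⟩
  have := isProbabilityMeasure_unif hK hKi
  obtain ⟨L, hL0, hL⟩ := exists_pos_norm_bound hY
  obtain ⟨C, r, hC, hr, H⟩ := main_real hK hKc hKi hY
  set C₃ := 8 * C ^ 3 + 2 * C * (4 * L ^ 2) ^ 2 / r ^ 2 with hC₃
  have hC₃0 : 0 < C₃ := by positivity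
  set c : ℝ≥0∞ := (ENNReal.ofReal C₃) ^ (1 / 2 : ℝ) with hc
  have hc0 : c ≠ 0 := by
    rw [hc]
    exact (ENNReal.rpow_pos (ENNReal.ofReal_pos.mpr hC₃0) ENNReal.ofReal_ne_top).ne'
  have hct : c ≠ ∞ := ENNReal.rpow_ne_top_of_nonneg (by norm_num) ENNReal.ofReal_ne_top
  have hct' : c ^ (1 / 3 : ℝ) ≠ ∞ := ENNReal.rpow_ne_top_of_nonneg (by norm_num) hct
  refine ⟨(c ^ (1 / 3 : ℝ)).toNNReal, fun μ ν _ _ hμ hν T S hT hS => ?_⟩
  rw [ENNReal.coe_toNNReal hct']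
  have hTY := ae_map_mem hT.1 hT.2.1 hμ
  have hSY := ae_map_mem hS.1 hS.2.1 hν
  have hb : ∀ᵐ x ∂(unif K), ‖T x - S x‖ ^ 2 ≤ 4 * L ^ 2 := by
    filter_upwards [hTY, hSY] with x h1 h2
    have : ‖T x - S x‖ ≤ 2 * L := (norm_sub_le _ _).trans (by linarith [hL _ h1, hL _ h2])
    calc ‖T x - S x‖ ^ 2 ≤ (2 * L) ^ 2 := by gcongr
      _ = _ := by ring
  have hi : Integrable (fun x => ‖T x - S x‖ ^ 2) (unif K) :=
    Integrable.of_bound ((hT.1.sub hS.1).norm.pow_const 2).aestronglyMeasurable (4 * L ^ 2)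
      (hb.mono fun x hx => by rwa [Real.norm_of_nonneg (by positivity)])
  set D := ∫ x, ‖T x - S x‖ ^ 2 ∂(unif K) with hD
  have hD0 : 0 ≤ D := integral_nonneg fun x => by positivity
  have hDB : D ≤ 4 * L ^ 2 := by
    have := integral_mono_ae hi (integrable_const _) hb
    simpa using this
  have hX : eLpNorm (fun x => T x - S x) 2 (unif K) = (ENNReal.ofReal D) ^ (1 / 2 : ℝ) := by
    rw [eLpNorm_eq_lintegral_rpow_enorm_toReal (by norm_num) (by norm_num), hD,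
      ofReal_integral_eq_lintegral_ofReal hi (Eventually.of_forall fun x => by positivity)]
    simp only [ENNReal.toReal_ofNat, ENNReal.rpow_ofNat]
    congr 2; funext x
    rw [ENNReal.ofReal_pow (norm_nonneg _), ofReal_norm]
  rw [hX]
  have hW : (ENNReal.ofReal (D ^ 3)) ^ (1 / 2 : ℝ) ≤ c * W2 μ ν := by
    rw [mul_comm, ← ENNReal.div_le_iff_le_mul (Or.inl hc0) (Or.inl hct)]
    unfold W2
    refine le_iInf fun π => le_iInf fun hπ => ?_
    rw [ENNReal.div_le_iff_le_mul (Or.inl hc0) (Or.inl hct)]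
    have := coupling_prob hπ.1
    have hπY := coupling_ae hπ.1 hπ.2 hμ hν
    have hI : Integrable (fun p : EuclideanSpace ℝ (Fin d) × EuclideanSpace ℝ (Fin d) =>
        ‖p.1 - p.2‖ ^ 2) π := by
      refine Integrable.of_bound (by fun_prop) (4 * L ^ 2) ?_
      have : ∀ᵐ p ∂π, p ∈ Y ×ˢ Y := hπY
      filter_upwards [this] with p hp
      have : ‖p.1 - p.2‖ ≤ 2 * L := (norm_sub_le _ _).trans (by linarith [hL _ hp.1, hL _ hp.2])
      rw [Real.norm_of_nonneg (by positivity)]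
      calc ‖p.1 - p.2‖ ^ 2 ≤ (2 * L) ^ 2 := by gcongr
        _ = _ := by ring
    have hI0 : 0 ≤ ∫ p, ‖p.1 - p.2‖ ^ 2 ∂π := integral_nonneg fun p => by positivity
    have e1 := cube_le_of_forall hC hr hD0 hDB hI0 (H μ ν hμ hν T S hT hS π hπ.1 hπ.2)
    have e2 : ∫⁻ p, ‖p.1 - p.2‖ₑ ^ 2 ∂π = ENNReal.ofReal (∫ p, ‖p.1 - p.2‖ ^ 2 ∂π) := by
      rw [ofReal_integral_eq_lintegral_ofReal hI (Eventually.of_forall fun x => by positivity)]
      congr 1; funext x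
      rw [ENNReal.ofReal_pow (norm_nonneg _), ofReal_norm]
    rw [e2, hc, ← ENNReal.mul_rpow_of_nonneg _ _ (by norm_num), ← ENNReal.ofReal_mul hI0]
    refine ENNReal.rpow_le_rpow (ENNReal.ofReal_le_ofReal ?_) (by norm_num)
    rw [mul_comm]; exact e1
  rw [← ENNReal.mul_rpow_of_nonneg _ _ (by norm_num)]
  refine le_trans (le_of_eq ?_) (ENNReal.rpow_le_rpow hW (by norm_num))
  rw [ENNReal.ofReal_pow hD0, ← ENNReal.rpow_natCast, ← ENNReal.rpow_mul, ← ENNReal.rpow_mul]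
  norm_num

end Vale.Agent.P074
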